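import Vale.Agent.P233.U.Curve
import Vale.Agent.P233.H372.C1b
import Vale.Agent.P233.H339.Obst

/-!
# P233, block C2: determinism of the limit flow at interior times
-/

set_option linter.all false

open MeasureTheory Filter Topology Set
open scoped ENNReal NNReal InnerProductSpace

universe u

namespace Vale.Agent.P233.H638

open Vale.Agent.P233.PC

section abstract

variable {M : Type u} [MeasurableSpace M] {m : Measure M}

theorem l2i_mul {f g : M →ₘ[m] ℝ} (hf : L2i m f) (hg : L2i m g) : L2i m (f * g) :=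
  ⟨mem_mul_top hf.2 hg.1, mem_mul_top hf.2 hg.2⟩

theorem l2i_sq {f : M →ₘ[m] ℝ} (hf : L2i m f) : L2i m (f ^ 2) := by
  rw [sq]; exact l2i_mul hf hf

theorem l2i_add {f g : M →ₘ[m] ℝ} (hf : L2i m f) (hg : L2i m g) : L2i m (f + g) :=
  ⟨mem_add hf.1 hg.1, mem_add hf.2 hg.2⟩

theorem l2i_smul (c : ℝ) {f : M →ₘ[m] ℝ} (hf : L2i m f) : L2i m (c • f) :=
  ⟨mem_smul c hf.1, mem_smul c hf.2⟩

theorem l2i_bd {f : M →ₘ[m] ℝ} (hf : L2i m f) : ∃ B : ℝ, 0 ≤ B ∧ ∀ᵐ x ∂m, |f x| ≤ B := by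
  obtain ⟨B, hB⟩ := mem_top_iff.1 hf.2
  exact ⟨|B|, abs_nonneg _, hB.mono fun x hx => hx.trans (le_abs_self _)⟩

end abstract

variable {M : Type u} [MetricSpace M] [SecondCountableTopology M] [MeasurableSpace M]
  [BorelSpace M] {m : Measure M}



/-- cut-off functions -/
theorem exists_chi (hfin : ∀ (x : M) (r : ℝ), m (Metric.ball x r) < ∞) (p : M) (R : ℝ) :
    ∃ χ : M →ₘ[m] ℝ, χ ∈ (sob m).A ∧ MemLp χ 1 m ∧ 0 ≤ χ ∧ (∀ᵐ x ∂m, χ x ≤ 1) ∧
      ∀ᵐ x ∂m, dist p x ≤ R → χ x = 1 := by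
  set v : M → ℝ := fun x => max (min 1 (R + 1 - dist p x)) 0 with hv
  have hl : LipschitzWith 1 v := by
    have h1 : LipschitzWith 1 fun x : M => R + 1 - dist p x := by
      refine LipschitzWith.of_dist_le_mul fun x y => ?_
      rw [NNReal.coe_one, one_mul, Real.dist_eq]
      have : R + 1 - dist p x - (R + 1 - dist p y) = dist p y - dist p x := by ring
      rw [this, abs_sub_comm, dist_comm p x, dist_comm p y]
      exact abs_dist_sub_le x y p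
    have h2 := (h1.const_min 1).max_const 0
    exact h2
  have hR : ∀ x, R + 1 ≤ dist p x → v x = 0 := by
    intro x hx
    rw [hv]
    simp only
    rw [max_eq_right]
    exact (min_le_right _ _).trans (by linarith)
  have hA := H183.cl_mem_A hfin hl hR
  have hae : ⇑(cl m v) =ᵐ[m] v := H183.cl_cont hl.continuous
  have h01 : ∀ x, 0 ≤ v x ∧ v x ≤ 1 := fun x =>
    ⟨le_max_right _ _, max_le (min_le_left _ _) zero_le_one⟩
  refine ⟨cl m v, hA, ?_, ?_, ?_, ?_⟩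
  · have h1 : MemLp ((Metric.ball p (R + 1)).indicator fun _ => (1 : ℝ)) 1 m :=
      memLp_indicator_const 1 Metric.isOpen_ball.measurableSet 1 (Or.inr (hfin p _).ne)
    refine h1.of_le (AEEqFun.aestronglyMeasurable _) ?_
    filter_upwards [hae] with x hx
    rw [hx, Real.norm_eq_abs, abs_of_nonneg (h01 x).1]
    by_cases hxb : x ∈ Metric.ball p (R + 1)
    · rw [Set.indicator_of_mem hxb, norm_one]; exact (h01 x).2
    · rw [Set.indicator_of_notMem hxb, norm_zero]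
      rw [Metric.mem_ball, not_lt, dist_comm] at hxb
      exact (hR x hxb).le
  · rw [nonneg_iff_ae]
    filter_upwards [hae] with x hx
    rw [hx]; exact (h01 x).1
  · filter_upwards [hae] with x hx
    rw [hx]; exact (h01 x).2
  · filter_upwards [hae] with x hx h2
    rw [hx, hv]
    simp only
    rw [min_eq_left (by linarith)]
    exact max_eq_left zero_le_one

theorem std_gamma {K N : ℝ} (h : Std m K N) : IsGamma (sob m) :=
  isGamma_sob h.hfin h.rcd.quadratic h.rcd.sobolev_to_lipschitz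

theorem std_bei {K N : ℝ} (h : Std m K N) : (sob m).BEi K := (std_gamma h).bei h.hN h.rcd.bochner

theorem sigmaFinite_of_balls (h : ∀ (x : M) (r : ℝ), m (Metric.ball x r) < ∞) (p : M) :
    SigmaFinite m :=
  ⟨⟨{ set := fun n : ℕ => Metric.ball p n
      set_mem := fun _ => trivial
      finite := fun n => h p n
      spanning := by
        rw [eq_univ_iff_forall]
        intro x
        obtain ⟨n, hn⟩ := exists_nat_gt (dist x p)
        exact mem_iUnion.mpr ⟨n, Metric.mem_ball.mpr hn⟩ }⟩⟩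

section lim

variable {K N : ℝ} {p : M} {s₀ C₀ : ℝ} {φ ρ : ℝ → M →ₘ[m] ℝ}
  {R : ℝ → ℝ → (M →ₘ[m] ℝ) → (M →ₘ[m] ℝ)}

/-- uniform bound of the densities on `[a,1]` -/
theorem rho_bd (hN : 0 < N) (hL : Lim m K N p s₀ C₀ φ ρ R) {a : ℝ} (ha : 0 < a) :
    ∃ c : ℝ, 0 ≤ c ∧ ∀ t ∈ Icc a 1, ∀ᵐ x ∂m, |ρ t x| ≤ c := by
  refine ⟨cK K C₀ * a ^ (-N), by unfold cK; positivity, fun t ht => ?_⟩
  have ht' : t ∈ Ioc (0 : ℝ) 1 := ⟨ha.trans_le ht.1, ht.2⟩
  filter_upwards [hL.ρ_le t ht', nonneg_iff_ae.1 (hL.ρ_nonneg t ht')] with x h1 h2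
  rw [abs_of_nonneg h2]
  refine h1.trans ?_
  have h3 : t ^ (-N) ≤ a ^ (-N) :=
    Real.antitoneOn_rpow_Ioi_of_exponent_nonpos (by linarith) ha (ha.trans_le ht.1) ht.1
  have h4 : 0 ≤ cK K C₀ := by unfold cK; positivity
  gcongr

/-- bounds of `R t r k`, uniform in `t ∈ [a,1]` -/
theorem R_bds (hN : 0 < N) (hL : Lim m K N p s₀ C₀ φ ρ R) {a : ℝ} (ha : 0 < a) {r : ℝ}
    (hr : r ∈ Ioc (0 : ℝ) 1) {k : M →ₘ[m] ℝ} (hk : L2i m k) :
    ∃ B : ℝ, 0 ≤ B ∧ ∀ t ∈ Icc a 1, I (R t r k ^ 2) ≤ B ^ 2 ∧ ∀ᵐ x ∂m, |R t r k x| ≤ B := by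
  obtain ⟨c, hc0, hc⟩ := rho_bd hN hL ha
  obtain ⟨B, hB0, hB⟩ := l2i_bd hk
  set A := c * I (k ^ 2 * ρ r) with hA
  have hk2 := l2i_sq hk
  have hk1 : MemLp (k ^ 2 : M →ₘ[m] ℝ) 1 m := mem_sq hk.1
  have hA0 : 0 ≤ A := by
    refine mul_nonneg hc0 (I_nonneg ?_)
    rw [nonneg_iff_ae]
    filter_upwards [mul_ae (k ^ 2) (ρ r), nonneg_iff_ae.1 (sq_nonneg' k),
      nonneg_iff_ae.1 (hL.ρ_nonneg r hr)] with x a1 a2 a3
    rw [a1]; positivity
  refine ⟨√A + B * c, by positivity, fun t ht => ⟨?_, ?_⟩⟩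
  · have ht' : t ∈ Ioc (0 : ℝ) 1 := ⟨ha.trans_le ht.1, ht.2⟩
    have h1 := hL.R_sq t ht' r hr k hk
    have h2 := hL.R_mass t ht' r hr (k ^ 2) hk2 hk1
    have h3 := hL.R_nonneg t ht' r hr (k ^ 2) hk2 (sq_nonneg' k)
    have h4 : I (R t r k ^ 2) ≤ A := by
      rw [hA, ← h2.2, ← I_smul]
      refine I_mono (mem_sq (hL.R_mem t ht' r hr k hk).1) (mem_smul _ h2.1) ?_
      rw [le_iff_ae]
      filter_upwards [le_iff_ae.1 h1, mul_ae (ρ t) (R t r (k ^ 2)), smul_ae (R t r (k ^ 2)) c,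
        nonneg_iff_ae.1 h3, hc t ht] with x a1 a2 a3 a4 a5
      rw [a2] at a1
      rw [a3]
      refine a1.trans ?_
      gcongr
      exact (le_abs_self _).trans a5
    refine h4.trans ?_
    have h5 : A = √A ^ 2 := (Real.sq_sqrt hA0).symm
    rw [h5]
    have h6 : 0 ≤ B * c := by positivity
    have h7 := Real.sqrt_nonneg A
    rw [Real.sqrt_sq h7]
    gcongr
    linarith
  · have ht' : t ∈ Ioc (0 : ℝ) 1 := ⟨ha.trans_le ht.1, ht.2⟩
    filter_upwards [hL.R_le t ht' r hr k hk B hB, hc t ht] with x a1 a2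
    have h7 := Real.sqrt_nonneg A
    calc |R t r k x| ≤ B * ρ t x := a1
      _ ≤ B * c := by gcongr; exact (le_abs_self _).trans a2
      _ ≤ _ := by linarith

/-- the radial potentials are Hölder continuous in time in energy -/
theorem zc_E (hC : IsDir (sob m)) (hfin : ∀ (x : M) (r : ℝ), m (Metric.ball x r) < ∞)
    (hs : 0 < s₀) (hC0 : 0 < C₀) (hL : Lim m K N p s₀ C₀ φ ρ R) {a : ℝ} (ha : 0 < a)
    (ha1 : a ≤ 1) :
    ∃ D : ℝ, 0 ≤ D ∧ ∀ t ∈ Icc a 1, ∀ r ∈ Icc a 1,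
      I ((sob m).Γ (zc m p s₀ C₀ t - zc m p s₀ C₀ r) (zc m p s₀ C₀ t - zc m p s₀ C₀ r))
        ≤ D * |t - r| := by
  obtain ⟨c, hc⟩ := hL.z_lap (a / 2) ⟨by linarith, by linarith⟩
  obtain ⟨χ, hχA, hχ1, hχ0, -, hχ⟩ := exists_chi hfin p (√(2 * C₀ * (1 + s₀)))
  refine ⟨|2 * c * (C₀ / s₀) * I χ|, abs_nonneg _, fun t ht r hr => ?_⟩
  have ht0 : 0 ≤ t := by linarith [ht.1]
  have hr0 : 0 ≤ r := by linarith [hr.1]
  have hz : ∀ t ∈ Icc a 1, ∀ᵐ x ∂m, zc m p s₀ C₀ t x ≠ 0 → χ x = 1 := by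
    intro t ht
    have ht0 : 0 ≤ t := by linarith [ht.1]
    filter_upwards [hχ, H372.zc_ae (m := m) (p := p) hs ht0 hC0.le] with x a1 a2 a3
    apply a1
    by_contra hcon
    push Not at hcon
    apply a3
    rw [a2]
    refine H372.zr_out hs ht0 (le_trans (Real.sqrt_le_sqrt ?_) hcon.le)
    have := ht.2
    gcongr
  have h1 := hC.E_sub_le_of_lapLE (z := zc m p s₀ C₀ t) (z' := zc m p s₀ C₀ r) (χ := χ) (c := c)
    (δ := C₀ / s₀ * |t - r|) (hL.z_mem t ⟨ht0, ht.2⟩) (hL.z_mem r ⟨hr0, hr.2⟩) hχA hχ1 hχ0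
    (by
      filter_upwards [hz t ht, hz r hr] with x a1 a2 a3
      exact a3.elim a1 a2)
    (H372.zc_time hs hC0.le ⟨ht0, ht.2⟩ ⟨hr0, hr.2⟩)
    (hc t ⟨by linarith [ht.1], ht.2⟩) (hc r ⟨by linarith [hr.1], hr.2⟩)
  refine h1.trans ?_
  calc 2 * c * (C₀ / s₀ * |t - r|) * I χ = (2 * c * (C₀ / s₀) * I χ) * |t - r| := by ring
    _ ≤ |2 * c * (C₀ / s₀) * I χ| * |t - r| := by
        gcongr
        exact le_abs_self _

/-- the curves `t ↦ R t r k` are solutions of the continuity equation on `[a,1]` -/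
theorem ce_R (hC : IsDir (sob m)) (hfin : ∀ (x : M) (r : ℝ), m (Metric.ball x r) < ∞)
    (hN : 0 < N) (hs : 0 < s₀) (hC0 : 0 < C₀) (hL : Lim m K N p s₀ C₀ φ ρ R) {a : ℝ} (ha : 0 < a)
    (ha1 : a ≤ 1) {r : ℝ} (hr : r ∈ Ioc (0 : ℝ) 1) {k : M →ₘ[m] ℝ} (hk : L2i m k) :
    ∃ B : ℝ, 0 ≤ B ∧ (sob m).CE a 1 B (zc m p s₀ C₀) (fun t => R t r k) := by
  obtain ⟨L, hLL⟩ := hL.z_grad
  obtain ⟨D, hD0, hD⟩ := zc_E hC hfin hs hC0 hL ha ha1
  obtain ⟨B, hB0, hB⟩ := R_bds hN hL ha hr hk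
  refine ⟨(√|L| + 1) * B, by positivity, ?_⟩
  have h01 : ∀ t ∈ Icc a 1, t ∈ Icc (0 : ℝ) 1 := fun t ht => ⟨by linarith [ht.1], ht.2⟩
  have h01' : ∀ t ∈ Icc a 1, t ∈ Ioc (0 : ℝ) 1 := fun t ht => ⟨by linarith [ht.1], ht.2⟩
  refine hC.ce_of_int (abs_nonneg L) hD0 hB0 (fun t ht => (hL.z_mem t (h01 t ht)).1)
    (fun t ht => ?_) hD (fun t ht => (hL.R_mem t (h01' t ht) r hr k hk).1)
    (fun t ht => (hB t ht).1) (fun t ht => (hB t ht).2)
    (fun g hg q hq t ht => hL.CE r hr k hk g hg q (h01' q hq) t (h01' t ht))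
  filter_upwards [hLL t (h01 t ht)] with x hx
  exact hx.trans (le_abs_self _)

/-- the potentials `η_t` of Lewy–Stampacchia on `[a,b] ⊂ (0,1)` -/
theorem exists_eta (hC : IsDir (sob m)) (hfin : ∀ (x : M) (r : ℝ), m (Metric.ball x r) < ∞)
    (hN : 0 < N) (hs : 0 < s₀) (hC0 : 0 < C₀) (hL : Lim m K N p s₀ C₀ φ ρ R) {a b : ℝ}
    (ha : 0 < a) (hb : b < 1) :
    ∃ (K' : ℝ) (η h : ℝ → M →ₘ[m] ℝ), 0 ≤ K' ∧ ∀ t ∈ Icc a b, (sob m).IsLap (η t) (h t) ∧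
      (∀ᵐ x ∂m, |h t x| ≤ K') ∧ I (h t ^ 2) ≤ K' ∧ I ((sob m).Γ (η t) (η t)) ≤ K' ∧
      ∀ g ∈ (sob m).W, ∀ᵐ x ∂m, φ t x = zc m p s₀ C₀ t x →
        (sob m).Γ (η t) g x = (sob m).Γ (zc m p s₀ C₀ t) g x := by
  haveI : SigmaFinite m := sigmaFinite_of_balls hfin p
  obtain ⟨B, hB⟩ := hL.φ_bd
  obtain ⟨R₀, hR₀⟩ := hL.φ_far
  obtain ⟨c₂, hc₂⟩ := hL.φ_lap
  by_cases hab : a ≤ b
  swap
  · exact ⟨0, fun _ => 0, fun _ => 0, le_rfl, fun t ht => absurd (ht.1.trans ht.2) hab⟩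
  obtain ⟨c₁, hc₁⟩ := hL.z_lap a ⟨ha, by linarith⟩
  obtain ⟨χ, hχA, hχ1, hχ0, hχle, hχ⟩ :=
    exists_chi hfin p (max R₀ (√(2 * C₀ * (1 + s₀))))
  set c := |c₁| + |N / (1 - b)| + |c₂| with hc
  have hc0 : 0 ≤ c := by positivity
  set A := c + 2 * (|B| + C₀) with hA
  have hA0 : 0 ≤ A := by positivity
  set V := I (χ ^ 2) with hV
  have hV0 : 0 ≤ V := I_sq_nonneg _
  have hχ2 : MemLp χ 2 m := hC.memLp χ hχA.1
  set K' := A + A ^ 2 * V with hK'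
  have key : ∀ t ∈ Icc a b, ∃ η h : M →ₘ[m] ℝ, (sob m).IsLap η h ∧
      (∀ᵐ x ∂m, |h x| ≤ K') ∧ I (h ^ 2) ≤ K' ∧ I ((sob m).Γ η η) ≤ K' ∧
      ∀ g ∈ (sob m).W, ∀ᵐ x ∂m, φ t x = zc m p s₀ C₀ t x →
        (sob m).Γ η g x = (sob m).Γ (zc m p s₀ C₀ t) g x := by
    intro t ht
    have ht0 : 0 < t := ha.trans_le ht.1
    have ht1 : t < 1 := ht.2.trans_lt hb
    have ht01 : t ∈ Icc (0 : ℝ) 1 := ⟨ht0.le, ht1.le⟩
    have hzae := H372.zc_ae (m := m) (p := p) hs ht0.le hC0.le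
    have hzb : ∀ᵐ x ∂m, |zc m p s₀ C₀ t x| ≤ C₀ := by
      filter_upwards [hzae] with x hx
      rw [hx, abs_le]
      exact ⟨H790.zr_ge p (by linarith) hC0.le x, (H790.zr_nonpos p s₀ C₀ t x).trans hC0.le⟩
    have hcut : ∀ᵐ x ∂m, (φ t x ≠ 0 ∨ zc m p s₀ C₀ t x ≠ 0) → χ x = 1 := by
      filter_upwards [hχ, hR₀ t ht01, hzae] with x a1 a2 a3 a4
      apply a1
      rcases a4 with a4 | a4
      · by_contra hcon
        push Not at hcon
        exact a4 (a2 ((le_max_left _ _).trans hcon.le))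
      · by_contra hcon
        push Not at hcon
        apply a4
        rw [a3]
        refine H372.zr_out hs ht0.le (le_trans (Real.sqrt_le_sqrt ?_)
          ((le_max_right _ _).trans hcon.le))
        gcongr
    obtain ⟨η, h, hlap, l1, l2, -, -, hη1, -, hh, hoff, hΓ⟩ := hC.ls_cut (c := c)
      (φ := φ t) (u := zc m p s₀ C₀ t) (χ := χ) hc0 (hL.φ_mem t ht01) (hL.z_mem t ht01)
      (hL.φ_le t ht01) hχA hχ1 hχ0 hcut
      (fun g hg hg0 hg1 => by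
        have h1 := hc₂ t ⟨ht0.le, ht1⟩ g hg.1 hg0 hg1
        have h2 : 0 ≤ I g := I_nonneg hg0
        have h3 : N / (1 - t) ≤ |N / (1 - b)| := by
          refine le_trans ?_ (le_abs_self _)
          exact div_le_div_of_nonneg_left hN.le (by linarith) (by linarith [ht.2])
        have h4 : (N / (1 - t) + c₂) * I g ≤ c * I g := by
          refine mul_le_mul_of_nonneg_right ?_ h2
          have := le_abs_self c₂
          have := abs_nonneg c₁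
          rw [hc]; linarith
        nlinarith)
      (fun g hg hg0 hg1 => by
        have h1 := hc₁ t ⟨ht.1, ht1.le⟩ g hg.1 hg0 hg1
        have h2 : 0 ≤ I g := I_nonneg hg0
        refine h1.trans (mul_le_mul_of_nonneg_right ?_ h2)
        have := le_abs_self c₁
        have h3 := abs_nonneg (N / (1 - b))
        have h4 := abs_nonneg c₂
        rw [hc]; linarith)
    have hsum : ∀ᵐ x ∂m, |φ t x| + |zc m p s₀ C₀ t x| ≤ (|B| + C₀) * χ x := by
      filter_upwards [hcut, hB t ht01, hzb, nonneg_iff_ae.1 hχ0] with x a1 a2 a3 a4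
      by_cases hx : φ t x ≠ 0 ∨ zc m p s₀ C₀ t x ≠ 0
      · rw [a1 hx, mul_one]
        have := le_abs_self B
        linarith
      · push Not at hx
        rw [hx.1, hx.2, abs_zero, add_zero]
        positivity
    have hhA : ∀ᵐ x ∂m, |h x| ≤ A * χ x := by
      filter_upwards [hh, hsum] with x a1 a2
      rw [hA]; nlinarith
    have hηA : ∀ᵐ x ∂m, |η x| ≤ A * χ x := by
      filter_upwards [le_iff_ae.1 l1, le_iff_ae.1 l2, hsum, nonneg_iff_ae.1 hχ0]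
        with x a1 a2 a3 a4
      have h5 : |η x| ≤ |φ t x| + |zc m p s₀ C₀ t x| := by
        rw [abs_le]
        constructor
        · linarith [neg_abs_le (φ t x), abs_nonneg (zc m p s₀ C₀ t x)]
        · linarith [le_abs_self (zc m p s₀ C₀ t x), abs_nonneg (φ t x)]
      have h6 : 0 ≤ (c + (|B| + C₀)) * χ x := by positivity
      calc |η x| ≤ (|B| + C₀) * χ x := h5.trans a3
        _ ≤ (|B| + C₀) * χ x + (c + (|B| + C₀)) * χ x := by linarith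
        _ = A * χ x := by rw [hA]; ring
    have hh2 : I (h ^ 2) ≤ A ^ 2 * V := by
      rw [hV, ← I_smul]
      refine I_mono (mem_sq hlap.2.1) (mem_smul _ (mem_sq hχ2)) ?_
      rw [le_iff_ae]
      filter_upwards [sq_ae h, smul_ae (χ ^ 2) (A ^ 2), sq_ae χ, hhA] with x a1 a2 a3 a4
      rw [a1, a2, a3, ← sq_abs, ← mul_pow]
      gcongr
    have hη2 : I (η ^ 2) ≤ A ^ 2 * V := by
      rw [hV, ← I_smul]
      refine I_mono (mem_sq (hC.memLp η hlap.1)) (mem_smul _ (mem_sq hχ2)) ?_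
      rw [le_iff_ae]
      filter_upwards [sq_ae η, smul_ae (χ ^ 2) (A ^ 2), sq_ae χ, hηA] with x a1 a2 a3 a4
      rw [a1, a2, a3, ← sq_abs, ← mul_pow]
      gcongr
    refine ⟨η, h, hlap, ?_, hh2.trans (by linarith), ?_, fun g hg => ?_⟩
    · filter_upwards [hhA, hχle] with x a1 a2
      refine a1.trans ?_
      have h7 : 0 ≤ A ^ 2 * V := by positivity
      calc A * χ x ≤ A * 1 := by gcongr
        _ ≤ K' := by rw [hK']; linarith
    · have e1 : I ((sob m).Γ η η) = -I (h * η) := hlap.2.2 η hlap.1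
      have e2 := I_abs_le hlap.2.1 (hC.memLp η hlap.1)
      have e3 : √(I (h ^ 2)) * √(I (η ^ 2)) ≤ √(A ^ 2 * V) * √(A ^ 2 * V) := by gcongr
      rw [Real.mul_self_sqrt (by positivity)] at e3
      rw [e1]
      have := (abs_le.1 e2).1
      linarith
    · filter_upwards [hΓ g hg] with x a1 a2
      exact (a1 a2).1
  choose! η h hηh using key
  exact ⟨K', η, h, by positivity, fun t ht => hηh t ht⟩

/-- off the contact set there is no mass -/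
theorem R_supp (hL : Lim m K N p s₀ C₀ φ ρ R) {t : ℝ} (ht : t ∈ Ioo (0 : ℝ) 1) {r : ℝ}
    (hr : r ∈ Ioc (0 : ℝ) 1) {k : M →ₘ[m] ℝ} (hk : L2i m k) :
    ∀ᵐ x ∂m, R t r k x = 0 ∨ φ t x = zc m p s₀ C₀ t x := by
  have ht' : t ∈ Ioc (0 : ℝ) 1 := ⟨ht.1, ht.2.le⟩
  obtain ⟨B, hB0, hB⟩ := l2i_bd hk
  filter_upwards [hL.R_le t ht' r hr k hk B hB, hL.ρ_supp t ht,
    le_iff_ae.1 (hL.φ_le t ⟨ht.1.le, ht.2.le⟩)] with x a1 a2 a3
  rcases eq_or_lt_of_le a3 with h | h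
  · exact Or.inr h
  · left
    rw [a2 h, mul_zero] at a1
    exact abs_eq_zero.1 (le_antisymm a1 (abs_nonneg _))

end lim

end Vale.Agent.P233.H638
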