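import Vale.Agent.P233.U.Static

/-! Commutator estimate without sup bounds of `Δη`, `|∇η|` (helper22): needed near `t = 1`. -/

set_option linter.all false

open MeasureTheory Filter Topology
open scoped ENNReal NNReal

namespace Vale.Agent.P233

variable {M : Type*} [MeasurableSpace M] {m : Measure M} {C : Calc m}

namespace IsDir

variable (hC : IsDir C)
variable {f g h k s s' u v w b η S B : M →ₘ[m] ℝ} {a : ℝ}

include hC

/-- the commutator identity, `h = Δη` only in `L²` -/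
theorem Cm_eq2 (ha : 0 < a) (hη : C.IsLap η h)
    (hs : MemLp s 2 m) (hsT : MemLp s ∞ m) (hs' : MemLp s' 2 m) (hsT' : MemLp s' ∞ m) :
    C.Cm η a s s' = -(a * (I (C.Γ (C.J a (C.J a s')) η * C.lap (C.J a s))
        + I (C.Γ (C.J a s) η * C.lap (C.J a (C.J a s')))
        - I (h * C.Γ (C.J a (C.J a s')) (C.J a s))))
      - a * I (h * C.Γ (C.J a (C.J a s')) (C.J a s))
      - I ((C.J a (C.J a s') - C.J a s') * (C.J a s) * h) := by
  set S := C.J a s with hS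
  set b := C.J a s' with hb
  set B := C.J a b with hBB
  have SA : S ∈ C.A := hC.U_J_A ha hs hsT
  have bA : b ∈ C.A := hC.U_J_A ha hs' hsT'
  have BA : B ∈ C.A := hC.U_J_A ha (hC.memLp _ bA.1) bA.2
  have lS : C.lap S = a⁻¹ • (S - s) := hC.lap_eq (hC.J_isLap ha hs)
  have lB : C.lap B = a⁻¹ • (B - b) := hC.lap_eq (hC.J_isLap ha (hC.memLp _ bA.1))
  have lBA : C.lap B ∈ C.A := by rw [lB]; exact hC.A_smul _ (hC.A_sub BA bA)
  have lST : MemLp (C.lap S) ∞ m := by rw [lS]; exact mem_smul _ (mem_sub SA.2 hsT)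
  have es : s = S - a • C.lap S := by rw [lS, smul_smul, mul_inv_cancel₀ ha.ne', one_smul]; abel
  have eb : b = B - a • C.lap B := by rw [lB, smul_smul, mul_inv_cancel₀ ha.ne', one_smul]; abel
  have gB1 : MemLp (C.Γ B η) 1 m := hC.Γ_mem1 BA.1 hη.1
  have m1 : MemLp (C.Γ B η * S : M →ₘ[m] ℝ) 1 m := mem_top_mul gB1 SA.2
  have m2 : MemLp (C.Γ B η * C.lap S : M →ₘ[m] ℝ) 1 m := mem_top_mul gB1 lST
  have glB1 : MemLp (C.Γ (C.lap B) η) 1 m := hC.Γ_mem1 lBA.1 hη.1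
  have m3 : MemLp (C.Γ (C.lap B) η * S : M →ₘ[m] ℝ) 1 m := mem_top_mul glB1 SA.2
  have i1 : I (C.Γ B η * s) = I (C.Γ B η * S) - a * I (C.Γ B η * C.lap S) := by
    have : C.Γ B η * s = C.Γ B η * S - a • (C.Γ B η * C.lap S) := by
      conv_lhs => rw [es]
      algebra
    rw [this, I_sub m1 (mem_smul _ m2), I_smul]
  have i2 : I (C.Γ b η * S) = I (C.Γ B η * S) - a * I (C.Γ (C.lap B) η * S) := by
    have e0 : C.Γ b η = C.Γ B η - a • C.Γ (C.lap B) η := by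
      conv_lhs => rw [eb]
      rw [hC.Γ_sub_left BA.1 (hC.smul_mem _ _ lBA.1) hη.1, hC.smul_left _ _ lBA.1 _ hη.1]
    have : C.Γ b η * S = C.Γ B η * S - a • (C.Γ (C.lap B) η * S) := by
      rw [e0]; algebra
    rw [this, I_sub m1 (mem_smul _ m3), I_smul]
  have i3 := hC.U_ibp hη lBA SA
  have i4 : a * I (C.lap B * S * h) = I ((B - b) * S * h) := by
    rw [← I_smul]; congr 1
    have : a • (C.lap B * S * h) = (a • C.lap B) * S * h := by algebra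
    rw [this, lB, smul_smul, mul_inv_cancel₀ ha.ne', one_smul]
  have e5 : C.Γ S η * C.lap B = C.lap B * C.Γ S η := by ring
  unfold Calc.Cm
  rw [i1, i2, i3, ← i4, e5]
  ring

theorem Cm_sub_left2 (ha : 0 < a) (hη : η ∈ C.W)
    (hs : MemLp s 2 m) (hsT : MemLp s ∞ m) (hu : MemLp u 2 m) (huT : MemLp u ∞ m)
    (hs' : MemLp s' 2 m) :
    C.Cm η a s s' = C.Cm η a (s - u) s' + C.Cm η a u s' := by
  have bW := hC.J_mem ha hs'
  have BW := hC.J_mem ha (hC.memLp _ bW)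
  have gb := hC.Γ_mem1 bW hη
  have gB := hC.Γ_mem1 BW hη
  unfold Calc.Cm
  rw [hC.J_sub ha hs hu, mul_sub, mul_sub, I_sub (mem_top_mul gB hsT) (mem_top_mul gB huT),
    I_sub (mem_top_mul gb (hC.U_J_A ha hs hsT).2) (mem_top_mul gb (hC.U_J_A ha hu huT).2)]
  ring

/-- the commutator with a bounded Lipschitz Sobolev function in the first slot tends to `0` -/
theorem Cm_tendsto_of_A2 (hη : C.IsLap η h) (hu : u ∈ C.A) (huΓ : MemLp (C.Γ u u) ∞ m)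
    (hs : MemLp s 2 m) (hsT : MemLp s ∞ m) :
    Tendsto (fun n : ℕ => C.Cm η ((n : ℝ) + 1)⁻¹ u s) atTop (𝓝 0) := by
  obtain ⟨R0, hR0⟩ := mem_top_iff.1 hsT
  have hR : ∀ᵐ x ∂m, |s x| ≤ |R0| := hR0.mono fun x hx => hx.trans (le_abs_self _)
  have u2 := hC.memLp _ hu.1
  have h2 := hη.2.1
  have hl : ∀ n : ℕ, (0 : ℝ) < ((n : ℝ) + 1)⁻¹ := fun n => by positivity
  have e : ∀ n : ℕ, C.Cm η ((n : ℝ) + 1)⁻¹ u s
      = (-I (C.J ((n : ℝ) + 1)⁻¹ (C.J ((n : ℝ) + 1)⁻¹ s) * C.Γ η u)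
          - I (C.J ((n : ℝ) + 1)⁻¹ (C.J ((n : ℝ) + 1)⁻¹ s) * (u * h)))
        - (-I (C.J ((n : ℝ) + 1)⁻¹ s * C.Γ η (C.J ((n : ℝ) + 1)⁻¹ u))
          - I (C.J ((n : ℝ) + 1)⁻¹ s * (C.J ((n : ℝ) + 1)⁻¹ u * h))) := by
    intro n
    have bA : C.J ((n : ℝ) + 1)⁻¹ s ∈ C.A := hC.U_J_A (hl n) hs hsT
    have BA := hC.U_J_A (hl n) (hC.memLp _ bA.1) bA.2
    have uA := hC.U_J_A (hl n) u2 hu.2
    unfold Calc.Cm
    rw [hC.U_ibp hη BA hu, hC.U_ibp hη bA uA, hC.symm _ hu.1 _ hη.1, hC.symm _ uA.1 _ hη.1,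
      mul_assoc, mul_assoc]
  simp only [e]
  have J1 := hC.J_tendsto_L2 hs
  have J2 := hC.J2_tendsto_L2 hs
  have m1 : ∀ n : ℕ, MemLp (C.J ((n : ℝ) + 1)⁻¹ s) 2 m := fun n => hC.J_mem2 (hl n) hs
  have m2 : ∀ n : ℕ, MemLp (C.J ((n : ℝ) + 1)⁻¹ (C.J ((n : ℝ) + 1)⁻¹ s)) 2 m :=
    fun n => hC.J_mem2 (hl n) (m1 n)
  have c0 : ∀ {g : M →ₘ[m] ℝ}, Tendsto (fun _ : ℕ => I ((g - g) ^ 2)) atTop (𝓝 0) := by
    intro g
    have : (g - g) ^ 2 = 0 := by ring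
    rw [this, I_zero]; exact tendsto_const_nhds
  have gu : MemLp (C.Γ η u) 2 m := by
    rw [hC.symm _ hη.1 _ hu.1]; exact hC.Γ_mem2 hu.1 huΓ hη.1
  have uh : MemLp (u * h : M →ₘ[m] ℝ) 2 m := mem_mul_top hu.2 h2
  have t1 := I_mul_tendsto m2 hs (fun _ => gu) gu J2 c0
  have t2 := I_mul_tendsto m2 hs (fun _ => uh) uh J2 c0
  have uW : ∀ n : ℕ, C.J ((n : ℝ) + 1)⁻¹ u ∈ C.W := fun n => hC.J_mem (hl n) u2
  have bT : ∀ n : ℕ, MemLp (C.J ((n : ℝ) + 1)⁻¹ s) ∞ m := fun n => (hC.U_J_A (hl n) hs hsT).2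
  have bR : ∀ n : ℕ, ∀ᵐ x ∂m, |C.J ((n : ℝ) + 1)⁻¹ s x| ≤ |R0| := fun n => hC.J_bdd (hl n) hs hR
  -- third term
  have t3 : Tendsto (fun n : ℕ => I (C.J ((n : ℝ) + 1)⁻¹ s * C.Γ η (C.J ((n : ℝ) + 1)⁻¹ u)))
      atTop (𝓝 (I (s * C.Γ η u))) := by
    have k1 := I_mul_tendsto m1 hs (fun _ => gu) gu J1 c0
    have k2 : Tendsto (fun n : ℕ => I (C.J ((n : ℝ) + 1)⁻¹ s
        * C.Γ η (C.J ((n : ℝ) + 1)⁻¹ u - u))) atTop (𝓝 0) := by
      have j1 : Tendsto (fun n : ℕ => |R0| * (√(I (C.Γ η η))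
          * √(I (C.Γ (C.J ((n : ℝ) + 1)⁻¹ u - u) (C.J ((n : ℝ) + 1)⁻¹ u - u))))) atTop (𝓝 0) := by
        have := ((hC.tendsto_E_of_nrm2 uW hu.1 (hC.J_tendsto_W hu.1)).sqrt.const_mul
          (√(I (C.Γ η η)))).const_mul |R0|
        simpa using this
      refine squeeze_zero_norm (fun n => ?_) j1
      have dW := hC.sub_mem (uW n) hu.1
      have mG := hC.Γ_mem1 hη.1 dW
      rw [Real.norm_eq_abs]
      calc |I (C.J ((n : ℝ) + 1)⁻¹ s * C.Γ η (C.J ((n : ℝ) + 1)⁻¹ u - u))|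
          ≤ ∫ x, |(C.J ((n : ℝ) + 1)⁻¹ s * C.Γ η (C.J ((n : ℝ) + 1)⁻¹ u - u) : M →ₘ[m] ℝ) x| ∂m := by
            have := norm_integral_le_integral_norm (μ := m)
              (f := ⇑(C.J ((n : ℝ) + 1)⁻¹ s * C.Γ η (C.J ((n : ℝ) + 1)⁻¹ u - u) : M →ₘ[m] ℝ))
            simpa [I, Real.norm_eq_abs] using this
        _ ≤ ∫ x, |R0| * |C.Γ η (C.J ((n : ℝ) + 1)⁻¹ u - u) x| ∂m := by
            refine integral_mono_ae (int_of_mem (mem_mul_top (bT n) mG)).abs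
              ((int_of_mem mG).abs.const_mul _) ?_
            filter_upwards [mul_ae (C.J ((n : ℝ) + 1)⁻¹ s) (C.Γ η (C.J ((n : ℝ) + 1)⁻¹ u - u)), bR n]
              with x b1 b2
            rw [b1, abs_mul]
            exact mul_le_mul_of_nonneg_right b2 (abs_nonneg _)
        _ = |R0| * ∫ x, |C.Γ η (C.J ((n : ℝ) + 1)⁻¹ u - u) x| ∂m := integral_const_mul _ _
        _ ≤ _ := mul_le_mul_of_nonneg_left (hC.int_abs_Γ_le hη.1 dW) (abs_nonneg _)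
    have k3 := k1.add k2
    rw [add_zero] at k3
    refine k3.congr fun n => ?_
    rw [hC.Γ_sub_right hη.1 (uW n) hu.1, mul_sub, I_sub (mem_mul_top (bT n) (hC.Γ_mem1 hη.1 (uW n)))
      (mem_mul_top (bT n) (hC.Γ_mem1 hη.1 hu.1))]
    ring
  -- fourth term
  have t4 : Tendsto (fun n : ℕ => I (C.J ((n : ℝ) + 1)⁻¹ s * (C.J ((n : ℝ) + 1)⁻¹ u * h)))
      atTop (𝓝 (I (s * (u * h)))) := by
    have k1 := I_mul_tendsto m1 hs (fun _ => uh) uh J1 c0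
    have k2 : Tendsto (fun n : ℕ => I ((C.J ((n : ℝ) + 1)⁻¹ u - u)
        * (h * C.J ((n : ℝ) + 1)⁻¹ s))) atTop (𝓝 0) := by
      have j1 : Tendsto (fun n : ℕ => √(I ((C.J ((n : ℝ) + 1)⁻¹ u - u) ^ 2))
          * (|R0| * √(I (h ^ 2)))) atTop (𝓝 0) := by
        have := (hC.J_tendsto_L2 u2).sqrt.mul_const (|R0| * √(I (h ^ 2)))
        simpa using this
      refine squeeze_zero_norm (fun n => ?_) j1
      rw [Real.norm_eq_abs]
      have q : MemLp (h * C.J ((n : ℝ) + 1)⁻¹ s : M →ₘ[m] ℝ) 2 m := mem_top_mul h2 (bT n)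
      refine (I_abs_le (mem_sub (hC.memLp _ (uW n)) u2) q).trans ?_
      refine mul_le_mul_of_nonneg_left ?_ (Real.sqrt_nonneg _)
      rw [← Real.sqrt_sq (abs_nonneg R0), ← Real.sqrt_mul (sq_nonneg _)]
      exact Real.sqrt_le_sqrt (hC.mul_bdd_sq_le h2 (bR n))
    have k3 := k1.add k2
    rw [add_zero] at k3
    refine k3.congr fun n => ?_
    have q1 : MemLp (C.J ((n : ℝ) + 1)⁻¹ s * (u * h) : M →ₘ[m] ℝ) 1 m := mem_mul_22 (m1 n) uh
    have q2 : MemLp ((C.J ((n : ℝ) + 1)⁻¹ u - u) * (h * C.J ((n : ℝ) + 1)⁻¹ s) : M →ₘ[m] ℝ) 1 m :=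
      mem_mul_22 (mem_sub (hC.memLp _ (uW n)) u2) (mem_top_mul h2 (bT n))
    rw [← I_add q1 q2]
    congr 1
    ring
  have := ((t1.neg).sub t2).sub ((t3.neg).sub t4)
  rwa [sub_self] at this

end IsDir

namespace IsGamma

variable (hC : IsGamma C) {κ : ℝ} (hB : C.BEi κ)
variable {f g h k s s' u v w b η S B : M →ₘ[m] ℝ} {a : ℝ}

include hC hB

/-- the uniform bound of the commutator, with the `L²` norms of `Δη`, `∇η` only -/
theorem Cm_le2 [SigmaFinite m] (ha : 0 < a) (ha4 : 4 * |κ| * a ≤ 1) (hη : C.IsLap η h)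
    (hs : MemLp s 2 m) (hsT : MemLp s ∞ m) (hs' : MemLp s' 2 m) {R : ℝ} (hR : ∀ᵐ x ∂m, |s' x| ≤ R)
    (hR0 : 0 ≤ R) :
    |C.Cm η a s s'| ≤ 4 * R * √(I (s ^ 2)) * (√(I (h ^ 2) - κ * I (C.Γ η η)) + √(I (h ^ 2))) := by
  have hD := hC.toIsDir
  have hsT' : MemLp s' ∞ m := mem_top_iff.2 ⟨R, hR⟩
  have h2 := hη.2.1
  rw [hD.Cm_eq2 ha hη hs hsT hs' hsT']
  set S := C.J a s with hS
  set b := C.J a s' with hb
  set B := C.J a b with hBB
  have SA : S ∈ C.A := hD.U_J_A ha hs hsT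
  have bA : b ∈ C.A := hD.U_J_A ha hs' hsT'
  have BA : B ∈ C.A := hD.U_J_A ha (hC.memLp _ bA.1) bA.2
  have lS : C.lap S = a⁻¹ • (S - s) := hD.lap_eq (hD.J_isLap ha hs)
  have lB : C.lap B = a⁻¹ • (B - b) := hD.lap_eq (hD.J_isLap ha (hC.memLp _ bA.1))
  have SL : C.IsLap S (C.lap S) := by rw [lS]; exact hD.J_isLap ha hs
  have hBL : ∀ᵐ x ∂m, C.Γ B B x ≤ (√(2 * a⁻¹) * R) ^ 2 := by
    have := hC.J2_Γ_bdd hB ha ha4 hs' hR
    filter_upwards [this] with x hx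
    rw [mul_pow, Real.sq_sqrt (by positivity)]
    exact hx
  have hBT' := hD.Γ_top_of_le BA.1 hBL
  have hBT : B ∈ C.TestI := by
    have h1 : B ∈ C.B := (hC.lip_iff B BA.1).2 ⟨BA.2, hBT'⟩
    have h2 : C.IsLap B (C.lap B) := by rw [lB]; exact hD.J_isLap ha (hC.memLp _ bA.1)
    have h3 : C.lap B ∈ C.A := by rw [lB]; exact hD.A_smul _ (hD.A_sub BA bA)
    exact ⟨⟨h1, C.lap B, h2, h3.1⟩, h3.2⟩
  set H := √(I (h ^ 2) - κ * I (C.Γ η η)) with hH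
  have hH0 : 0 ≤ H := Real.sqrt_nonneg _
  set H2 := √(I (h ^ 2)) with hH2
  have hH20 : 0 ≤ H2 := Real.sqrt_nonneg _
  have hx := hC.U_hess hB hη hBT SL (L := √(2 * a⁻¹) * R) (by positivity) hBL
  set X := I (C.Γ B η * C.lap S) + I (C.Γ S η * C.lap B) - I (h * C.Γ B S) with hX
  have n1 : 0 ≤ √(I (s ^ 2)) := Real.sqrt_nonneg _
  have eS := hD.J_contr ha hs
  rw [← hS] at eS
  have pS := hD.E_nonneg SA.1
  have qS := I_sq_nonneg S
  have gS : √(I (C.Γ S S)) ≤ √(a⁻¹) * √(I (s ^ 2)) := by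
    rw [← Real.sqrt_mul (by positivity)]
    refine Real.sqrt_le_sqrt ?_
    rw [inv_mul_eq_div, le_div_iff₀ ha]; linarith
  have gS2 : √(I (S ^ 2)) ≤ √(I (s ^ 2)) := by
    refine Real.sqrt_le_sqrt ?_
    have : 0 ≤ a * I (C.Γ S S) := by positivity
    linarith
  have ha' : √(a⁻¹) * √(a⁻¹) = a⁻¹ := Real.mul_self_sqrt (by positivity)
  have h2a : √(2 * a⁻¹) ≤ 2 * √(a⁻¹) := by
    rw [Real.sqrt_mul (by norm_num)]
    refine mul_le_mul_of_nonneg_right ?_ (Real.sqrt_nonneg _)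
    have h4 : √(4 : ℝ) = 2 := by rw [show (4 : ℝ) = 2 ^ 2 by norm_num, Real.sqrt_sq (by norm_num)]
    rw [← h4]
    exact Real.sqrt_le_sqrt (by rw [h4]; norm_num)
  -- first term
  have T1 : |-(a * X)| ≤ √(I (s ^ 2)) * (4 * H * R) := by
    rw [abs_neg, abs_mul, abs_of_pos ha]
    have h1 : a * |X| ≤ a * (2 * H * (√(2 * a⁻¹) * R * (√(a⁻¹) * √(I (s ^ 2))))) := by
      refine mul_le_mul_of_nonneg_left (hx.trans ?_) ha.le
      refine mul_le_mul_of_nonneg_left ?_ (by positivity)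
      exact mul_le_mul_of_nonneg_left gS (by positivity)
    refine h1.trans ?_
    have h3 : a * (2 * H * (√(2 * a⁻¹) * R * (√(a⁻¹) * √(I (s ^ 2)))))
        ≤ a * (2 * H * (2 * √(a⁻¹) * R * (√(a⁻¹) * √(I (s ^ 2))))) := by gcongr
    refine h3.trans (le_of_eq ?_)
    calc a * (2 * H * (2 * √(a⁻¹) * R * (√(a⁻¹) * √(I (s ^ 2)))))
        = a * (√(a⁻¹) * √(a⁻¹)) * (√(I (s ^ 2)) * (4 * H * R)) := by ring
      _ = _ := by rw [ha', mul_inv_cancel₀ ha.ne', one_mul]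
  -- second term
  have T2 : |a * I (h * C.Γ B S)| ≤ √(I (s ^ 2)) * (2 * H2 * R) := by
    rw [abs_mul, abs_of_pos ha]
    have mBS : MemLp (C.Γ B S) 2 m := hD.Γ_mem2 BA.1 hBT' SA.1
    have h1 : |I (h * C.Γ B S)| ≤ H2 * (√(2 * a⁻¹) * R * √(I (C.Γ S S))) := by
      refine (I_abs_le h2 mBS).trans (mul_le_mul_of_nonneg_left ?_ hH20)
      have := Real.sqrt_le_sqrt (hD.Γ_sq_leU BA.1 SA.1 hBL hBT')
      rwa [Real.sqrt_mul (sq_nonneg _), Real.sqrt_sq (by positivity)] at this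
    calc a * |I (h * C.Γ B S)|
        ≤ a * (H2 * (2 * √(a⁻¹) * R * (√(a⁻¹) * √(I (s ^ 2))))) := by
          refine mul_le_mul_of_nonneg_left (h1.trans ?_) ha.le
          refine mul_le_mul_of_nonneg_left ?_ hH20
          exact mul_le_mul (mul_le_mul_of_nonneg_right h2a hR0) gS (Real.sqrt_nonneg _)
            (by positivity)
      _ = a * (√(a⁻¹) * √(a⁻¹)) * (√(I (s ^ 2)) * (2 * H2 * R)) := by ring
      _ = _ := by rw [ha', mul_inv_cancel₀ ha.ne', one_mul]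
  -- third term
  have T3 : |I ((B - b) * S * h)| ≤ √(I (s ^ 2)) * (2 * H2 * R) := by
    have hbR := hD.J_bdd ha hs' hR
    have hBR := hD.J_bdd ha (hC.memLp _ bA.1) hbR
    rw [← hb] at hbR
    rw [← hBB] at hBR
    have hdR : ∀ᵐ x ∂m, |(B - b : M →ₘ[m] ℝ) x| ≤ 2 * R := by
      filter_upwards [sub_ae B b, hbR, hBR] with x c1 c2 c3
      rw [c1]
      exact (abs_sub _ _).trans (by linarith)
    have hdT : MemLp (B - b : M →ₘ[m] ℝ) ∞ m := mem_sub BA.2 bA.2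
    have hSh : MemLp (h * (B - b) : M →ₘ[m] ℝ) 2 m := mem_top_mul h2 hdT
    have e : (B - b) * S * h = S * (h * (B - b)) := by ring
    rw [e]
    refine (I_abs_le (hC.memLp _ SA.1) hSh).trans ?_
    have h1 : √(I ((h * (B - b)) ^ 2)) ≤ 2 * R * H2 := by
      have h3 := Real.sqrt_le_sqrt (hD.mul_bdd_sq_le h2 hdR)
      rwa [Real.sqrt_mul (sq_nonneg _), Real.sqrt_sq (by positivity)] at h3
    calc √(I (S ^ 2)) * √(I ((h * (B - b)) ^ 2)) ≤ √(I (s ^ 2)) * (2 * R * H2) :=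
          mul_le_mul gS2 h1 (Real.sqrt_nonneg _) n1
      _ = _ := by ring
  have hfin : |-(a * X) - a * I (h * C.Γ B S) - I ((B - b) * S * h)|
      ≤ |-(a * X)| + |a * I (h * C.Γ B S)| + |I ((B - b) * S * h)| := by
    have q1 := abs_sub (-(a * X) - a * I (h * C.Γ B S)) (I ((B - b) * S * h))
    have q2 := abs_sub (-(a * X)) (a * I (h * C.Γ B S))
    linarith
  refine hfin.trans ?_
  calc _ ≤ √(I (s ^ 2)) * (4 * H * R) + √(I (s ^ 2)) * (2 * H2 * R)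
        + √(I (s ^ 2)) * (2 * H2 * R) := add_le_add (add_le_add T1 T2) T3
    _ = _ := by ring

/-- the commutator tends to `0`, for every `η ∈ D(Δ)` -/
theorem Cm_tendsto2 [SigmaFinite m] (hη : C.IsLap η h)
    (hs : MemLp s 2 m) (hsT : MemLp s ∞ m) :
    Tendsto (fun n : ℕ => C.Cm η ((n : ℝ) + 1)⁻¹ s s) atTop (𝓝 0) := by
  have hD := hC.toIsDir
  obtain ⟨R0, hR0⟩ := mem_top_iff.1 hsT
  have hR : ∀ᵐ x ∂m, |s x| ≤ |R0| := hR0.mono fun x hx => hx.trans (le_abs_self _)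
  obtain ⟨U, hU, hU1, -, hU2⟩ := hC.test_dense_bdd hB hs hR
  set c : ℝ := 4 * |R0| * (√(I (h ^ 2) - κ * I (C.Γ η η)) + √(I (h ^ 2))) with hc
  have hc0 : 0 ≤ c := by positivity
  rw [Metric.tendsto_atTop]
  intro ε hε
  have h1 : Tendsto (fun j => √(I ((U j - s) ^ 2)) * c) atTop (𝓝 0) := by
    simpa using (hU2.sqrt).mul_const c
  obtain ⟨j, hj⟩ := (h1.eventually (gt_mem_nhds (show (0 : ℝ) < ε / 2 by positivity))).exists
  have UA := hC.test_A (hU j)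
  have U2 := hC.memLp _ UA.1
  have h2 := hD.Cm_tendsto_of_A2 hη UA (hC.test_Γ_top (hU j)) hs hsT
  obtain ⟨N1, hN1⟩ := (Metric.tendsto_atTop.1 h2) (ε / 2) (by positivity)
  have h3 : Tendsto (fun n : ℕ => 4 * |κ| * ((n : ℝ) + 1)⁻¹) atTop (𝓝 0) := by
    simpa using tendsto_inv_succ.const_mul (4 * |κ|)
  obtain ⟨N2, hN2⟩ := eventually_atTop.1 (h3.eventually (gt_mem_nhds (show (0 : ℝ) < 1 by norm_num)))
  refine ⟨max N1 N2, fun n hn => ?_⟩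
  have hl : (0 : ℝ) < ((n : ℝ) + 1)⁻¹ := by positivity
  have q1 := hN1 n ((le_max_left _ _).trans hn)
  have q2 := (hN2 n ((le_max_right _ _).trans hn)).le
  rw [Real.dist_eq, sub_zero] at q1 ⊢
  rw [hD.Cm_sub_left2 hl hη.1 hs hsT U2 UA.2 hs]
  have q3 := hC.Cm_le2 hB hl q2 hη (mem_sub hs U2) (mem_sub hsT UA.2) hs hR (abs_nonneg _)
  have e : (s - U j) ^ 2 = (U j - s) ^ 2 := by ring
  rw [e] at q3
  have q5 : 4 * |R0| * √(I ((U j - s) ^ 2)) * (√(I (h ^ 2) - κ * I (C.Γ η η)) + √(I (h ^ 2)))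
      = √(I ((U j - s) ^ 2)) * c := by rw [hc]; ring
  rw [q5] at q3
  have q4 := abs_add_le (C.Cm η ((n : ℝ) + 1)⁻¹ (s - U j) s) (C.Cm η ((n : ℝ) + 1)⁻¹ (U j) s)
  linarith

end IsGamma

end Vale.Agent.P233
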