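import Vale.Agent.P233.U.Time
import Vale.Agent.P233.U.Static2

/-! Lemma U backwards in time, up to an end point where only an upper bound of the Laplacians and
an integrable bound of their `L²` norms are available (helper22). -/

set_option linter.all false

open MeasureTheory Filter Topology Set
open scoped ENNReal NNReal

namespace Vale.Agent.P233

variable {M : Type*} [MeasurableSpace M] {m : Measure M} {C : Calc m}

namespace IsDir

variable (hC : IsDir C)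
include hC
variable {a b R K d : ℝ} {η s : ℝ → M →ₘ[m] ℝ}

/-- lower bound of the derivative -/
theorem ce_F_deriv_ge (hd : 0 < d) (h : C.CE a b R η s) {t : ℝ} (ht : t ∈ Icc a b)
    {k : M →ₘ[m] ℝ} (hk : C.IsLap (η t) k) (hK : ∀ᵐ x ∂m, k x ≤ K) :
    -(2 * |C.Comm d (η t) (s t)| + K * I (C.J d (s t) ^ 2)) ≤
      2 * I (C.Γ (C.J d (C.J d (s t))) (η t) * s t) := by
  have hst := h.mem t ht
  have hS : C.J d (s t) ∈ C.A := ⟨hC.J_mem hd hst, mem_top_iff.2 ⟨R, hC.J_bdd hd hst (h.bdd t ht)⟩⟩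
  have m2 := hC.J_mem2 hd hst
  have e1 := hC.I_Γ_self hk hS
  have m3 : MemLp (C.J d (s t) ^ 2 : M →ₘ[m] ℝ) 1 m := by rw [sq]; exact mem_mul_22 m2 m2
  have m3' : MemLp (C.J d (s t) ^ 2 : M →ₘ[m] ℝ) 2 m := by rw [sq]; exact mem_mul_top hS.2 m2
  have m4 : MemLp (k * C.J d (s t) ^ 2 : M →ₘ[m] ℝ) 1 m := mem_mul_22 hk.2.1 m3'
  have e3 : I (k * C.J d (s t) ^ 2) ≤ K * I (C.J d (s t) ^ 2) := by
    rw [← I_smul]
    refine I_mono m4 (mem_smul _ m3) ?_
    rw [le_iff_ae]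
    filter_upwards [hK, mul_ae k (C.J d (s t) ^ 2), smul_ae (C.J d (s t) ^ 2) K,
      sq_ae (C.J d (s t))] with x a1 a2 a3 a4
    rw [a2, a3, a4]
    exact mul_le_mul_of_nonneg_right a1 (sq_nonneg _)
  have e4 : 2 * I (C.Γ (C.J d (C.J d (s t))) (η t) * s t) = 2 * C.Comm d (η t) (s t)
      - I (k * C.J d (s t) ^ 2) := by
    unfold Calc.Comm; linarith
  rw [e4]
  have := neg_abs_le (C.Comm d (η t) (s t))
  linarith

/-- **Lemma U backwards**, in terms of commutators -/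
theorem ce_back_aux (hab : a ≤ b) (hR : 0 ≤ R) (h : C.CE a b R η s)
    (hη : ∀ t ∈ Ioo a b, ∃ k, C.IsLap (η t) k ∧ ∀ᵐ x ∂m, k x ≤ K) {Q : ℝ → ℝ} {n0 : ℕ}
    (hQ : IntervalIntegrable Q volume a b)
    (c1 : ∀ n ≥ n0, ∀ t ∈ Ioo a b, |C.Comm ((n : ℝ) + 1)⁻¹ (η t) (s t)| ≤ Q t)
    (c2 : ∀ t ∈ Ioo a b, Tendsto (fun n : ℕ => C.Comm ((n : ℝ) + 1)⁻¹ (η t) (s t)) atTop (𝓝 0)) :
    Real.exp (K * a) * I (s a ^ 2) ≤ Real.exp (K * b) * I (s b ^ 2) := by
  -- the function `F_n`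
  have hn : ∀ n : ℕ, (0 : ℝ) < ((n : ℝ) + 1)⁻¹ := fun n => by positivity
  have ha : a ∈ Icc a b := ⟨le_rfl, hab⟩
  have hb : b ∈ Icc a b := ⟨hab, le_rfl⟩
  set F : ℕ → ℝ → ℝ := fun n τ => I (C.J ((n : ℝ) + 1)⁻¹ (s τ) ^ 2) with hF
  have hFlim : ∀ τ ∈ Icc a b, Tendsto (fun n => F n τ) atTop (𝓝 (I (s τ ^ 2))) := by
    intro τ hτ
    have h1 := h.mem τ hτ
    exact I_sq_tendsto (fun n => hC.J_mem2 (hn n) h1) h1 (hC.J_tendsto_L2 h1)
  set G : ℕ → ℝ → ℝ := fun n τ => Real.exp (K * τ) * F n τ with hG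
  have hGlim : ∀ τ ∈ Icc a b, Tendsto (fun n => G n τ) atTop
      (𝓝 (Real.exp (K * τ) * I (s τ ^ 2))) := fun τ hτ => (hFlim τ hτ).const_mul _
  have hFac : ∀ n, AbsolutelyContinuousOnInterval (F n) a b := by
    intro n
    refine LipschitzOnWith.absolutelyContinuousOnInterval
      (K := Real.toNNReal (R * √((((n : ℝ) + 1)⁻¹)⁻¹ * (4 * R ^ 2)))) ?_
    rw [uIcc_of_le hab]
    refine LipschitzOnWith.of_dist_le_mul fun x hx y hy => ?_
    rw [Real.coe_toNNReal _ (by positivity), Real.dist_eq, Real.dist_eq]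
    exact hC.ce_F_lip (hn n) hR h hx hy
  have hEac : AbsolutelyContinuousOnInterval (fun τ => Real.exp (K * τ)) a b := by
    have hcd : ContDiff ℝ 1 fun τ : ℝ => Real.exp (K * τ) := by fun_prop
    obtain ⟨L, hL⟩ := (hcd.contDiffOn (s := Icc a b)).exists_lipschitzOnWith (by norm_num)
      (convex_Icc a b) isCompact_Icc
    refine LipschitzOnWith.absolutelyContinuousOnInterval (K := L) ?_
    rw [uIcc_of_le hab]
    exact hL
  have hGac : ∀ n, AbsolutelyContinuousOnInterval (G n) a b := fun n => hEac.mul (hFac n)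
  obtain ⟨B, hB0, hB⟩ : ∃ B : ℝ, 0 ≤ B ∧ ∀ τ ∈ Icc a b, Real.exp (K * τ) ≤ B := by
    refine ⟨Real.exp (|K| * (|a| + |b|)), (Real.exp_pos _).le, fun τ hτ => ?_⟩
    rw [Real.exp_le_exp]
    have h1 : |τ| ≤ |a| + |b| := by
      rw [abs_le]
      constructor
      · linarith [neg_abs_le a, abs_nonneg b, hτ.1]
      · linarith [le_abs_self b, abs_nonneg a, hτ.2]
    calc K * τ ≤ |K * τ| := le_abs_self _
      _ = |K| * |τ| := abs_mul _ _
      _ ≤ _ := by gcongr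
  have hGd : ∀ᵐ τ, τ ∈ Ioo a b → ∀ n : ℕ,
      -(2 * B * |C.Comm ((n : ℝ) + 1)⁻¹ (η τ) (s τ)|) ≤ deriv (G n) τ := by
    filter_upwards [h.der] with τ hτ hτ2 n
    have hτ3 : τ ∈ Icc a b := Ioo_subset_Icc_self hτ2
    have d1 := hC.ce_F_deriv (hn n) hR h hτ2 (hτ hτ2)
    obtain ⟨k, hk1, hk2⟩ := hη τ hτ2
    have d2 := hC.ce_F_deriv_ge (hn n) h hτ3 hk1 hk2
    set D := 2 * I (C.Γ (C.J ((n : ℝ) + 1)⁻¹ (C.J ((n : ℝ) + 1)⁻¹ (s τ))) (η τ) * s τ) with hD
    have d3 : HasDerivAt (fun τ : ℝ => Real.exp (K * τ)) (Real.exp (K * τ) * K) τ := by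
      have := ((hasDerivAt_id τ).const_mul K).exp
      simpa using this
    have d4 : HasDerivAt (G n) (Real.exp (K * τ) * K * F n τ
        + Real.exp (K * τ) * D) τ := d3.mul d1
    rw [d4.deriv]
    have hE0 := Real.exp_pos (K * τ)
    have hB1 := hB τ hτ3
    have hc0 := abs_nonneg (C.Comm ((n : ℝ) + 1)⁻¹ (η τ) (s τ))
    have d6 : I (C.J ((n : ℝ) + 1)⁻¹ (s τ) ^ 2) = F n τ := rfl
    rw [d6] at d2
    have e0 : Real.exp (K * τ) * K * F n τ + Real.exp (K * τ) * D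
        = Real.exp (K * τ) * (D + K * F n τ) := by ring
    rw [e0]
    have : D + K * F n τ ≥ -(2 * |C.Comm ((n : ℝ) + 1)⁻¹ (η τ) (s τ)|) := by linarith
    calc -(2 * B * |C.Comm ((n : ℝ) + 1)⁻¹ (η τ) (s τ)|)
        = B * (-(2 * |C.Comm ((n : ℝ) + 1)⁻¹ (η τ) (s τ)|)) := by ring
      _ ≤ Real.exp (K * τ) * (-(2 * |C.Comm ((n : ℝ) + 1)⁻¹ (η τ) (s τ)|)) :=
          mul_le_mul_of_nonpos_right hB1 (by linarith)
      _ ≤ _ := mul_le_mul_of_nonneg_left this hE0.le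
  have hae : ∀ᵐ τ, τ ∈ uIoc a b → τ ∈ Ioo a b := by
    have : ∀ᵐ τ : ℝ, τ ≠ b := by
      simp [ae_iff, measure_singleton]
    filter_upwards [this] with τ h1 h2
    rw [uIoc_of_le hab] at h2
    exact ⟨h2.1, lt_of_le_of_ne h2.2 h1⟩
  have hlim1 : Tendsto (fun n => ∫ τ in a..b, min (deriv (G n) τ) 0) atTop
      (𝓝 (∫ τ in a..b, (0 : ℝ))) := by
    refine intervalIntegral.tendsto_integral_filter_of_dominated_convergence
      (fun τ => 2 * B * Q τ) ?_ ?_ ?_ ?_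
    · exact Eventually.of_forall fun n =>
        ((measurable_deriv (G n)).min measurable_const).aestronglyMeasurable
    · filter_upwards [eventually_ge_atTop n0] with n hn0
      filter_upwards [hGd, hae] with τ h1 h2 h3
      have h4 := h1 (h2 h3) n
      have h5 := c1 n hn0 τ (h2 h3)
      rw [Real.norm_eq_abs, abs_of_nonpos (min_le_right _ _)]
      have h6 : 0 ≤ Q τ := (abs_nonneg _).trans h5
      have h7 : 2 * B * |C.Comm ((n : ℝ) + 1)⁻¹ (η τ) (s τ)| ≤ 2 * B * Q τ := by gcongr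
      have h8 : -(2 * B * Q τ) ≤ min (deriv (G n) τ) 0 :=
        le_min (by linarith) (by
          have : 0 ≤ 2 * B * Q τ := by positivity
          linarith)
      linarith
    · exact hQ.const_mul _
    · filter_upwards [hGd, hae] with τ h1 h2 h3
      have h6 := (c2 τ (h2 h3)).abs.const_mul (-(2 * B))
      rw [abs_zero, mul_zero] at h6
      refine tendsto_of_tendsto_of_tendsto_of_le_of_le h6 tendsto_const_nhds (fun n => ?_)
        (fun n => min_le_right _ _)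
      have h4 := h1 (h2 h3) n
      have h9 : 0 ≤ 2 * B * |C.Comm ((n : ℝ) + 1)⁻¹ (η τ) (s τ)| := by positivity
      exact le_min (by linarith) (by linarith)
  have hlim0 : Tendsto (fun n => ∫ τ in a..b, min (deriv (G n) τ) 0) atTop (𝓝 0) := by
    simpa using hlim1
  have hle : ∀ n, ∫ τ in a..b, min (deriv (G n) τ) 0 ≤ G n b - G n a := by
    intro n
    rw [← (hGac n).integral_deriv_eq_sub]
    refine intervalIntegral.integral_mono_on hab ?_ (hGac n).intervalIntegrable_deriv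
      fun τ _ => min_le_left _ _
    exact ⟨(hGac n).intervalIntegrable_deriv.1.inf (intervalIntegrable_const (c := (0 : ℝ))).1,
      (hGac n).intervalIntegrable_deriv.2.inf (intervalIntegrable_const (c := (0 : ℝ))).2⟩
  have h7 := le_of_tendsto_of_tendsto' hlim0 ((hGlim b hb).sub (hGlim a ha)) hle
  linarith

end IsDir

/-- **Lemma U backwards in time.** Only an upper bound of `Δη_t` and an integrable bound of
`‖Δη_t‖₂` are needed. -/
theorem IsGamma.ce_back (hC : IsGamma C) {κ : ℝ} (hB : C.BEi κ) [SigmaFinite m] {a b R K E : ℝ}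
    (hab : a ≤ b) (hR : 0 ≤ R) {η k s : ℝ → M →ₘ[m] ℝ} (h : C.CE a b R η s)
    (hη : ∀ t ∈ Ioo a b, C.IsLap (η t) (k t)) (hk : ∀ t ∈ Ioo a b, ∀ᵐ x ∂m, k t x ≤ K)
    {q : ℝ → ℝ} (hq : IntervalIntegrable q volume a b) (hq0 : ∀ t ∈ Ioo a b, 0 ≤ q t)
    (hk2 : ∀ t ∈ Ioo a b, I (k t ^ 2) ≤ q t ^ 2) (hE0 : 0 ≤ E)
    (hE : ∀ t ∈ Ioo a b, I (C.Γ (η t) (η t)) ≤ E) :
    Real.exp (K * a) * I (s a ^ 2) ≤ Real.exp (K * b) * I (s b ^ 2) := by
  refine hC.toIsDir.ce_back_aux hab hR h (fun t ht => ⟨k t, hη t ht, hk t ht⟩)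
    (Q := fun t => 4 * R * R * (2 * q t + √(|κ| * E))) (n0 := ⌈4 * |κ|⌉₊) ?_ ?_ ?_
  · exact ((hq.const_mul 2).add intervalIntegrable_const).const_mul _
  · intro n hn t ht
    have ht' := Ioo_subset_Icc_self ht
    have hl : (0 : ℝ) < ((n : ℝ) + 1)⁻¹ := by positivity
    have h4 : 4 * |κ| * ((n : ℝ) + 1)⁻¹ ≤ 1 := by
      rw [← div_eq_mul_inv, div_le_one (by positivity)]
      have h5 : 4 * |κ| ≤ n := (Nat.le_ceil _).trans (by exact_mod_cast hn)
      linarith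
    have hsT : MemLp (s t) ∞ m := mem_top_iff.2 ⟨R, h.bdd t ht'⟩
    have h1 := hC.Cm_le2 hB hl h4 (hη t ht) (h.mem t ht') hsT (h.mem t ht') (h.bdd t ht') hR
    refine h1.trans ?_
    have h2 : √(I (s t ^ 2)) ≤ R := by
      rw [← Real.sqrt_sq hR]; exact Real.sqrt_le_sqrt (h.l2 t ht')
    have h3 : √(I (k t ^ 2)) ≤ q t := by
      rw [← Real.sqrt_sq (hq0 t ht)]; exact Real.sqrt_le_sqrt (hk2 t ht)
    have h6 : √(I (k t ^ 2) - κ * I (C.Γ (η t) (η t))) ≤ q t + √(|κ| * E) := by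
      have h7 : I (k t ^ 2) - κ * I (C.Γ (η t) (η t)) ≤ q t ^ 2 + |κ| * E := by
        have h8 := hC.toIsDir.E_nonneg (hη t ht).1
        have h9 : -(κ * I (C.Γ (η t) (η t))) ≤ |κ| * I (C.Γ (η t) (η t)) := by
          have := neg_abs_le κ
          nlinarith
        have h10 : |κ| * I (C.Γ (η t) (η t)) ≤ |κ| * E :=
          mul_le_mul_of_nonneg_left (hE t ht) (abs_nonneg _)
        linarith [hk2 t ht]
      refine (Real.sqrt_le_sqrt h7).trans ?_
      have h11 : 0 ≤ |κ| * E := by positivity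
      rw [Real.sqrt_le_left (by have := hq0 t ht; positivity)]
      nlinarith [Real.sq_sqrt h11, Real.sqrt_nonneg (|κ| * E), hq0 t ht,
        mul_nonneg (hq0 t ht) (Real.sqrt_nonneg (|κ| * E))]
    have hq1 := hq0 t ht
    calc 4 * R * √(I (s t ^ 2)) * (√(I (k t ^ 2) - κ * I (C.Γ (η t) (η t))) + √(I (k t ^ 2)))
        ≤ 4 * R * R * ((q t + √(|κ| * E)) + q t) := by gcongr
      _ = _ := by ring
  · intro t ht
    have ht' := Ioo_subset_Icc_self ht
    have hsT : MemLp (s t) ∞ m := mem_top_iff.2 ⟨R, h.bdd t ht'⟩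
    exact hC.Cm_tendsto2 hB (hη t ht) (h.mem t ht') hsT

end Vale.Agent.P233
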