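import Vale.Agent.P233.U.Det
import Vale.Agent.P233.U.Static2
import Vale.Agent.P233.H589.Lat

/-!
# P233, Lemma U: from the integral form of the continuity equation to `Calc.CE`
-/

set_option linter.all false

open MeasureTheory Filter Topology Set
open scoped ENNReal NNReal

namespace Vale.Agent.P233

variable {M : Type*} [MeasurableSpace M] {m : Measure M} {C : Calc m}

/-- boundedness and smallness of the commutators, without bounds of `∇η`, `Δη` -/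
theorem IsGamma.commOK2 (hC : IsGamma C) {κ : ℝ} (hB : C.BEi κ) [SigmaFinite m] {a b K : ℝ}
    (hK0 : 0 ≤ K) {η h : ℝ → M →ₘ[m] ℝ} (hη : ∀ t ∈ Icc a b, C.IsLap (η t) (h t))
    (hh2 : ∀ t ∈ Icc a b, I (h t ^ 2) ≤ K) (hE : ∀ t ∈ Icc a b, I (C.Γ (η t) (η t)) ≤ K) :
    C.CommOK a b η := by
  intro B
  refine ⟨4 * |B| * |B| * (√(K + |κ| * K) + √K), ⌈4 * |κ|⌉₊, fun t ht f hf hfB hf2 => ?_⟩
  have hfT : MemLp f ∞ m := mem_top_iff.2 ⟨B, hfB⟩
  have hfB' : ∀ᵐ x ∂m, |f x| ≤ |B| := hfB.mono fun x hx => hx.trans (le_abs_self _)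
  have hf2' : √(I (f ^ 2)) ≤ |B| := by
    rw [← Real.sqrt_sq_eq_abs]; exact Real.sqrt_le_sqrt hf2
  refine ⟨fun n hn => ?_, hC.Cm_tendsto2 hB (hη t ht) hf hfT⟩
  have hl : (0 : ℝ) < ((n : ℝ) + 1)⁻¹ := by positivity
  have h4 : 4 * |κ| * ((n : ℝ) + 1)⁻¹ ≤ 1 := by
    rw [← div_eq_mul_inv, div_le_one (by positivity)]
    have h5 : 4 * |κ| ≤ n := (Nat.le_ceil _).trans (by exact_mod_cast hn)
    linarith
  have h1 := hC.Cm_le2 hB hl h4 (hη t ht) hf hfT hf hfB' (abs_nonneg _)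
  refine h1.trans ?_
  have h2 : √(I (h t ^ 2) - κ * I (C.Γ (η t) (η t))) ≤ √(K + |κ| * K) := by
    refine Real.sqrt_le_sqrt ?_
    have h3 := hE t ht
    have h5 := hh2 t ht
    have h6 := hC.toIsDir.E_nonneg (hη t ht).1
    have h7 : -(κ * I (C.Γ (η t) (η t))) ≤ |κ| * I (C.Γ (η t) (η t)) := by
      have := neg_abs_le κ
      nlinarith
    have h8 : |κ| * I (C.Γ (η t) (η t)) ≤ |κ| * K := mul_le_mul_of_nonneg_left h3 (abs_nonneg _)
    linarith
  have h3 : √(I (h t ^ 2)) ≤ √K := Real.sqrt_le_sqrt (hh2 t ht)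
  gcongr

namespace IsDir

variable (hC : IsDir C)
include hC

/-- potentials with a one-sided bound of the Laplacian which are uniformly close are close in
energy -/
theorem E_sub_le_of_lapLE {z z' χ : M →ₘ[m] ℝ} {c δ : ℝ} (hz : z ∈ C.A) (hz' : z' ∈ C.A)
    (hχ : χ ∈ C.A) (hχ1 : MemLp χ 1 m) (hχ0 : 0 ≤ χ)
    (hcut : ∀ᵐ x ∂m, (z x ≠ 0 ∨ z' x ≠ 0) → χ x = 1)
    (hδ : ∀ᵐ x ∂m, |z x - z' x| ≤ δ)
    (h : ∀ g ∈ C.W, 0 ≤ g → MemLp g 1 m → -I (C.Γ z g) ≤ c * I g)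
    (h' : ∀ g ∈ C.W, 0 ≤ g → MemLp g 1 m → -I (C.Γ z' g) ≤ c * I g) :
    I (C.Γ (z - z') (z - z')) ≤ 2 * c * δ * I χ := by
  set d := z - z' with hd
  have hdW : d ∈ C.W := hC.sub_mem hz.1 hz'.1
  have hd1 : ∀ᵐ x ∂m, |d x| ≤ δ * χ x := by
    filter_upwards [sub_ae z z', hcut, hδ, nonneg_iff_ae.1 hχ0] with x a1 a2 a3 a4
    rw [a1]
    by_cases hx : z x ≠ 0 ∨ z' x ≠ 0
    · rw [a2 hx, mul_one]; exact a3
    · push Not at hx
      rw [hx.1, hx.2, sub_self, abs_zero]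
      have : 0 ≤ δ := (abs_nonneg _).trans a3
      positivity
  have hdm : MemLp d 1 m := by
    refine mem_of_le (mem_smul δ hχ1) ?_
    filter_upwards [hd1, smul_ae χ δ] with x a1 a2
    rw [a2]; exact a1.trans (le_abs_self _)
  have hδχ : δ • χ ∈ C.W := hC.smul_mem _ _ hχ.1
  have m1 : MemLp (δ • χ : M →ₘ[m] ℝ) 1 m := mem_smul _ hχ1
  have g1 : 0 ≤ δ • χ - d := by
    rw [nonneg_iff_ae]
    filter_upwards [sub_ae (δ • χ) d, smul_ae χ δ, hd1] with x a1 a2 a3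
    rw [a1, a2]; linarith [le_abs_self (d x)]
  have g2 : 0 ≤ δ • χ + d := by
    rw [nonneg_iff_ae]
    filter_upwards [add_ae (δ • χ) d, smul_ae χ δ, hd1] with x a1 a2 a3
    rw [a1, a2]; linarith [neg_abs_le (d x)]
  have e1 := h _ (hC.sub_mem hδχ hdW) g1 (mem_sub m1 hdm)
  have e2 := h' _ (hC.add_mem _ hδχ _ hdW) g2 (mem_add m1 hdm)
  have hloc : ∀ w ∈ C.W, (∀ᵐ x ∂m, w x ≠ 0 → χ x = 1) → C.Γ w χ = 0 := by
    intro w hw hcw
    rw [eq_iff_ae]
    filter_upwards [hcw, hC.Γ_ae_zero hw hχ.1, hC.Γ_level hχ.1 hw 1,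
      eq_iff_ae.1 (hC.symm _ hw _ hχ.1), zero_ae (M := M) (m := m)] with x a4 a5 a7 a8 a9
    rw [a9]
    by_cases hx : w x = 0
    · exact a5 hx
    · rw [a8]; exact a7 (a4 hx)
  have z1 : C.Γ z χ = 0 := hloc z hz.1 (by filter_upwards [hcut] with x a1 a2 using a1 (Or.inl a2))
  have z2 : C.Γ z' χ = 0 :=
    hloc z' hz'.1 (by filter_upwards [hcut] with x a1 a2 using a1 (Or.inr a2))
  have f1 : C.Γ z (δ • χ - d) = -C.Γ z d := by
    rw [hC.Γ_sub_right hz.1 hδχ hdW, hC.Γ_smul_right _ hz.1 hχ.1, z1, smul_zero, zero_sub]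
  have f2 : C.Γ z' (δ • χ + d) = C.Γ z' d := by
    rw [hC.Γ_add_right hz'.1 hδχ hdW, hC.Γ_smul_right _ hz'.1 hχ.1, z2, smul_zero, zero_add]
  rw [f1, I_neg, I_sub m1 hdm, I_smul] at e1
  rw [f2, I_add m1 hdm, I_smul] at e2
  have e3 : I (C.Γ d d) = I (C.Γ z d) - I (C.Γ z' d) := by
    rw [← I_sub (hC.Γ_mem1 hz.1 hdW) (hC.Γ_mem1 hz'.1 hdW), ← hC.Γ_sub_left hz.1 hz'.1 hdW]
  rw [e3]
  nlinarith

/-- weak continuity from `W` to `L²` -/
theorem weak_cont_of_W {s : ℝ → M →ₘ[m] ℝ} {S : Set ℝ} {t B : ℝ} (ht : t ∈ S)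
    (h2 : ∀ τ ∈ S, MemLp (s τ) 2 m) (hB : ∀ τ ∈ S, I (s τ ^ 2) ≤ B)
    (hW : ∀ g ∈ C.W, Tendsto (fun τ => I (g * s τ)) (𝓝[S] t) (𝓝 (I (g * s t))))
    {b : M →ₘ[m] ℝ} (hb : MemLp b 2 m) :
    Tendsto (fun τ => I (b * s τ)) (𝓝[S] t) (𝓝 (I (b * s t))) := by
  have hB0 : 0 ≤ B := (I_sq_nonneg _).trans (hB t ht)
  rw [Metric.tendsto_nhds]
  intro ε hε
  have hn : ∀ n : ℕ, (0 : ℝ) < ((n : ℝ) + 1)⁻¹ := fun n => by positivity
  have h1 := hC.J_tendsto_L2 hb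
  have h3 : Tendsto (fun n : ℕ => √(I ((C.J ((n : ℝ) + 1)⁻¹ b - b) ^ 2)) * √B) atTop (𝓝 0) := by
    have := ((Real.continuous_sqrt.tendsto 0).comp h1).mul_const (√B)
    simpa [Function.comp_def] using this
  obtain ⟨n, hn1⟩ := ((tendsto_order.1 h3).2 (ε / 3) (by positivity)).exists
  set g := C.J ((n : ℝ) + 1)⁻¹ b with hg
  have hgW : g ∈ C.W := hC.J_mem (hn n) hb
  have hg2 := hC.memLp g hgW
  have key : ∀ τ ∈ S, |I (b * s τ) - I (g * s τ)| < ε / 3 := by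
    intro τ hτ
    have e : I (b * s τ) - I (g * s τ) = -I ((g - b) * s τ) := by
      rw [sub_mul, I_sub (mem_mul_22 hg2 (h2 τ hτ)) (mem_mul_22 hb (h2 τ hτ))]; ring
    rw [e, abs_neg]
    refine lt_of_le_of_lt (I_abs_le (mem_sub hg2 hb) (h2 τ hτ)) (lt_of_le_of_lt ?_ hn1)
    gcongr
    exact hB τ hτ
  filter_upwards [(Metric.tendsto_nhds.1 (hW g hgW)) (ε / 3) (by positivity),
    self_mem_nhdsWithin] with τ h4 hτ
  rw [Real.dist_eq] at h4 ⊢
  have h5 := key τ hτ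
  have h6 := key t ht
  rw [abs_lt] at h4 h5 h6 ⊢
  constructor <;> linarith [h4.1, h4.2, h5.1, h5.2, h6.1, h6.2]

/-- the velocity may be changed off the support -/
theorem ce_congr {a b R : ℝ} {z η s : ℝ → M →ₘ[m] ℝ} (h : C.CE a b R z s)
    (he : ∀ t ∈ Icc a b, ∀ g ∈ C.W, I (C.Γ g (η t) * s t) = I (C.Γ g (z t) * s t)) :
    C.CE a b R η s where
  mem := h.mem
  l2 := h.l2
  bdd := h.bdd
  lip := h.lip
  der := by
    filter_upwards [h.der] with t h1 h2 g hg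
    rw [he t (Ioo_subset_Icc_self h2) g hg]
    exact h1 h2 g hg

/-- bound of the right side of the continuity equation -/
theorem I_Γ_mul_le {g z s : M →ₘ[m] ℝ} {L B : ℝ} (hL : 0 ≤ L) (hg : g ∈ C.W) (hz : z ∈ C.W)
    (hzL : ∀ᵐ x ∂m, C.Γ z z x ≤ L) (hs : MemLp s 2 m) (hB : 0 ≤ B) (hsB : I (s ^ 2) ≤ B ^ 2) :
    |I (C.Γ g z * s)| ≤ √L * B * √(I (C.Γ g g)) := by
  have hzt : MemLp (C.Γ z z) ∞ m := mem_top_iff.2 ⟨L, by
    filter_upwards [hzL, hC.Γ_nonneg_ae hz] with x a1 a2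
    rwa [abs_of_nonneg a2]⟩
  have h2 : MemLp (C.Γ g z) 2 m := by rw [hC.symm _ hg _ hz]; exact hC.Γ_mem2 hz hzt hg
  refine (I_abs_le h2 hs).trans ?_
  have h3 : I (C.Γ g z ^ 2) ≤ L * I (C.Γ g g) := by
    rw [← I_smul]
    refine I_mono (by rw [sq]; exact mem_mul_22 h2 h2) (mem_smul _ (hC.mem1 g hg)) ?_
    rw [le_iff_ae]
    filter_upwards [sq_ae (C.Γ g z), smul_ae (C.Γ g g) L, hC.Γ_cs_ae hg hz, hzL,
      hC.Γ_nonneg_ae hg] with x a1 a2 a3 a4 a5
    rw [a1, a2]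
    nlinarith
  calc √(I (C.Γ g z ^ 2)) * √(I (s ^ 2)) ≤ √(L * I (C.Γ g g)) * √(B ^ 2) := by
        gcongr
    _ = √L * B * √(I (C.Γ g g)) := by
        rw [Real.sqrt_mul hL, Real.sqrt_sq hB]; ring

/-- The continuity equation in integral form gives `Calc.CE`, with a derivative at every time. -/
theorem ce_of_int {a b L D B : ℝ} {z s : ℝ → M →ₘ[m] ℝ} (hL : 0 ≤ L) (hD : 0 ≤ D) (hB : 0 ≤ B)
    (hz : ∀ t ∈ Icc a b, z t ∈ C.W) (hzL : ∀ t ∈ Icc a b, ∀ᵐ x ∂m, C.Γ (z t) (z t) x ≤ L)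
    (hzD : ∀ t ∈ Icc a b, ∀ r ∈ Icc a b, I (C.Γ (z t - z r) (z t - z r)) ≤ D * |t - r|)
    (hs : ∀ t ∈ Icc a b, MemLp (s t) 2 m) (hsB : ∀ t ∈ Icc a b, I (s t ^ 2) ≤ B ^ 2)
    (hsR : ∀ t ∈ Icc a b, ∀ᵐ x ∂m, |s t x| ≤ B)
    (hce : ∀ g ∈ C.W, ∀ r ∈ Icc a b, ∀ t ∈ Icc a b,
      IntervalIntegrable (fun τ => I (C.Γ g (z τ) * s τ)) volume r t ∧
      I (g * (s t - s r)) = ∫ τ in r..t, I (C.Γ g (z τ) * s τ)) :
    C.CE a b ((√L + 1) * B) z s := by
  have hk : B ≤ (√L + 1) * B := by nlinarith [Real.sqrt_nonneg L]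
  have hk2 : √L * B ≤ (√L + 1) * B := by nlinarith [Real.sqrt_nonneg L]
  have hlip : ∀ g ∈ C.W, ∀ t ∈ Icc a b, ∀ r ∈ Icc a b,
      |I (g * (s t - s r))| ≤ √L * B * √(I (C.Γ g g)) * |t - r| := by
    intro g hg t ht r hr
    rw [(hce g hg r hr t ht).2, ← Real.norm_eq_abs]
    refine intervalIntegral.norm_integral_le_of_norm_le_const fun τ hτ => ?_
    have hτ' : τ ∈ Icc a b := by
      rcases le_total r t with h | h
      · rw [uIoc_of_le h] at hτ
        exact ⟨hr.1.trans hτ.1.le, hτ.2.trans ht.2⟩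
      · rw [uIoc_of_ge h] at hτ
        exact ⟨ht.1.trans hτ.1.le, hτ.2.trans hr.2⟩
    exact hC.I_Γ_mul_le hL hg (hz τ hτ') (hzL τ hτ') (hs τ hτ') hB (hsB τ hτ')
  refine ⟨hs, fun t ht => (hsB t ht).trans (by gcongr), fun t ht => ?_, fun g hg t ht r hr => ?_, ?_⟩
  · filter_upwards [hsR t ht] with x hx
    exact hx.trans hk
  · refine (hlip g hg t ht r hr).trans ?_
    gcongr
  · refine Eventually.of_forall fun t ht g hg => ?_
    have ht' := Ioo_subset_Icc_self ht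
    -- weak continuity
    have hweak : ∀ b' : M →ₘ[m] ℝ, MemLp b' 2 m →
        Tendsto (fun τ => I (b' * s τ)) (𝓝[Icc a b] t) (𝓝 (I (b' * s t))) := by
      intro b' hb'
      refine hC.weak_cont_of_W ht' hs hsB (fun g' hg' => ?_) hb'
      rw [tendsto_iff_norm_sub_tendsto_zero]
      have h5 : Tendsto (fun τ => √L * B * √(I (C.Γ g' g')) * |τ - t|) (𝓝[Icc a b] t) (𝓝 0) := by
        have : Tendsto (fun τ : ℝ => √L * B * √(I (C.Γ g' g')) * |τ - t|) (𝓝 t)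
            (𝓝 (√L * B * √(I (C.Γ g' g')) * |t - t|)) :=
          (continuous_const.mul ((continuous_id.sub continuous_const).abs)).tendsto t
        rw [sub_self, abs_zero, mul_zero] at this
        exact this.mono_left nhdsWithin_le_nhds
      refine squeeze_zero' (Eventually.of_forall fun _ => norm_nonneg _) ?_ h5
      filter_upwards [self_mem_nhdsWithin] with τ hτ
      rw [Real.norm_eq_abs, ← I_sub (mem_mul_22 (hC.memLp g' hg') (hs τ hτ))
        (mem_mul_22 (hC.memLp g' hg') (hs t ht')), ← mul_sub]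
      exact hlip g' hg' τ hτ t ht'
    -- continuity of the integrand
    set F : ℝ → ℝ := fun τ => I (C.Γ g (z τ) * s τ) with hF
    have hgz : MemLp (C.Γ g (z t)) 2 m := by
      rw [hC.symm _ hg _ (hz t ht')]
      refine hC.Γ_mem2 (hz t ht') (mem_top_iff.2 ⟨L, ?_⟩) hg
      filter_upwards [hzL t ht', hC.Γ_nonneg_ae (hz t ht')] with x a1 a2
      rwa [abs_of_nonneg a2]
    have hFc : Tendsto F (𝓝[Icc a b] t) (𝓝 (F t)) := by
      have h1 := hweak _ hgz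
      have h2 : Tendsto (fun τ => I (C.Γ g (z τ - z t) * s τ)) (𝓝[Icc a b] t) (𝓝 0) := by
        have h5 : Tendsto (fun τ => √(I (C.Γ g g)) * √(D * |τ - t|) * B) (𝓝[Icc a b] t)
            (𝓝 0) := by
          have : Tendsto (fun τ : ℝ => √(I (C.Γ g g)) * √(D * |τ - t|) * B) (𝓝 t)
              (𝓝 (√(I (C.Γ g g)) * √(D * |t - t|) * B)) :=
            ((continuous_const.mul (Real.continuous_sqrt.comp (continuous_const.mul
              ((continuous_id.sub continuous_const).abs)))).mul continuous_const).tendsto t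
          rw [sub_self, abs_zero, mul_zero, Real.sqrt_zero, mul_zero, zero_mul] at this
          exact this.mono_left nhdsWithin_le_nhds
        refine squeeze_zero_norm' ?_ h5
        filter_upwards [self_mem_nhdsWithin] with τ hτ
        have hd := hC.sub_mem (hz τ hτ) (hz t ht')
        rw [Real.norm_eq_abs]
        have h6 : |I (C.Γ g (z τ - z t) * s τ)| ≤ √(I (C.Γ g g)) *
            √(I (C.Γ (z τ - z t) (z τ - z t))) * B := by
          have h7 : |I (C.Γ g (z τ - z t) * s τ)| ≤ (∫ x, |C.Γ g (z τ - z t) x| ∂m) * B := by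
            unfold I
            rw [← integral_mul_const]
            refine (abs_integral_le_integral_abs).trans (integral_mono_ae
              (int_of_mem (mem_top_mul (hC.Γ_mem1 hg hd) (mem_top_iff.2 ⟨B, hsR τ hτ⟩))).abs
              ((int_of_mem (hC.Γ_mem1 hg hd)).abs.mul_const _) ?_)
            filter_upwards [mul_ae (C.Γ g (z τ - z t)) (s τ), hsR τ hτ] with x a1 a2
            rw [a1, abs_mul]
            gcongr
          refine h7.trans ?_
          gcongr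
          exact hC.int_abs_Γ_le hg hd
        refine h6.trans ?_
        gcongr
        exact hzD τ hτ t ht'
      have h3 := h1.add h2
      rw [add_zero] at h3
      refine h3.congr' ?_
      filter_upwards [self_mem_nhdsWithin] with τ hτ
      have hd := hC.sub_mem (hz τ hτ) (hz t ht')
      rw [← I_add (mem_mul_22 hgz (hs τ hτ)) (mem_top_mul (hC.Γ_mem1 hg hd)
        (mem_top_iff.2 ⟨B, hsR τ hτ⟩)), ← add_mul, ← hC.Γ_add_right hg (hz t ht') hd]
      have e : z t + (z τ - z t) = z τ := by abel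
      rw [e]
    have hFc' : ContinuousAt F t := by
      have : 𝓝[Icc a b] t = 𝓝 t := nhdsWithin_eq_nhds.2 (Icc_mem_nhds ht.1 ht.2)
      rw [this] at hFc
      exact hFc
    -- derivative of the primitive
    have hab : a ≤ b := (ht.1.trans ht.2).le
    have ha : a ∈ Icc a b := ⟨le_rfl, hab⟩
    have hb : b ∈ Icc a b := ⟨hab, le_rfl⟩
    have hint := (hce g hg a ha b hb).1
    have hmeas : StronglyMeasurableAtFilter F (𝓝 t) volume := by
      refine ⟨Ioo a b, Ioo_mem_nhds ht.1 ht.2, ?_⟩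
      have := (intervalIntegrable_iff_integrableOn_Ioc_of_le hab).1 hint
      exact this.aestronglyMeasurable.mono_measure
        (Measure.restrict_mono Ioo_subset_Ioc_self le_rfl)
    have h1 := intervalIntegral.integral_hasDerivAt_right (hce g hg a ha t ht').1 hmeas hFc'
    have h2 := h1.add_const (I (g * s a))
    refine h2.congr_of_eventuallyEq ?_
    filter_upwards [Icc_mem_nhds ht.1 ht.2] with τ hτ
    rw [← (hce g hg a ha τ hτ).2, mul_sub, I_sub (mem_mul_22 (hC.memLp g hg) (hs τ hτ))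
      (mem_mul_22 (hC.memLp g hg) (hs a ha))]
    ring

end IsDir

end Vale.Agent.P233
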