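import Vale.Agent.P233.U.Time

/-!
# P233, Lemma U: determinism of the limit flow from uniqueness for the continuity equation
-/

set_option linter.all false

open MeasureTheory Filter Topology Set
open scoped ENNReal NNReal

namespace Vale.Agent.P233

variable {M : Type*} [MeasurableSpace M] {m : Measure M} {C : Calc m}

/-- boundedness and smallness of the commutators, uniformly in the time -/
def Calc.CommOK (C : Calc m) (a b : ℝ) (η : ℝ → M →ₘ[m] ℝ) : Prop :=
  ∀ B : ℝ, ∃ (C0 : ℝ) (n0 : ℕ), ∀ t ∈ Icc a b, ∀ f : M →ₘ[m] ℝ, MemLp f 2 m →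
    (∀ᵐ x ∂m, |f x| ≤ B) → I (f ^ 2) ≤ B ^ 2 →
    (∀ n ≥ n0, |C.Comm ((n : ℝ) + 1)⁻¹ (η t) f| ≤ C0) ∧
    Tendsto (fun n : ℕ => C.Comm ((n : ℝ) + 1)⁻¹ (η t) f) atTop (𝓝 0)

theorem Calc.CE.mono {a b R R' : ℝ} {η s : ℝ → M →ₘ[m] ℝ} (h : C.CE a b R η s) (hR : 0 ≤ R)
    (hRR : R ≤ R') : C.CE a b R' η s where
  mem := h.mem
  l2 := fun t ht => (h.l2 t ht).trans (by gcongr)
  bdd := fun t ht => by
    filter_upwards [h.bdd t ht] with x hx
    exact hx.trans hRR
  lip := fun g hg t ht r hr => (h.lip g hg t ht r hr).trans (by gcongr)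
  der := h.der

theorem Calc.CE.neg (hC : IsDir C) {a b R : ℝ} {η s : ℝ → M →ₘ[m] ℝ} (h : C.CE a b R η s) :
    C.CE a b R η (fun t => -s t) where
  mem := fun t ht => mem_neg (h.mem t ht)
  l2 := fun t ht => by
    rw [neg_sq]; exact h.l2 t ht
  bdd := fun t ht => by
    filter_upwards [h.bdd t ht, neg_ae (s t)] with x hx h2
    rwa [h2, abs_neg]
  lip := fun g hg t ht r hr => by
    have e : g * (-s t - -s r) = -(g * (s t - s r)) := by ring
    rw [e, I_neg, abs_neg]
    exact h.lip g hg t ht r hr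
  der := by
    filter_upwards [h.der] with t h1 h2 g hg
    have h3 := (h1 h2 g hg).neg
    have e1 : (fun τ => I (g * -s τ)) = -fun τ => I (g * s τ) := by
      funext τ
      rw [mul_neg, I_neg]; rfl
    rw [e1, mul_neg, I_neg]
    exact h3

theorem Calc.CE.add (hC : IsDir C) {a b R R' : ℝ} {η s s' : ℝ → M →ₘ[m] ℝ}
    (hη : ∀ t ∈ Icc a b, η t ∈ C.W) (hR : 0 ≤ R) (hR' : 0 ≤ R')
    (h : C.CE a b R η s) (h' : C.CE a b R' η s') :
    C.CE a b (2 * (R + R')) η (fun t => s t + s' t) where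
  mem := fun t ht => mem_add (h.mem t ht) (h'.mem t ht)
  l2 := fun t ht => by
    have h1 := I_sq_add_le (h.mem t ht) (h'.mem t ht)
    have h2 := h.l2 t ht
    have h3 := h'.l2 t ht
    have h4 : 0 ≤ R * R' := mul_nonneg hR hR'
    nlinarith [sq_nonneg R, sq_nonneg R']
  bdd := fun t ht => by
    filter_upwards [h.bdd t ht, h'.bdd t ht, add_ae (s t) (s' t)] with x h1 h2 h3
    rw [h3]
    refine (abs_add_le _ _).trans ?_
    linarith
  lip := fun g hg t ht r hr => by
    have hg2 := hC.memLp g hg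
    have e : g * (s t + s' t - (s r + s' r)) = g * (s t - s r) + g * (s' t - s' r) := by ring
    rw [e, I_add (mem_mul_22 hg2 (mem_sub (h.mem t ht) (h.mem r hr)))
      (mem_mul_22 hg2 (mem_sub (h'.mem t ht) (h'.mem r hr)))]
    refine (abs_add_le _ _).trans ?_
    have h1 := h.lip g hg t ht r hr
    have h2 := h'.lip g hg t ht r hr
    have h3 : 0 ≤ √(I (C.Γ g g)) * |t - r| := by positivity
    calc _ ≤ R * √(I (C.Γ g g)) * |t - r| + R' * √(I (C.Γ g g)) * |t - r| := add_le_add h1 h2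
      _ ≤ 2 * (R + R') * √(I (C.Γ g g)) * |t - r| := by
          nlinarith [mul_nonneg hR h3, mul_nonneg hR' h3]
  der := by
    filter_upwards [h.der, h'.der] with t h1 h2 h3 g hg
    have h3' := Ioo_subset_Icc_self h3
    have hg2 := hC.memLp g hg
    have h4 := (h1 h3 g hg).add (h2 h3 g hg)
    have m1 : MemLp (C.Γ g (η t) * s t : M →ₘ[m] ℝ) 1 m :=
      mem_top_mul (hC.Γ_mem1 hg (hη t h3')) (mem_top_iff.2 ⟨R, h.bdd t h3'⟩)
    have m2 : MemLp (C.Γ g (η t) * s' t : M →ₘ[m] ℝ) 1 m :=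
      mem_top_mul (hC.Γ_mem1 hg (hη t h3')) (mem_top_iff.2 ⟨R', h'.bdd t h3'⟩)
    rw [mul_add, I_add m1 m2]
    refine h4.congr_of_eventuallyEq ?_
    filter_upwards [isOpen_Ioo.mem_nhds h3] with τ hτ
    have hτ' := Ioo_subset_Icc_self hτ
    change I (g * (s τ + s' τ)) = I (g * s τ) + I (g * s' τ)
    rw [mul_add, I_add (mem_mul_22 hg2 (h.mem τ hτ')) (mem_mul_22 hg2 (h'.mem τ hτ'))]

theorem Calc.CE.sub (hC : IsDir C) {a b R R' : ℝ} {η s s' : ℝ → M →ₘ[m] ℝ}
    (hη : ∀ t ∈ Icc a b, η t ∈ C.W) (hR : 0 ≤ R) (hR' : 0 ≤ R')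
    (h : C.CE a b R η s) (h' : C.CE a b R' η s') :
    C.CE a b (2 * (R + R')) η (fun t => s t - s' t) := by
  have := h.add hC hη hR hR' (h'.neg hC)
  simpa [sub_eq_add_neg] using this

namespace IsDir

variable (hC : IsDir C)
include hC
variable {a b K : ℝ} {η : ℝ → M →ₘ[m] ℝ}

/-- **Determinism.** `F t = R_(t,r) k` and `G t = R_(t,s) w`. -/
theorem det (hK0 : 0 ≤ K) (hη : ∀ t ∈ Icc a b, ∃ k, C.IsLap (η t) k ∧ ∀ᵐ x ∂m, |k x| ≤ K)
    (hcomm : C.CommOK a b η) {s r : ℝ} (hs : s ∈ Icc a b) (hr : r ∈ Icc a b)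
    {ρs ρr k : M →ₘ[m] ℝ} {B c : ℝ} {F : ℝ → M →ₘ[m] ℝ} (hB : 0 ≤ B) (hF : C.CE a b B η F)
    (hFr : F r = k * ρr) (hk2 : MemLp k 2 m) (hρs : 0 ≤ ρs)
    (hdom : ∀ᵐ x ∂m, |F s x| ≤ c * ρs x)
    (hG : ∀ w : M →ₘ[m] ℝ, MemLp w 2 m → MemLp w ∞ m → ∃ (B' : ℝ) (G : ℝ → M →ₘ[m] ℝ), 0 ≤ B' ∧
      C.CE a b B' η G ∧ G s = w * ρs ∧ I (w * F s) = I (k * G r)) :
    Integrable (fun x => F s x ^ 2 / ρs x) m ∧
      ∫ x, F s x ^ 2 / ρs x ∂m = I (k * (k * ρr)) := by
  set W := F s with hW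
  have hW2 : MemLp W 2 m := hF.mem s hs
  have hρ0 : ∀ᵐ x ∂m, 0 ≤ ρs x := nonneg_iff_ae.1 hρs
  -- the truncated weights
  have hmW : Measurable (W : M → ℝ) := AEEqFun.measurable W
  have hmρ : Measurable (ρs : M → ℝ) := AEEqFun.measurable ρs
  set wf : ℕ → M → ℝ := fun j => {x | ((j : ℝ) + 1)⁻¹ < ρs x}.indicator fun x => W x / ρs x
    with hwf
  have hmw : ∀ j, Measurable (wf j) := fun j =>
    (hmW.div hmρ).indicator (measurableSet_lt measurable_const hmρ)
  set w : ℕ → M →ₘ[m] ℝ := fun j => AEEqFun.mk (wf j) (hmw j).aestronglyMeasurable with hw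
  have hwae : ∀ j, w j =ᵐ[m] wf j := fun j => AEEqFun.coeFn_mk _ _
  -- pointwise facts
  have hpt : ∀ᵐ x ∂m, ∀ j, (w j x = if ((j : ℝ) + 1)⁻¹ < ρs x then W x / ρs x else 0) := by
    rw [ae_all_iff]
    intro j
    filter_upwards [hwae j] with x hx
    rw [hx, hwf]
    simp only [Set.indicator, Set.mem_setOf_eq]
  have hc0 : ∀ᵐ x ∂m, |W x| ≤ |c| * ρs x := by
    filter_upwards [hdom, hρ0] with x h1 h2
    exact h1.trans (mul_le_mul_of_nonneg_right (le_abs_self c) h2)
  have hwtop : ∀ j, MemLp (w j) ∞ m := by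
    intro j
    refine mem_top_iff.2 ⟨|c|, ?_⟩
    filter_upwards [hpt, hc0] with x h1 h2
    rw [h1 j]
    split_ifs with h3
    · have h4 : 0 < ρs x := lt_trans (by positivity) h3
      rw [abs_div, abs_of_pos h4, div_le_iff₀ h4]
      exact h2
    · simp
  have hw2 : ∀ j, MemLp (w j) 2 m := by
    intro j
    refine mem_of_le (mem_smul ((j : ℝ) + 1) hW2) ?_
    filter_upwards [hpt, smul_ae W ((j : ℝ) + 1)] with x h1 h2
    rw [h1 j, h2]
    split_ifs with h3
    · have h4 : 0 < ρs x := lt_trans (by positivity) h3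
      rw [abs_div, abs_of_pos h4, abs_mul, abs_of_pos (by positivity : (0 : ℝ) < (j : ℝ) + 1),
        div_le_iff₀ h4]
      have h5 : 1 ≤ ((j : ℝ) + 1) * ρs x := by
        have h6 : (0 : ℝ) < (j : ℝ) + 1 := by positivity
        have h7 := mul_lt_mul_of_pos_left h3 h6
        rw [mul_inv_cancel₀ h6.ne'] at h7
        exact h7.le
      calc |W x| = |W x| * 1 := (mul_one _).symm
        _ ≤ |W x| * (((j : ℝ) + 1) * ρs x) := by gcongr
        _ = _ := by ring
    · simp only [abs_zero]; positivity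
  choose B' G hB' hGCE hGs hGr using fun j => hG (w j) (hw2 j) (hwtop j)
  -- the difference at time `s`
  have hηW : ∀ t ∈ Icc a b, η t ∈ C.W := fun t ht => by
    obtain ⟨k, hk, _⟩ := hη t ht
    exact hk.1
  have hdiff : ∀ j, I ((k * ρr - G j r) ^ 2) ≤
      Real.exp (K * |r - s|) * I ((W - w j * ρs) ^ 2) := by
    intro j
    have h1 := hF.sub hC hηW hB (hB' j) (hGCE j)
    obtain ⟨C0, n0, h2⟩ := hcomm (2 * (B + B' j))
    have h3 := hC.ce_estimate (by linarith [hB' j]) hK0 h1 hη (C0 := C0) (n0 := n0)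
      (fun n hn t ht => ((h2 t ht _ (h1.mem t ht) (h1.bdd t ht) (h1.l2 t ht)).1 n hn))
      (fun t ht => (h2 t ht _ (h1.mem t ht) (h1.bdd t ht) (h1.l2 t ht)).2) hr hs
    rw [hFr, hGs j] at h3
    exact h3
  have hpt2 : ∀ᵐ x ∂m, ∀ j, (W - w j * ρs : M →ₘ[m] ℝ) x
      = if ((j : ℝ) + 1)⁻¹ < ρs x then 0 else W x := by
    rw [ae_all_iff]
    intro j
    filter_upwards [hpt, sub_ae W (w j * ρs), mul_ae (w j) ρs] with x h1 h2 h3
    rw [h2, h3, h1 j]
    split_ifs with h4
    · have h5 : ρs x ≠ 0 := (lt_trans (by positivity) h4).ne'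
      rw [div_mul_cancel₀ _ h5, sub_self]
    · simp
  have hlim0 : Tendsto (fun j => I ((W - w j * ρs) ^ 2)) atTop (𝓝 0) := by
    have h0 : Tendsto (fun j => I ((W - w j * ρs) ^ 2)) atTop (𝓝 (∫ x, (0 : ℝ) ∂m)) := by
      unfold I
      refine tendsto_integral_of_dominated_convergence (fun x => W x ^ 2) (fun j =>
        (AEEqFun.aestronglyMeasurable _)) ?_ (fun j => ?_) ?_
      · have := int_of_mem (by rw [sq]; exact mem_mul_22 hW2 hW2 : MemLp (W ^ 2 : M →ₘ[m] ℝ) 1 m)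
        refine this.congr ?_
        filter_upwards [sq_ae W] with x hx
        exact hx
      · filter_upwards [hpt2, sq_ae (W - w j * ρs)] with x h1 h2
        rw [h2, h1 j, Real.norm_eq_abs, abs_of_nonneg (sq_nonneg _)]
        split_ifs
        · simpa using sq_nonneg (W x)
        · exact le_rfl
      · have h3 : ∀ᵐ x ∂m, ∀ j, ((W - w j * ρs) ^ 2 : M →ₘ[m] ℝ) x
            = ((W - w j * ρs : M →ₘ[m] ℝ) x) ^ 2 := ae_all_iff.2 fun j => sq_ae _
        filter_upwards [hpt2, hρ0, hc0, h3] with x h1 h2 h4 h5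
        rcases eq_or_lt_of_le h2 with h6 | h6
        · have h7 : W x = 0 := by
            rw [← h6, mul_zero] at h4
            exact abs_eq_zero.1 (le_antisymm h4 (abs_nonneg _))
          refine tendsto_const_nhds.congr fun j => ?_
          rw [h5 j, h1 j, h7]; simp
        · have h8 : ∀ᶠ j : ℕ in atTop, ((j : ℝ) + 1)⁻¹ < ρs x :=
            tendsto_inv_succ.eventually_lt_const h6
          refine tendsto_const_nhds.congr' ?_
          filter_upwards [h8] with j hj
          rw [h5 j, h1 j, if_pos hj]; simp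
    simpa using h0
  -- the limit of the pairing
  have hGlim : Tendsto (fun j => I (k * G j r)) atTop (𝓝 (I (k * (k * ρr)))) := by
    have hkρ : MemLp (k * ρr : M →ₘ[m] ℝ) 2 m := by rw [← hFr]; exact hF.mem r hr
    have h1 : T2 (fun j => G j r) (k * ρr) := by
      refine ⟨fun j => (hGCE j).mem r hr, hkρ, ?_⟩
      have h2 : Tendsto (fun j => Real.exp (K * |r - s|) * I ((W - w j * ρs) ^ 2)) atTop (𝓝 0) := by
        simpa using hlim0.const_mul (Real.exp (K * |r - s|))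
      refine squeeze_zero (fun j => I_sq_nonneg _) (fun j => ?_) h2
      have e : (G j r - k * ρr) ^ 2 = (k * ρr - G j r) ^ 2 := by ring
      rw [e]
      exact hdiff j
    exact (T2.const hk2).mul_lim h1
  have hWlim : Tendsto (fun j => I (w j * W)) atTop (𝓝 (I (k * (k * ρr)))) := by
    refine hGlim.congr fun j => ?_
    exact (hGr j).symm
  -- monotone convergence
  set φ : ℕ → M → ℝ := fun j => {x | ((j : ℝ) + 1)⁻¹ < ρs x}.indicator fun x => W x ^ 2 / ρs x
    with hφ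
  have hφae : ∀ j, (w j * W : M →ₘ[m] ℝ) =ᵐ[m] φ j := by
    intro j
    filter_upwards [mul_ae (w j) W, hpt] with x h1 h2
    rw [h1, h2 j, hφ]
    simp only [Set.indicator, Set.mem_setOf_eq]
    split_ifs
    · ring
    · simp
  have hφint : ∀ j, Integrable (φ j) m := fun j =>
    (int_of_mem (mem_mul_22 (hw2 j) hW2)).congr (hφae j)
  have hφmono : ∀ᵐ x ∂m, Monotone fun j => φ j x := by
    filter_upwards [hρ0] with x h1
    intro i j hij
    simp only [hφ, Set.indicator, Set.mem_setOf_eq]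
    have h2 : ((j : ℝ) + 1)⁻¹ ≤ ((i : ℝ) + 1)⁻¹ := by
      have : (i : ℝ) ≤ j := by exact_mod_cast hij
      gcongr
    split_ifs with h3 h4 h4
    · exact le_rfl
    · exact absurd (lt_of_le_of_lt h2 h3) h4
    · positivity
    · exact le_rfl
  have hφlim : ∀ᵐ x ∂m, Tendsto (fun j => φ j x) atTop (𝓝 (W x ^ 2 / ρs x)) := by
    filter_upwards [hρ0] with x h2
    rcases eq_or_lt_of_le h2 with h6 | h6
    · refine tendsto_const_nhds.congr fun j => ?_
      simp only [hφ, Set.indicator, Set.mem_setOf_eq]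
      rw [← h6]
      simp
    · have h8 : ∀ᶠ j : ℕ in atTop, ((j : ℝ) + 1)⁻¹ < ρs x :=
        tendsto_inv_succ.eventually_lt_const h6
      refine tendsto_const_nhds.congr' ?_
      filter_upwards [h8] with j hj
      simp only [hφ, Set.indicator, Set.mem_setOf_eq]
      rw [if_pos hj]
  have hφI : ∀ j, ∫ x, φ j x ∂m = I (w j * W) := fun j => (integral_congr_ae (hφae j)).symm
  have hφ0 : ∀ᵐ x ∂m, ∀ j, 0 ≤ φ j x := by
    filter_upwards [hρ0] with x h1 j
    simp only [hφ, Set.indicator, Set.mem_setOf_eq]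
    split_ifs
    · positivity
    · exact le_rfl
  have hint : Integrable (fun x => W x ^ 2 / ρs x) m := by
    refine ⟨((hmW.pow_const 2).div hmρ).aestronglyMeasurable, ?_⟩
    have h1 : Tendsto (fun j => ∫⁻ x, ENNReal.ofReal (φ j x) ∂m) atTop
        (𝓝 (∫⁻ x, ENNReal.ofReal (W x ^ 2 / ρs x) ∂m)) := by
      refine lintegral_tendsto_of_tendsto_of_monotone
        (fun j => (hφint j).1.aemeasurable.ennreal_ofReal) ?_ ?_
      · filter_upwards [hφmono] with x hx i j hij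
        exact ENNReal.ofReal_le_ofReal (hx hij)
      · filter_upwards [hφlim] with x hx
        exact (ENNReal.continuous_ofReal.tendsto _).comp hx
    have h2 : ∀ j, ∫⁻ x, ENNReal.ofReal (φ j x) ∂m = ENNReal.ofReal (I (w j * W)) := by
      intro j
      rw [← hφI j, ofReal_integral_eq_lintegral_ofReal (hφint j)]
      filter_upwards [hφ0] with x hx
      exact hx j
    simp only [h2] at h1
    have h3 := tendsto_nhds_unique h1 ((ENNReal.continuous_ofReal.tendsto _).comp hWlim)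
    rw [hasFiniteIntegral_iff_ofReal (by
      filter_upwards [hρ0] with x h1
      positivity), h3]
    exact ENNReal.ofReal_lt_top
  refine ⟨hint, ?_⟩
  have h9 := integral_tendsto_of_tendsto_of_monotone hφint hint hφmono hφlim
  refine tendsto_nhds_unique h9 ?_
  simpa only [hφI] using hWlim

end IsDir

end Vale.Agent.P233
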