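import Vale.Agent.P233.Gig.IfC
import Vale.Agent.P233.U.Det
import Vale.Agent.P233.U.Curve
import Vale.Agent.P233.U.Back
import Vale.Agent.P233.H22.Eta
import Vale.Agent.P233.H599.Radial

/-! Block C2, the end point `t = 1`: `X_r` is a function of `X_1` (helper22). -/

set_option linter.all false

open MeasureTheory Filter Topology Set
open scoped ENNReal NNReal

universe u

namespace Vale.Agent.P233.PC

variable {M : Type u} [MetricSpace M] [SecondCountableTopology M] [MeasurableSpace M] [BorelSpace M]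
variable {m : Measure M} {K N : ℝ} {P : ℝ → (M →ₘ[m] ℝ) → (M →ₘ[m] ℝ)} {p : M} {s₀ C₀ : ℝ}
variable {φ ρ : ℝ → M →ₘ[m] ℝ} {R : ℝ → ℝ → (M →ₘ[m] ℝ) → (M →ₘ[m] ℝ)}

theorem zc_ae (m : Measure M) (p : M) (s₀ C₀ t : ℝ) :
    ∀ᵐ x ∂m, zc m p s₀ C₀ t x = zr p s₀ C₀ t x := by
  have h : AEStronglyMeasurable (zr p s₀ C₀ t) m := by
    have : Continuous (zr p s₀ C₀ t) := by unfold zr; fun_prop
    exact this.measurable.aestronglyMeasurable
  have e : zc m p s₀ C₀ t = AEEqFun.mk (zr p s₀ C₀ t) h := by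
    unfold zc cl; rw [dif_pos h]
  rw [e]
  exact AEEqFun.coeFn_mk _ _

/-- a solution of the continuity equation which vanishes at time `1` vanishes -/
theorem one_zero (hyp : CHyp M m K N P p s₀ C₀) (hL : Lim m K N p s₀ C₀ φ ρ R) {r : ℝ}
    (hr : r ∈ Ioo (0 : ℝ) 1) {σ : ℝ → M →ₘ[m] ℝ} {B : ℝ} (hB : 0 ≤ B)
    (hCE : (sob m).CE r 1 B (zc m p s₀ C₀) σ) (h1 : σ 1 = 0)
    (hdom : ∀ t ∈ Ico r 1, ∃ c : ℝ, ∀ᵐ x ∂m, |σ t x| ≤ c * ρ t x) : σ r = 0 := by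
  have hstd := hyp.std
  have hfin := hstd.hfin
  have hC : IsGamma (sob m) := isGamma_sob hfin hstd.rcd.quadratic hstd.rcd.sobolev_to_lipschitz
  have hBE : (sob m).BEi K := hC.bei hstd.hN hstd.rcd.bochner
  haveI : SigmaFinite m := by
    refine ⟨⟨⟨fun n => Metric.ball p n, fun n => trivial, fun n => hfin _ _, ?_⟩⟩⟩
    exact Metric.iUnion_ball_nat p
  have hs := hyp.hs
  have hC0 := hyp.hC0
  obtain ⟨c, hc⟩ := hL.φ_lap
  obtain ⟨R0, hR0⟩ := hL.φ_far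
  obtain ⟨Bφ, hBφ⟩ := hL.φ_bd
  obtain ⟨c2, hc2⟩ := hL.z_lap r hr
  obtain ⟨Cc, hcut⟩ := exists_cutI hfin hC hstd.hN hstd.rcd.bochner p
  set R1 : ℝ := max (max R0 (r1 s₀ C₀)) 1 with hR1
  obtain ⟨χ, hχT, hχ0, hχ1, hχeq, ⟨R', hχR'⟩, -, -⟩ := hcut R1 (le_max_right _ _)
  obtain ⟨θ, hθT, hθ0, hθ1, hθeq, -, -, -⟩ := hcut (max R' 1) (le_max_right _ _)
  have hχA := hC.test_A hχT.1
  have hθA := hC.test_A hθT.1
  have hχ01 : ∀ᵐ x ∂m, 0 ≤ χ x ∧ χ x ≤ 1 := by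
    filter_upwards [nonneg_iff_ae.1 hχ0, le_iff_ae.1 hχ1, one_ae (M := M) (m := m)] with x a1 a2 a3
    rw [a3] at a2
    exact ⟨a1, a2⟩
  have hχL1 : MemLp χ 1 m := by
    rw [memLp_one_iff_integrable]
    have hint : Integrable ((Metric.closedBall p R').indicator fun _ => (1 : ℝ)) m := by
      rw [integrable_indicator_iff Metric.isClosed_closedBall.measurableSet]
      refine integrableOn_const (lt_of_le_of_lt (measure_mono ?_) (hfin p (R' + 1))).ne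
      intro x hx
      rw [Metric.mem_closedBall] at hx
      rw [Metric.mem_ball]; linarith
    refine hint.mono χ.aestronglyMeasurable ?_
    filter_upwards [hχ01, hχR'] with x a1 a2
    rw [Real.norm_eq_abs, abs_of_nonneg a1.1]
    by_cases hx : dist x p ≤ R'
    · rw [indicator_of_mem (by rwa [Metric.mem_closedBall])]; simpa using a1.2
    · rw [a2 (not_le.1 hx)]; exact norm_nonneg _
  set V : ℝ := I χ with hV
  have hV0 : 0 ≤ V := I_nonneg hχ0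
  set Bb : ℝ := max |Bφ| C₀ with hBb
  have hBb0 : 0 ≤ Bb := (abs_nonneg _).trans (le_max_left _ _)
  have hθχ : ∀ᵐ x ∂m, χ x ≠ 0 → θ x = 1 := by
    filter_upwards [hχR', hθeq] with x a1 a2 a3
    by_cases hx : dist x p ≤ R'
    · exact a2 (hx.trans (le_max_left _ _))
    · exact absurd (a1 (not_le.1 hx)) a3
  -- the potentials
  have hex : ∀ t : ℝ, ∃ η h : M →ₘ[m] ℝ, t ∈ Ico r 1 → (sob m).IsLap η h ∧
      (∀ᵐ x ∂m, h x ≤ |c2| + 2 * Bb) ∧
      I (h ^ 2) ≤ (N / (1 - t) + |c| + |c2| + 4 * Bb) * (2 * (|c2| + 2 * Bb) * V) ∧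
      I ((sob m).Γ η η) ≤ Bb * (2 * (|c2| + 2 * Bb) * V) ∧
      ∀ g ∈ (sob m).W, ∀ᵐ x ∂m, φ t x = zc m p s₀ C₀ t x →
        (sob m).Γ η g x = (sob m).Γ (zc m p s₀ C₀ t) g x := by
    intro t
    by_cases ht : t ∈ Ico r 1
    swap
    · exact ⟨0, 0, fun h => absurd h ht⟩
    have ht0 : t ∈ Icc (0 : ℝ) 1 := ⟨hr.1.le.trans ht.1, ht.2.le⟩
    have ht1 : 0 < 1 - t := by linarith [ht.2]
    have hzae := zc_ae m p s₀ C₀ t
    have hτ : 0 < t + s₀ := by linarith [ht0.1]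
    obtain ⟨η, h, e1, e2, e3, e4, e5, e6, e7, e8⟩ := hC.toIsDir.eta_exists
      (φ := φ t) (u := zc m p s₀ C₀ t) (χ := χ) (θ := θ)
      (c1 := N / (1 - t) + |c|) (c2 := |c2|) (B := Bb) (V := V)
      (by have := hstd.hN; positivity) (abs_nonneg _) (hL.φ_mem t ht0) (hL.z_mem t ht0)
      (hL.φ_le t ht0) hBb0
      (by
        filter_upwards [hBφ t ht0] with x hx
        exact hx.trans ((le_abs_self _).trans (le_max_left _ _)))
      (by
        filter_upwards [hzae] with x hx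
        rw [hx]
        exact (H599.abs_zr_le hτ hC0.le x).trans (le_max_right _ _))
      hχA hχL1 hχ0 le_rfl (hχ01.mono fun x hx => hx.2)
      (by
        filter_upwards [hzae, hR0 t ht0, hχeq] with x a1 a2 a3 a4
        refine a3 ?_
        by_contra hcon
        push Not at hcon
        have b1 : R0 ≤ dist p x := by
          rw [dist_comm]; exact ((le_max_left _ _).trans (le_max_left _ _)).trans hcon.le
        have b2 : r1 s₀ C₀ ≤ dist p x := by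
          rw [dist_comm]; exact ((le_max_right _ _).trans (le_max_left _ _)).trans hcon.le
        rcases a4 with a4 | a4
        · exact a4 (a2 b1)
        · refine a4 ?_
          rw [a1]
          refine H599.zr_eq_zero hτ ?_
          have b3 : 2 * C₀ * (t + s₀) ≤ 2 * C₀ * (1 + s₀) := by
            have := ht.2
            gcongr
          have b4 : (r1 s₀ C₀) ^ 2 = 2 * C₀ * (1 + s₀) := by
            unfold r1; exact Real.sq_sqrt (by positivity)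
          have b5 : (r1 s₀ C₀) ^ 2 ≤ dist p x ^ 2 :=
            pow_le_pow_left₀ (Real.sqrt_nonneg _) b2 2
          linarith)
      hθA hθχ
      (by
        intro g hg hg0 hg1
        have b1 := hc t ⟨ht0.1, ht.2⟩ g hg.1 hg0 hg1
        have b2 : 0 ≤ I g := I_nonneg hg0
        have b3 : c * I g ≤ |c| * I g := mul_le_mul_of_nonneg_right (le_abs_self c) b2
        nlinarith)
      (by
        intro g hg hg0 hg1
        have b1 := hc2 t ⟨ht.1, ht.2.le⟩ g hg.1 hg0 hg1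
        have b2 : 0 ≤ I g := I_nonneg hg0
        exact b1.trans (mul_le_mul_of_nonneg_right (le_abs_self c2) b2))
    exact ⟨η, h, fun _ => ⟨e1, e4, e6, e7, e8⟩⟩
  choose η h hηh using hex
  set V1 : ℝ := 2 * (|c2| + 2 * Bb) * V with hV1
  have hV10 : 0 ≤ V1 := by positivity
  -- the continuity equation with the velocities `∇η_t`
  have hCE' : (sob m).CE r 1 B η σ := by
    refine hC.toIsDir.ce_congr hCE fun t ht g hg => ?_
    rcases eq_or_lt_of_le ht.2 with h2 | h2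
    · rw [h2, h1, mul_zero, mul_zero]
    · have ht' : t ∈ Ico r 1 := ⟨ht.1, h2⟩
      obtain ⟨e1, -, -, -, e8⟩ := hηh t ht'
      obtain ⟨cc, hcc⟩ := hdom t ht'
      have ht0 : t ∈ Ioo (0 : ℝ) 1 := ⟨hr.1.trans_le ht.1, h2⟩
      have hzW := (hL.z_mem t ⟨ht0.1.le, ht0.2.le⟩).1
      congr 1
      rw [eq_iff_ae]
      filter_upwards [mul_ae ((sob m).Γ g (η t)) (σ t), mul_ae ((sob m).Γ g (zc m p s₀ C₀ t)) (σ t),
        e8 g hg, hcc, hL.ρ_supp t ht0, le_iff_ae.1 (hL.φ_le t ⟨ht0.1.le, ht0.2.le⟩),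
        eq_iff_ae.1 (hC.symm _ hg _ e1.1), eq_iff_ae.1 (hC.symm _ hg _ hzW)]
        with x b1 b2 b3 b4 b5 b6 b7 b8
      rw [b1, b2, b7, b8]
      rcases eq_or_lt_of_le b6 with h3 | h3
      · rw [b3 h3]
      · rw [b5 h3, mul_zero] at b4
        rw [abs_nonpos_iff.1 b4, mul_zero, mul_zero]
  -- the majorant
  set q : ℝ → ℝ := fun t => √(N * V1) * (1 - t) ^ (-(1 / 2) : ℝ)
    + √((|c| + |c2| + 4 * Bb) * V1) with hq
  have hN := hstd.hN
  have hqi : IntervalIntegrable q volume r 1 := by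
    refine IntervalIntegrable.add ?_ intervalIntegrable_const
    refine IntervalIntegrable.const_mul ?_ _
    have h2 : IntervalIntegrable (fun x : ℝ => x ^ (-(1 / 2) : ℝ)) volume (1 - r) 0 :=
      intervalIntegral.intervalIntegrable_rpow' (by norm_num)
    have h3 := h2.comp_sub_left 1
    simpa using h3
  have key := hC.ce_back hBE hr.2.le hB (K := |c2| + 2 * Bb) (E := Bb * V1) (k := h) hCE'
    (fun t ht => (hηh t ⟨ht.1.le, ht.2⟩).1) (fun t ht => (hηh t ⟨ht.1.le, ht.2⟩).2.1) hqi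
    (fun t ht => by
      have : 0 < 1 - t := by linarith [ht.2]
      positivity)
    (fun t ht => by
      have h0 : 0 < 1 - t := by linarith [ht.2]
      refine (hηh t ⟨ht.1.le, ht.2⟩).2.2.1.trans ?_
      have e1 : (√(N * V1) * (1 - t) ^ (-(1 / 2) : ℝ)) ^ 2 = N / (1 - t) * V1 := by
        rw [mul_pow, Real.sq_sqrt (by positivity), ← Real.rpow_natCast ((1 - t) ^ (-(1 / 2) : ℝ)) 2,
          ← Real.rpow_mul h0.le]
        norm_num
        rw [Real.rpow_neg_one]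
        field_simp
      have e2 : (√((|c| + |c2| + 4 * Bb) * V1)) ^ 2 = (|c| + |c2| + 4 * Bb) * V1 :=
        Real.sq_sqrt (by positivity)
      have e3 : 0 ≤ √(N * V1) * (1 - t) ^ (-(1 / 2) : ℝ) * √((|c| + |c2| + 4 * Bb) * V1) := by
        positivity
      have e4 : q t ^ 2 = (√(N * V1) * (1 - t) ^ (-(1 / 2) : ℝ)) ^ 2
          + 2 * (√(N * V1) * (1 - t) ^ (-(1 / 2) : ℝ) * √((|c| + |c2| + 4 * Bb) * V1))
          + (√((|c| + |c2| + 4 * Bb) * V1)) ^ 2 := by rw [hq]; ring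
      rw [e4, e1, e2]
      have e5 : (N / (1 - t) + |c| + |c2| + 4 * Bb) * V1
          = N / (1 - t) * V1 + (|c| + |c2| + 4 * Bb) * V1 := by ring
      rw [e5]
      linarith)
    (by positivity) (fun t ht => (hηh t ⟨ht.1.le, ht.2⟩).2.2.2.1)
  have hz : I ((σ 1) ^ 2) = 0 := by
    rw [h1]
    have : (0 : M →ₘ[m] ℝ) ^ 2 = 0 := by ring
    rw [this, I_zero]
  rw [hz, mul_zero] at key
  have hI : I (σ r ^ 2) = 0 := by
    have h2 := I_sq_nonneg (σ r)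
    have h3 := Real.exp_pos ((|c2| + 2 * Bb) * r)
    by_contra hne
    have h4 : 0 < I (σ r ^ 2) := lt_of_le_of_ne h2 (Ne.symm hne)
    exact absurd key (not_le.2 (mul_pos h3 h4))
  exact I_sq_eq_zero (hCE.mem r ⟨le_rfl, hr.2.le⟩) hI

/-- **The end point `t = 1`**: the isometry for `K_(1,r)`. -/
theorem one_iso (hyp : CHyp M m K N P p s₀ C₀) (hL : Lim m K N p s₀ C₀ φ ρ R) {r : ℝ}
    (hr : r ∈ Ioo (0 : ℝ) 1)
    (hCE : ∀ r' ∈ Ioc (0 : ℝ) 1, ∀ k, L2i m k → ∃ B : ℝ, 0 ≤ B ∧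
      (sob m).CE r 1 B (zc m p s₀ C₀) (fun t => R t r' k))
    {k : M →ₘ[m] ℝ} (hk : L2i m k) : I (R 1 r k ^ 2) = I (k ^ 2 * ρ r) := by
  have hstd := hyp.std
  have hC : IsGamma (sob m) :=
    isGamma_sob hstd.hfin hstd.rcd.quadratic hstd.rcd.sobolev_to_lipschitz
  have h1 : (1 : ℝ) ∈ Ioc (0 : ℝ) 1 := ⟨one_pos, le_rfl⟩
  have hr' : r ∈ Ioc (0 : ℝ) 1 := ⟨hr.1, hr.2.le⟩
  set w := R 1 r k with hw
  have hwi : L2i m w := hL.R_mem 1 h1 r hr' k hk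
  obtain ⟨B1, hB1, CE1⟩ := hCE r hr' k hk
  obtain ⟨B2, hB2, CE2⟩ := hCE 1 h1 w hwi
  have hzW : ∀ t ∈ Icc r 1, zc m p s₀ C₀ t ∈ (sob m).W := fun t ht =>
    (hL.z_mem t ⟨hr.1.le.trans ht.1, ht.2⟩).1
  have hσ := CE1.sub hC.toIsDir hzW hB1 hB2 CE2
  obtain ⟨Bk, hBk⟩ := mem_top_iff.1 hk.2
  obtain ⟨Bw, hBw⟩ := mem_top_iff.1 hwi.2
  have hz := one_zero hyp hL hr (σ := fun t => R t r k - R t 1 w) (by positivity) hσ
    (by
      show R 1 r k - R 1 1 w = 0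
      rw [hL.R_diag 1 h1 w hwi, hL.ρ_one, mul_one, ← hw, sub_self])
    (fun t ht => by
      have ht' : t ∈ Ioc (0 : ℝ) 1 := ⟨hr.1.trans_le ht.1, ht.2.le⟩
      refine ⟨Bk + Bw, ?_⟩
      filter_upwards [hL.R_le t ht' r hr' k hk Bk hBk, hL.R_le t ht' 1 h1 w hwi Bw hBw,
        sub_ae (R t r k) (R t 1 w)] with x a1 a2 a3
      rw [a3]
      refine (abs_sub _ _).trans ?_
      linarith)
  have hz' : R r r k = R r 1 w := sub_eq_zero.1 hz
  rw [hL.R_diag r hr' k hk] at hz'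
  have e1 : k ^ 2 * ρ r = k * R r 1 w := by rw [← hz']; ring
  rw [e1, hL.R_symm r hr' 1 h1 w k hwi hk, ← hw, sq]

/-- squares suffice -/
theorem mult_of_sq (hL : Lim m K N p s₀ C₀ φ ρ R) {t r : ℝ} (ht : t ∈ Ioc (0 : ℝ) 1)
    (hr : r ∈ Ioc (0 : ℝ) 1) (hsq : ∀ k, L2i m k → R t r (k ^ 2) * ρ t = R t r k ^ 2)
    {k k' : M →ₘ[m] ℝ} (hk : L2i m k) (hk' : L2i m k') :
    R t r (k * k') * ρ t = R t r k * R t r k' := by
  have i1 : ∀ {a b : M →ₘ[m] ℝ}, L2i m a → L2i m b → L2i m (a * b) := fun ha hb =>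
    ⟨mem_mul_top ha.2 hb.1, mem_mul_top ha.2 hb.2⟩
  have i2 : ∀ {a b : M →ₘ[m] ℝ}, L2i m a → L2i m b → L2i m (a + b) := fun ha hb =>
    ⟨mem_add ha.1 hb.1, mem_add ha.2 hb.2⟩
  have i3 : ∀ (c : ℝ) {a : M →ₘ[m] ℝ}, L2i m a → L2i m (c • a) := fun c _ ha =>
    ⟨mem_smul c ha.1, mem_smul c ha.2⟩
  have i4 : ∀ {a : M →ₘ[m] ℝ}, L2i m a → L2i m (a ^ 2) := fun ha => by rw [sq]; exact i1 ha ha
  have h1 := hsq _ (i2 hk hk')
  have e1 : (k + k') ^ 2 = k ^ 2 + (2 : ℝ) • (k * k') + k' ^ 2 := by algebra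
  rw [e1, hL.R_add t ht r hr _ _ (i2 (i4 hk) (i3 2 (i1 hk hk'))) (i4 hk'),
    hL.R_add t ht r hr _ _ (i4 hk) (i3 2 (i1 hk hk')), hL.R_smul t ht r hr 2 _ (i1 hk hk'),
    hL.R_add t ht r hr _ _ hk hk'] at h1
  have h2 := hsq _ hk
  have h3 := hsq _ hk'
  have h4 : (2 : ℝ) • (R t r (k * k') * ρ t) = (2 : ℝ) • (R t r k * R t r k') := by
    have e2 : (R t r (k ^ 2) + (2 : ℝ) • R t r (k * k') + R t r (k' ^ 2)) * ρ t
        = R t r (k ^ 2) * ρ t + (2 : ℝ) • (R t r (k * k') * ρ t) + R t r (k' ^ 2) * ρ t := by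
      algebra
    have e3 : (R t r k + R t r k') ^ 2
        = R t r k ^ 2 + (2 : ℝ) • (R t r k * R t r k') + R t r k' ^ 2 := by algebra
    rw [e2, e3, h2, h3] at h1
    exact add_left_cancel (add_right_cancel h1)
  have h5 := congrArg (fun z => (2 : ℝ)⁻¹ • z) h4
  simpa [smul_smul] using h5

/-- **The end point `t = 1`** in multiplicative form -/
theorem one_mult (hyp : CHyp M m K N P p s₀ C₀) (hL : Lim m K N p s₀ C₀ φ ρ R) {r : ℝ}
    (hr : r ∈ Ioo (0 : ℝ) 1)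
    (hCE : ∀ r' ∈ Ioc (0 : ℝ) 1, ∀ k, L2i m k → ∃ B : ℝ, 0 ≤ B ∧
      (sob m).CE r 1 B (zc m p s₀ C₀) (fun t => R t r' k))
    {k k' : M →ₘ[m] ℝ} (hk : L2i m k) (hk' : L2i m k') :
    R 1 r (k * k') * ρ 1 = R 1 r k * R 1 r k' := by
  have h1 : (1 : ℝ) ∈ Ioc (0 : ℝ) 1 := ⟨one_pos, le_rfl⟩
  have hr' : r ∈ Ioc (0 : ℝ) 1 := ⟨hr.1, hr.2.le⟩
  refine mult_of_sq hL h1 hr' (fun k hk => ?_) hk hk'
  have hiso := one_iso hyp hL hr hCE hk
  have hsq := hL.R_sq 1 h1 r hr' k hk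
  rw [hL.ρ_one, one_mul] at hsq
  have hk2 : L2i m (k ^ 2) := by
    rw [sq]; exact ⟨mem_mul_top hk.2 hk.1, mem_mul_top hk.2 hk.2⟩
  have hk1 : MemLp (k ^ 2 : M →ₘ[m] ℝ) 1 m := mem_sq hk.1
  obtain ⟨m1, hmass⟩ := hL.R_mass 1 h1 r hr' _ hk2 hk1
  have m2 : MemLp (R 1 r k ^ 2 : M →ₘ[m] ℝ) 1 m := mem_sq (hL.R_mem 1 h1 r hr' k hk).1
  have h0 : 0 ≤ R 1 r (k ^ 2) - R 1 r k ^ 2 := by
    rw [nonneg_iff_ae]
    filter_upwards [le_iff_ae.1 hsq, sub_ae (R 1 r (k ^ 2)) (R 1 r k ^ 2)] with x a1 a2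
    rw [a2]; linarith
  have hI : I (R 1 r (k ^ 2) - R 1 r k ^ 2) = 0 := by
    rw [I_sub m1 m2, hmass, hiso, sub_self]
  have := I_eq_zero_of_nonneg (mem_sub m1 m2) h0 hI
  rw [hL.ρ_one, mul_one]
  exact sub_eq_zero.1 this

end Vale.Agent.P233.PC
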