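import Vale.Agent.P233.U.Mult
import Vale.Agent.P233.U.One

/-!
# P233, block C2: determinism
-/

set_option linter.all false

open MeasureTheory Filter Topology Set
open scoped ENNReal NNReal InnerProductSpace

universe u

namespace Vale.Agent.P233.H638

open Vale.Agent.P233.PC

/-- Block C2. -/
theorem blk_C2 : Blk_C2.{u} := by
  intro M _ _ _ _ _ m K N P p s₀ C₀ hyp φ ρ R hL t ht r hr k k' hk hk'
  have hC := std_gamma hyp.std
  have hD := hC.toIsDir
  have hBE := std_bei hyp.std
  have hfin := hyp.std.hfin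
  have hN := hyp.std.hN
  rcases eq_or_lt_of_le ht.2 with h1 | h1
  · subst h1
    rcases eq_or_lt_of_le hr.2 with h2 | h2
    · subst h2
      rw [hL.R_diag 1 ht _ (l2i_mul hk hk'), hL.R_diag 1 ht k hk, hL.R_diag 1 ht k' hk',
        hL.ρ_one]
      ring
    · exact one_mult hyp hL ⟨hr.1, h2⟩
        (fun r' hr' k hk => ce_R hD hfin hN hyp.hs hyp.hC0 hL hr.1 hr.2 hr' hk) hk hk'
  · exact mult_lt hC hBE hfin hN hyp.hs hyp.hC0 hL ⟨ht.1, h1⟩ hr hk hk'

end Vale.Agent.P233.H638
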