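import Vale.Agent.P233.MathlibUsed2
import Vale.Agent.P233.Bd3.B1
import Vale.Agent.P233.Bd3.B3
import Vale.Agent.P233.Bd3.B5

set_option linter.all false

open MeasureTheory Filter Topology
open scoped ENNReal NNReal

namespace Vale.Agent.P233

variable {M : Type*} [MeasurableSpace M] {m : Measure M} {C : Calc m}

/-- The commutator `∫ Γ(J_a J_a s', η) s - ∫ Γ(J_a s', η) J_a s`. -/
noncomputable def Calc.Cm (C : Calc m) (η : M →ₘ[m] ℝ) (a : ℝ) (s s' : M →ₘ[m] ℝ) : ℝ :=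
  I (C.Γ (C.J a (C.J a s')) η * s) - I (C.Γ (C.J a s') η * C.J a s)

namespace IsDir

variable (hC : IsDir C)
variable {f g h k s s' u v w b η S B : M →ₘ[m] ℝ} {a : ℝ}

include hC

/-- integration by parts against `η ∈ D(Δ)` with bounded Laplacian -/
theorem U_ibp (hη : C.IsLap η h) (hg : g ∈ C.A) (hS : S ∈ C.A) :
    I (C.Γ g η * S) = -I (g * C.Γ S η) - I (g * S * h) := by
  have h1 := hη.2.2 _ (hC.mul_mem_A hg hS).1
  change I (C.Γ η (g * S)) = -I (h * (g * S)) at h1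
  have m1 : MemLp (g * C.Γ η S : M →ₘ[m] ℝ) 1 m := mem_mul_top hg.2 (hC.Γ_mem1 hη.1 hS.1)
  have m2 : MemLp (S * C.Γ η g : M →ₘ[m] ℝ) 1 m := mem_mul_top hS.2 (hC.Γ_mem1 hη.1 hg.1)
  rw [hC.Γ_mul_right hg hS hη.1, I_add m1 m2] at h1
  have e1 : C.Γ g η * S = S * C.Γ η g := by rw [hC.symm _ hg.1 _ hη.1]; ring
  have e2 : g * C.Γ S η = g * C.Γ η S := by rw [hC.symm _ hS.1 _ hη.1]
  have e3 : g * S * h = h * (g * S) := by ring
  rw [e1, e2, e3]; linarith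

theorem U_J_A (ha : 0 < a) (hs : MemLp s 2 m) (hs' : MemLp s ∞ m) : C.J a s ∈ C.A := by
  refine ⟨hC.J_mem ha hs, ?_⟩
  obtain ⟨K, hK⟩ := mem_top_iff.1 hs'
  exact mem_top_iff.2 ⟨K, hC.J_bdd ha hs hK⟩

/-- the commutator identity -/
theorem Cm_eq (ha : 0 < a) (hη : C.IsLap η h) (hη' : MemLp (C.Γ η η) ∞ m)
    (hs : MemLp s 2 m) (hsT : MemLp s ∞ m) (hs' : MemLp s' 2 m) (hsT' : MemLp s' ∞ m)
    (hh : MemLp h ∞ m) :
    C.Cm η a s s' = -(a * (I (C.Γ (C.J a (C.J a s')) η * C.lap (C.J a s))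
        + I (C.Γ (C.J a s) η * C.lap (C.J a (C.J a s')))
        - I (h * C.Γ (C.J a (C.J a s')) (C.J a s))))
      - a * I (h * C.Γ (C.J a (C.J a s')) (C.J a s))
      - I ((C.J a (C.J a s') - C.J a s') * (C.J a s) * h) := by
  set S := C.J a s with hS
  set b := C.J a s' with hb
  set B := C.J a b with hBB
  have SA : S ∈ C.A := hC.U_J_A ha hs hsT
  have bA : b ∈ C.A := hC.U_J_A ha hs' hsT'
  have BA : B ∈ C.A := hC.U_J_A ha (hC.memLp _ bA.1) bA.2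
  have lS : C.lap S = a⁻¹ • (S - s) := hC.lap_eq (hC.J_isLap ha hs)
  have lB : C.lap B = a⁻¹ • (B - b) := hC.lap_eq (hC.J_isLap ha (hC.memLp _ bA.1))
  have lBA : C.lap B ∈ C.A := by rw [lB]; exact hC.A_smul _ (hC.A_sub BA bA)
  have lS2 : MemLp (C.lap S) 2 m := by rw [lS]; exact mem_smul _ (mem_sub (hC.memLp _ SA.1) hs)
  have es : s = S - a • C.lap S := by rw [lS, smul_smul, mul_inv_cancel₀ ha.ne', one_smul]; abel
  have eb : b = B - a • C.lap B := by rw [lB, smul_smul, mul_inv_cancel₀ ha.ne', one_smul]; abel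
  have gB2 : MemLp (C.Γ B η) 2 m := by
    rw [hC.symm _ BA.1 _ hη.1]; exact hC.Γ_mem2 hη.1 hη' BA.1
  have m1 : MemLp (C.Γ B η * S : M →ₘ[m] ℝ) 1 m := mem_mul_22 gB2 (hC.memLp _ SA.1)
  have m2 : MemLp (C.Γ B η * C.lap S : M →ₘ[m] ℝ) 1 m := mem_mul_22 gB2 lS2
  have glB2 : MemLp (C.Γ (C.lap B) η) 2 m := by
    rw [hC.symm _ lBA.1 _ hη.1]; exact hC.Γ_mem2 hη.1 hη' lBA.1
  have m3 : MemLp (C.Γ (C.lap B) η * S : M →ₘ[m] ℝ) 1 m := mem_mul_22 glB2 (hC.memLp _ SA.1)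
  have i1 : I (C.Γ B η * s) = I (C.Γ B η * S) - a * I (C.Γ B η * C.lap S) := by
    have : C.Γ B η * s = C.Γ B η * S - a • (C.Γ B η * C.lap S) := by
      conv_lhs => rw [es]
      algebra
    rw [this, I_sub m1 (mem_smul _ m2), I_smul]
  have i2 : I (C.Γ b η * S) = I (C.Γ B η * S) - a * I (C.Γ (C.lap B) η * S) := by
    have e0 : C.Γ b η = C.Γ B η - a • C.Γ (C.lap B) η := by
      conv_lhs => rw [eb]
      rw [hC.Γ_sub_left BA.1 (hC.smul_mem _ _ lBA.1) hη.1, hC.smul_left _ _ lBA.1 _ hη.1]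
    have : C.Γ b η * S = C.Γ B η * S - a • (C.Γ (C.lap B) η * S) := by
      rw [e0]; algebra
    rw [this, I_sub m1 (mem_smul _ m3), I_smul]
  have i3 := hC.U_ibp hη lBA SA
  have i4 : a * I (C.lap B * S * h) = I ((B - b) * S * h) := by
    rw [← I_smul]; congr 1
    have : a • (C.lap B * S * h) = (a • C.lap B) * S * h := by algebra
    rw [this, lB, smul_smul, mul_inv_cancel₀ ha.ne', one_smul]
  have e5 : C.Γ S η * C.lap B = C.lap B * C.Γ S η := by ring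
  unfold Calc.Cm
  rw [i1, i2, i3, ← i4, e5]
  ring

end IsDir

namespace IsGamma

variable (hC : IsGamma C) {κ : ℝ} (hB : C.BEi κ)
variable {f g h k s s' u v w b η S B : M →ₘ[m] ℝ} {a : ℝ}

include hC hB

/-- the Hessian of a test function, paired with `∇B ⊗ ∇S`, `|∇B| ≤ L` -/
theorem hess_pair_le [SigmaFinite m] (hb : b ∈ C.Test) (hBt : B ∈ C.Test) (hS : S ∈ C.Test)
    {L : ℝ} (hL : 0 ≤ L) (hBL : ∀ᵐ x ∂m, C.Γ B B x ≤ L ^ 2) :
    |I (C.hess b B S)| ≤ √(I (C.lap b ^ 2) - κ * I (C.Γ b b)) * (L * √(I (C.Γ S S))) := by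
  obtain ⟨χ, Λ, hT, h0, hb1, hconv, -⟩ := hC.exists_cut hB
  have hconv' : ∀ᵐ x ∂m, Tendsto (fun k => χ k x) atTop (𝓝 ((1 : M →ₘ[m] ℝ) x)) := by
    filter_upwards [hconv, one_ae (M := M) (m := m)] with x b1 b2
    rw [b2]; exact b1
  have BA := hC.test_A hBt
  have SA := hC.test_A hS
  have bA := hC.test_A hb
  have nH : MemLp (C.hess b B S) 1 m := by
    unfold Calc.hess
    exact mem_smul _ (mem_sub (mem_add (hC.Γ_mem1 BA.1 (hC.Γ_mem hB hb hS).1)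
      (hC.Γ_mem1 SA.1 (hC.Γ_mem hB hb hBt).1)) (hC.Γ_mem1 bA.1 (hC.Γ_mem hB hBt hS).1))
  set Q := I (C.lap b ^ 2) - κ * I (C.Γ b b) with hQ
  have hQ0 : 0 ≤ Q := by
    have := hC.tensor_ineq_one hB (n := 0) hb (F := Fin.elim0) (H := Fin.elim0) (s := Fin.elim0)
      (fun i => i.elim0) (fun i => i.elim0) (fun i => i.elim0) (fun i => i.elim0)
    simp only [Finset.univ_eq_empty, Finset.sum_empty, mul_zero, add_zero] at this
    exact this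
  set E := I (C.Γ S S) with hE
  have hE0 : 0 ≤ E := hC.E_nonneg SA.1
  have key : ∀ k, I (χ k * C.hess b B S) ^ 2 ≤ Q * (L ^ 2 * E) := by
    intro k
    have χA := hC.test_A (hT k)
    have hw : ∀ t : ℝ, 0 ≤ Q + 2 * t * (2 * I (χ k * C.hess b B S)) + t ^ 2 * (4 * (L ^ 2 * E)) := by
      intro t
      have h1 := hC.tensor_ineq_one hB (n := 1) hb (F := fun _ => B) (H := fun _ => S)
        (s := fun _ => t • χ k) (fun _ => hBt) (fun _ => hS) (fun _ => mem_smul _ χA.2)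
        (fun _ => mem_smul _ (hC.memLp _ χA.1))
      simp only [Finset.univ_unique, Fin.default_eq_zero, Fin.isValue, Finset.sum_const,
        Finset.card_singleton, one_smul] at h1
      have e1 : I (t • χ k * C.KK b B S) = t * (2 * I (χ k * C.hess b B S)) := by
        have : t • χ k * C.KK b B S = t • ((2 : ℝ) • (χ k * C.hess b B S)) := by
          unfold Calc.KK; algebra
        rw [this, I_smul, I_smul]
      have e2 : I (t • χ k * t • χ k * C.MM B S B S) ≤ t ^ 2 * (2 * (L ^ 2 * E)) := by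
        have e3 : t • χ k * t • χ k * C.MM B S B S = (t ^ 2) • (χ k * χ k * C.MM B S B S) := by
          algebra
        rw [e3, I_smul]
        refine mul_le_mul_of_nonneg_left ?_ (sq_nonneg t)
        have e4 : 2 * (L ^ 2 * E) = I ((2 * L ^ 2) • C.Γ S S) := by rw [I_smul]; ring
        rw [e4]
        have hMM1 : MemLp (C.MM B S B S) 1 m := by
          unfold Calc.MM
          exact mem_add (mem_mul_22 (hC.memLp _ (hC.Γ_mem hB hBt hBt).1)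
              (hC.memLp _ (hC.Γ_mem hB hS hS).1))
            (mem_mul_22 (hC.memLp _ (hC.Γ_mem hB hBt hS).1) (hC.memLp _ (hC.Γ_mem hB hS hBt).1))
        refine I_mono (mem_mul_top (mem_mul_top χA.2 χA.2) hMM1)
          (mem_smul _ (hC.mem1 _ SA.1)) ?_
        rw [le_iff_ae]
        filter_upwards [mul_ae (χ k * χ k) (C.MM B S B S), mul_ae (χ k) (χ k),
          add_ae (C.Γ B B * C.Γ S S) (C.Γ B S * C.Γ S B), mul_ae (C.Γ B B) (C.Γ S S),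
          mul_ae (C.Γ B S) (C.Γ S B), smul_ae (C.Γ S S) (2 * L ^ 2), hb1 k, hBL,
          hC.Γ_cs_ae BA.1 SA.1, hC.Γ_nonneg_ae SA.1, hC.Γ_nonneg_ae BA.1] with
          x c1 c2 c3 c4 c5 c6 c7 c8 c9 c10 c11
        have hMMx : C.MM B S B S x = C.Γ B B x * C.Γ S S x + C.Γ B S x * C.Γ B S x := by
          have : C.MM B S B S = C.Γ B B * C.Γ S S + C.Γ B S * C.Γ S B := by
            unfold Calc.MM; rfl
          rw [this, c3, c4, c5, hC.symm _ SA.1 _ BA.1]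
        rw [c1, c2, c6, hMMx]
        have d1 : C.Γ B B x * C.Γ S S x ≤ L ^ 2 * C.Γ S S x := mul_le_mul_of_nonneg_right c8 c10
        have d2 : χ k x * χ k x ≤ 1 := by nlinarith [abs_le.1 c7, abs_mul_abs_self (χ k x), abs_nonneg (χ k x)]
        have d3 : 0 ≤ C.Γ B B x * C.Γ S S x := mul_nonneg c11 c10
        have d4 : 0 ≤ χ k x * χ k x := mul_self_nonneg _
        nlinarith [mul_self_nonneg (C.Γ B S x)]
      rw [e1] at h1
      linarith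
    have := disc_of_forall hw
    nlinarith
  have t1 : Tendsto (fun k => I (χ k * C.hess b B S)) atTop (𝓝 (I (C.hess b B S))) := by
    have := I_tendsto_of_bdd hb1 hconv' nH
    rwa [one_mul] at this
  have h2 : I (C.hess b B S) ^ 2 ≤ Q * (L ^ 2 * E) :=
    le_of_tendsto (t1.pow 2) (Eventually.of_forall key)
  rw [← Real.sqrt_sq_eq_abs]
  have h3 : √Q * (L * √E) = √(Q * (L ^ 2 * E)) := by
    rw [Real.sqrt_mul hQ0, Real.sqrt_mul (sq_nonneg L), Real.sqrt_sq hL]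
  rw [h3]
  exact Real.sqrt_le_sqrt h2

/-- the form in which the Hessian bound is used, for test functions -/
theorem U_hess_test [SigmaFinite m] (hη : η ∈ C.Test) (hBt : B ∈ C.Test) (hS : S ∈ C.Test)
    (hSB : MemLp (C.lap B) ∞ m)
    {L : ℝ} (hL : 0 ≤ L) (hBL : ∀ᵐ x ∂m, C.Γ B B x ≤ L ^ 2) :
    |I (C.Γ B η * C.lap S) + I (C.Γ S η * C.lap B) - I (C.lap η * C.Γ B S)|
      ≤ 2 * √(I (C.lap η ^ 2) - κ * I (C.Γ η η)) * (L * √(I (C.Γ S S))) := by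
  have BA := hC.test_A hBt
  have SA := hC.test_A hS
  have ηA := hC.test_A hη
  have g1 := hC.ibp hS (hC.Γ_mem hB hη hBt).1
  have g2 := hC.ibp hBt (hC.Γ_mem hB hη hS).1
  have g3 := hC.ibp hη (hC.Γ_mem hB hBt hS).1
  have e : I (C.Γ B η * C.lap S) + I (C.Γ S η * C.lap B) - I (C.lap η * C.Γ B S)
      = -(2 * I (C.hess η B S)) := by
    have e1 : C.Γ B η * C.lap S = C.lap S * C.Γ η B := by
      rw [hC.symm _ BA.1 _ ηA.1]; ring
    have e2 : C.Γ S η * C.lap B = C.lap B * C.Γ η S := by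
      rw [hC.symm _ SA.1 _ ηA.1]; ring
    have m1 := hC.Γ_mem1 SA.1 (hC.Γ_mem hB hη hBt).1
    have m2 := hC.Γ_mem1 BA.1 (hC.Γ_mem hB hη hS).1
    have m3 := hC.Γ_mem1 ηA.1 (hC.Γ_mem hB hBt hS).1
    have e3 : 2 * I (C.hess η B S) = I (C.Γ B (C.Γ η S)) + I (C.Γ S (C.Γ η B))
        - I (C.Γ η (C.Γ B S)) := by
      rw [← I_add m2 m1, ← I_sub (mem_add m2 m1) m3, ← I_smul]
      congr 1
      unfold Calc.hess; algebra
    rw [e1, e2, e3, g1, g2, g3]; ring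
  rw [e, abs_neg, abs_mul, abs_of_pos (by norm_num : (0 : ℝ) < 2)]
  have := hC.hess_pair_le hB hη hBt hS hL hBL
  nlinarith

end IsGamma

namespace IsDir

variable (hC : IsDir C)
variable {f g h k s s' u v w b η S B : M →ₘ[m] ℝ} {a : ℝ}


/-- products of `L²` convergent sequences -/
theorem _root_.Vale.Agent.P233.I_mul_tendsto {F G : ℕ → M →ₘ[m] ℝ} (hF : ∀ n, MemLp (F n) 2 m)
    (hf : MemLp f 2 m) (hG : ∀ n, MemLp (G n) 2 m) (hg : MemLp g 2 m)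
    (h1 : Tendsto (fun n => I ((F n - f) ^ 2)) atTop (𝓝 0))
    (h2 : Tendsto (fun n => I ((G n - g) ^ 2)) atTop (𝓝 0)) :
    Tendsto (fun n => I (F n * G n)) atTop (𝓝 (I (f * g))) := by
  have k1 : Tendsto (fun n => √(I ((F n - f) ^ 2))) atTop (𝓝 0) := by
    simpa using h1.sqrt
  have k2 : Tendsto (fun n => √(I ((G n - g) ^ 2))) atTop (𝓝 0) := by
    simpa using h2.sqrt
  have k3 : Tendsto (fun n => √(I ((F n - f) ^ 2)) * √(I ((G n - g) ^ 2))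
      + √(I ((F n - f) ^ 2)) * √(I (g ^ 2)) + √(I (f ^ 2)) * √(I ((G n - g) ^ 2))) atTop (𝓝 0) := by
    have := ((k1.mul k2).add (k1.mul_const (√(I (g ^ 2))))).add (k2.const_mul (√(I (f ^ 2))))
    simpa using this
  rw [tendsto_iff_dist_tendsto_zero]
  refine squeeze_zero (fun n => dist_nonneg) (fun n => ?_) k3
  rw [Real.dist_eq]
  have a1 := mem_sub (hF n) hf
  have a2 := mem_sub (hG n) hg
  have e : F n * G n = (F n - f) * (G n - g) + (F n - f) * g + f * (G n - g) + f * g := by ring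
  rw [e, I_add (mem_add (mem_add (mem_mul_22 a1 a2) (mem_mul_22 a1 hg)) (mem_mul_22 hf a2))
    (mem_mul_22 hf hg), I_add (mem_add (mem_mul_22 a1 a2) (mem_mul_22 a1 hg)) (mem_mul_22 hf a2),
    I_add (mem_mul_22 a1 a2) (mem_mul_22 a1 hg)]
  have b1 := I_abs_le a1 a2
  have b2 := I_abs_le a1 hg
  have b3 := I_abs_le hf a2
  have e2 : I ((F n - f) * (G n - g)) + I ((F n - f) * g) + I (f * (G n - g)) + I (f * g)
      - I (f * g) = I ((F n - f) * (G n - g)) + I ((F n - f) * g) + I (f * (G n - g)) := by ring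
  rw [e2]
  exact (abs_add_three _ _ _).trans (add_le_add (add_le_add b1 b2) b3)

theorem _root_.Vale.Agent.P233.I_sq_tendsto {F : ℕ → M →ₘ[m] ℝ} (hF : ∀ n, MemLp (F n) 2 m)
    (hf : MemLp f 2 m) (h1 : Tendsto (fun n => I ((F n - f) ^ 2)) atTop (𝓝 0)) :
    Tendsto (fun n => I (F n ^ 2)) atTop (𝓝 (I (f ^ 2))) := by
  have := I_mul_tendsto hF hf hF hf h1 h1
  simp only [sq]; exact this

include hC

/-- `I(Γ(B, v)²) ≤ L² I(Γ(v,v))` for `Γ(B,B) ≤ L²` -/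
theorem Γ_sq_leU (hB : B ∈ C.W) (hv : v ∈ C.W) {L : ℝ} (hBL : ∀ᵐ x ∂m, C.Γ B B x ≤ L ^ 2)
    (hBT : MemLp (C.Γ B B) ∞ m) : I (C.Γ B v ^ 2) ≤ L ^ 2 * I (C.Γ v v) := by
  rw [← I_smul]
  refine I_mono (mem_sq (hC.Γ_mem2 hB hBT hv)) (mem_smul _ (hC.mem1 _ hv)) ?_
  rw [le_iff_ae]
  filter_upwards [sq_ae (C.Γ B v), smul_ae (C.Γ v v) (L ^ 2), hC.Γ_cs_ae hB hv, hBL,
    hC.Γ_nonneg_ae hv] with x b1 b2 b3 b4 b5
  rw [b1, b2]
  exact b3.trans (mul_le_mul_of_nonneg_right b4 b5)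

theorem Γ_top_of_le (hB : B ∈ C.W) {L : ℝ} (hBL : ∀ᵐ x ∂m, C.Γ B B x ≤ L) :
    MemLp (C.Γ B B) ∞ m := by
  refine mem_top_iff.2 ⟨L, ?_⟩
  filter_upwards [hBL, hC.Γ_nonneg_ae hB] with x b1 b2
  rwa [abs_of_nonneg b2]

/-- `Γ(B, v_n) → Γ(B, v)` in `L²` if `v_n → v` in `W` and `B` is Lipschitz -/
theorem Γ_tendsto_L2 (hB : B ∈ C.W) {L : ℝ} (hBL : ∀ᵐ x ∂m, C.Γ B B x ≤ L ^ 2)
    {V : ℕ → M →ₘ[m] ℝ} (hV : ∀ n, V n ∈ C.W) (hv : v ∈ C.W)
    (h : Tendsto (fun n => C.nrm2 (V n - v)) atTop (𝓝 0)) :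
    Tendsto (fun n => I ((C.Γ B (V n) - C.Γ B v) ^ 2)) atTop (𝓝 0) := by
  have h1 := hC.tendsto_E_of_nrm2 hV hv h
  have h2 : Tendsto (fun n => L ^ 2 * I (C.Γ (V n - v) (V n - v))) atTop (𝓝 0) := by
    simpa using h1.const_mul (L ^ 2)
  refine squeeze_zero (fun n => I_sq_nonneg _) (fun n => ?_) h2
  rw [← hC.Γ_sub_right hB (hV n) hv]
  exact hC.Γ_sq_leU hB (hC.sub_mem (hV n) hv) hBL (hC.Γ_top_of_le hB hBL)

/-- `I(l Γ(S_n, η_n)) → I(l Γ(S, η))` for `l` bounded -/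
theorem I_mul_Γ_tendsto {l : M →ₘ[m] ℝ} (hl : MemLp l ∞ m)
    {U V : ℕ → M →ₘ[m] ℝ} (hU : ∀ n, U n ∈ C.W) (hu : u ∈ C.W)
    (hV : ∀ n, V n ∈ C.W) (hv : v ∈ C.W)
    (h1 : Tendsto (fun n => C.nrm2 (U n - u)) atTop (𝓝 0))
    (h2 : Tendsto (fun n => C.nrm2 (V n - v)) atTop (𝓝 0)) :
    Tendsto (fun n => I (l * C.Γ (U n) (V n))) atTop (𝓝 (I (l * C.Γ u v))) := by
  obtain ⟨K, hK⟩ := mem_top_iff.1 hl
  have hK' : ∀ᵐ x ∂m, |l x| ≤ |K| := hK.mono fun x hx => hx.trans (le_abs_self K)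
  have j1 : Tendsto (fun n => √(I (C.Γ (U n - u) (U n - u)))) atTop (𝓝 0) := by
    simpa using (hC.tendsto_E_of_nrm2 hU hu h1).sqrt
  have j2 : Tendsto (fun n => √(I (C.Γ (V n - v) (V n - v)))) atTop (𝓝 0) := by
    simpa using (hC.tendsto_E_of_nrm2 hV hv h2).sqrt
  have bd : ∀ p q, p ∈ C.W → q ∈ C.W → |I (l * C.Γ p q)| ≤ |K| * (√(I (C.Γ p p)) * √(I (C.Γ q q))) := by
    intro p q hp hq
    have mpq := hC.Γ_mem1 hp hq
    have m1 : MemLp (l * C.Γ p q : M →ₘ[m] ℝ) 1 m := mem_mul_top hl mpq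
    calc |I (l * C.Γ p q)| ≤ ∫ x, |(l * C.Γ p q : M →ₘ[m] ℝ) x| ∂m := by
            have := norm_integral_le_integral_norm (μ := m) (f := ⇑(l * C.Γ p q : M →ₘ[m] ℝ))
            simpa [I, Real.norm_eq_abs] using this
      _ ≤ ∫ x, |K| * |C.Γ p q x| ∂m := by
            refine integral_mono_ae (int_of_mem m1).abs ((int_of_mem mpq).abs.const_mul _) ?_
            filter_upwards [mul_ae l (C.Γ p q), hK'] with x b1 b2
            rw [b1, abs_mul]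
            exact mul_le_mul_of_nonneg_right b2 (abs_nonneg _)
      _ = |K| * ∫ x, |C.Γ p q x| ∂m := integral_const_mul _ _
      _ ≤ _ := mul_le_mul_of_nonneg_left (hC.int_abs_Γ_le hp hq) (abs_nonneg _)
  have k3 : Tendsto (fun n => |K| * (√(I (C.Γ (U n - u) (U n - u))) * √(I (C.Γ (V n - v) (V n - v))))
      + |K| * (√(I (C.Γ (U n - u) (U n - u))) * √(I (C.Γ v v)))
      + |K| * (√(I (C.Γ u u)) * √(I (C.Γ (V n - v) (V n - v))))) atTop (𝓝 0) := by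
    have := (((j1.mul j2).const_mul |K|).add ((j1.mul_const (√(I (C.Γ v v)))).const_mul |K|)).add
      ((j2.const_mul (√(I (C.Γ u u)))).const_mul |K|)
    simpa using this
  rw [tendsto_iff_dist_tendsto_zero]
  refine squeeze_zero (fun n => dist_nonneg) (fun n => ?_) k3
  rw [Real.dist_eq]
  have aU := hC.sub_mem (hU n) hu
  have aV := hC.sub_mem (hV n) hv
  have e : C.Γ (U n) (V n) = C.Γ (U n - u) (V n - v) + C.Γ (U n - u) v + C.Γ u (V n - v)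
      + C.Γ u v := by
    rw [hC.Γ_sub_right aU (hV n) hv, hC.Γ_sub_left (hU n) hu (hV n), hC.Γ_sub_left (hU n) hu hv,
      hC.Γ_sub_right hu (hV n) hv]
    abel
  have m' : ∀ p q, p ∈ C.W → q ∈ C.W → MemLp (l * C.Γ p q : M →ₘ[m] ℝ) 1 m := fun p q hp hq =>
    mem_mul_top hl (hC.Γ_mem1 hp hq)
  have e1 : l * C.Γ (U n) (V n) = l * C.Γ (U n - u) (V n - v) + l * C.Γ (U n - u) v
      + l * C.Γ u (V n - v) + l * C.Γ u v := by rw [e]; ring
  rw [e1, I_add (mem_add (mem_add (m' _ _ aU aV) (m' _ _ aU hv)) (m' _ _ hu aV)) (m' _ _ hu hv),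
    I_add (mem_add (m' _ _ aU aV) (m' _ _ aU hv)) (m' _ _ hu aV),
    I_add (m' _ _ aU aV) (m' _ _ aU hv), add_sub_cancel_right]
  exact (abs_add_three _ _ _).trans (add_le_add (add_le_add (bd _ _ aU aV) (bd _ _ aU hv))
    (bd _ _ hu aV))

end IsDir

namespace IsGamma

variable (hC : IsGamma C) {κ : ℝ} (hB : C.BEi κ)
variable {f g h k s s' u v w b η S B : M →ₘ[m] ℝ} {a : ℝ}

include hC hB

/-- `D(Δ)` is approximated by test functions in the graph norm -/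
theorem lap_approx [SigmaFinite m] (hu : C.IsLap u k) :
    ∃ U : ℕ → M →ₘ[m] ℝ, (∀ n, U n ∈ C.TestI) ∧ Tendsto (fun n => C.nrm2 (U n - u)) atTop (𝓝 0) ∧
      Tendsto (fun n => I ((C.lap (U n) - k) ^ 2)) atTop (𝓝 0) := by
  have hD := hC.toIsDir
  obtain ⟨N, hN⟩ := exists_small κ
  set lam : ℝ := ((N : ℝ) + 1)⁻¹ with hlam
  have hl : 0 < lam := by rw [hlam]; positivity
  have hl2 : 0 < 1 + 2 * lam * κ := hN N le_rfl
  have u2 := hC.memLp _ hu.1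
  have k2 := hu.2.1
  have f2 : MemLp (u - lam • k : M →ₘ[m] ℝ) 2 m := mem_sub u2 (mem_smul _ k2)
  -- `J (u - lam k) = u`
  have hJ : C.J lam (u - lam • k) = u := by
    refine hD.J_eq hl ⟨hu.1, fun g hg => ?_⟩
    have g2 := hC.memLp _ hg
    have e1 : I (C.Γ u g) = -I (k * g) := hu.2.2 _ hg
    have e2 : (u - lam • k) * g = u * g - lam • (k * g) := by algebra
    rw [e2, I_sub (mem_mul_22 u2 g2) (mem_smul _ (mem_mul_22 k2 g2)), I_smul, e1]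
    ring
  -- approximate in `L²`
  have hap : ∀ n : ℕ, ∃ w ∈ C.Test, I ((u - lam • k - w) ^ 2) < ((n : ℝ) + 1)⁻¹ := by
    intro n
    have hp : (0 : ℝ) < ((n : ℝ) + 1)⁻¹ := by positivity
    obtain ⟨w, hw, hw2⟩ := hC.dense_L2 _ f2 (((n : ℝ) + 1)⁻¹ / 4) (by positivity)
    obtain ⟨v, hv, hv2⟩ := hC.test_dense hB hw (ε := ((n : ℝ) + 1)⁻¹ / 4) (by positivity)
    refine ⟨v, hv, ?_⟩
    have vW := (hC.test_A hv).1
    have h1 := hD.I_sq_le_nrm2 (hD.sub_mem vW hw)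
    have h2 := I_sq_add_le (mem_sub f2 (hC.memLp _ hw)) (mem_sub (hC.memLp _ hw) (hC.memLp _ vW))
    have e : u - lam • k - w + (w - v) = u - lam • k - v := by abel
    have e' : (v - w) ^ 2 = (w - v) ^ 2 := by ring
    rw [e] at h2
    rw [e'] at h1
    linarith
  choose w hwT hw2 using hap
  have wA := fun n => hC.test_A (hwT n)
  have w2 := fun n => hC.memLp _ (wA n).1
  have hlim : Tendsto (fun n => I ((u - lam • k - w n) ^ 2)) atTop (𝓝 0) :=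
    squeeze_zero (fun n => I_sq_nonneg _) (fun n => (hw2 n).le) tendsto_inv_succ
  have hdiff : ∀ n, C.J lam (w n) - u = C.J lam (w n - (u - lam • k)) := by
    intro n
    rw [hD.J_sub hl (w2 n) f2, hJ]
  have hsq : ∀ n, I ((w n - (u - lam • k)) ^ 2) = I ((u - lam • k - w n) ^ 2) := by
    intro n; congr 1; ring
  have hb1 : ∀ n, I ((C.J lam (w n) - u) ^ 2) + lam * I (C.Γ (C.J lam (w n) - u) (C.J lam (w n) - u))
      ≤ I ((u - lam • k - w n) ^ 2) := by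
    intro n
    have := hD.J_contr hl (mem_sub (w2 n) f2)
    rwa [← hdiff n, hsq n] at this
  refine ⟨fun n => C.J lam (w n), fun n => hC.testI_J hB hl hl2 (wA n) (hC.test_Γ_top (hwT n)), ?_, ?_⟩
  · have h3 : Tendsto (fun n => (1 + lam⁻¹) * I ((u - lam • k - w n) ^ 2)) atTop (𝓝 0) := by
      simpa using hlim.const_mul (1 + lam⁻¹)
    refine squeeze_zero (fun n => hD.nrm2_nonneg (hD.sub_mem (hD.J_mem hl (w2 n)) hu.1))
      (fun n => ?_) h3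
    unfold Calc.nrm2
    have h4 := hb1 n
    have h5 := I_sq_nonneg (C.J lam (w n) - u)
    have h6 := hD.E_nonneg (hD.sub_mem (hD.J_mem hl (w2 n)) hu.1)
    have h7 : I (C.Γ (C.J lam (w n) - u) (C.J lam (w n) - u))
        ≤ lam⁻¹ * I ((u - lam • k - w n) ^ 2) := by
      rw [inv_mul_eq_div, le_div_iff₀ hl]; nlinarith
    have h8 : 0 ≤ lam * I (C.Γ (C.J lam (w n) - u) (C.J lam (w n) - u)) := by positivity
    nlinarith
  · have h3 : Tendsto (fun n => (lam⁻¹) ^ 2 * (4 * I ((u - lam • k - w n) ^ 2))) atTop (𝓝 0) := by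
      have := (hlim.const_mul 4).const_mul ((lam⁻¹) ^ 2)
      rwa [mul_zero, mul_zero] at this
    refine squeeze_zero (fun n => I_sq_nonneg _) (fun n => ?_) h3
    rw [hD.lap_eq (hD.J_isLap hl (w2 n))]
    have e : (lam⁻¹ • (C.J lam (w n) - w n) - k) ^ 2
        = ((lam⁻¹) ^ 2) • ((C.J lam (w n) - u) + (u - lam • k - w n)) ^ 2 := by
      have e1 : lam⁻¹ • (C.J lam (w n) - w n) - k
          = lam⁻¹ • ((C.J lam (w n) - u) + (u - lam • k - w n)) := by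
        have : (C.J lam (w n) - u) + (u - lam • k - w n) = C.J lam (w n) - w n - lam • k := by abel
        rw [this, smul_sub _ _ (lam • k), smul_smul, inv_mul_cancel₀ hl.ne', one_smul]
      rw [e1]
      algebra
    rw [e, I_smul]
    refine mul_le_mul_of_nonneg_left ?_ (by positivity)
    have h4 := I_sq_add_le (mem_sub (hD.J_mem2 hl (w2 n)) u2) (mem_sub f2 (w2 n))
    have h5 := hb1 n
    have h6 := hD.E_nonneg (hD.sub_mem (hD.J_mem hl (w2 n)) hu.1)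
    have h8 : 0 ≤ lam * I (C.Γ (C.J lam (w n) - u) (C.J lam (w n) - u)) := by positivity
    linarith

/-- **U2** the Hessian bound on `D(Δ)` -/
theorem U_hess [SigmaFinite m] (hη : C.IsLap η h) (hBt : B ∈ C.TestI) (hS : C.IsLap S k)
    {L : ℝ} (hL : 0 ≤ L) (hBL : ∀ᵐ x ∂m, C.Γ B B x ≤ L ^ 2) :
    |I (C.Γ B η * k) + I (C.Γ S η * C.lap B) - I (h * C.Γ B S)|
      ≤ 2 * √(I (h ^ 2) - κ * I (C.Γ η η)) * (L * √(I (C.Γ S S))) := by
  have hD := hC.toIsDir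
  obtain ⟨U, hU, hU1, hU2⟩ := hC.lap_approx hB hη
  obtain ⟨V, hV, hV1, hV2⟩ := hC.lap_approx hB hS
  have BA := hC.test_A hBt.1
  have UW := fun n => (hC.test_A (hU n).1).1
  have VW := fun n => (hC.test_A (hV n).1).1
  have hBT := hC.test_Γ_top hBt.1
  have key := fun n => hC.U_hess_test hB (hU n).1 hBt.1 (hV n).1 hBt.2 hL hBL
  have g1 := hD.Γ_tendsto_L2 BA.1 hBL UW hη.1 hU1
  have g2 := hD.Γ_tendsto_L2 BA.1 hBL VW hS.1 hV1
  have t1 : Tendsto (fun n => I (C.Γ B (U n) * C.lap (V n))) atTop (𝓝 (I (C.Γ B η * k))) :=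
    I_mul_tendsto (fun n => hD.Γ_mem2 BA.1 hBT (UW n)) (hD.Γ_mem2 BA.1 hBT hη.1)
      (fun n => hC.lap2 (hV n).1) hS.2.1 g1 hV2
  have t2 : Tendsto (fun n => I (C.Γ (V n) (U n) * C.lap B)) atTop (𝓝 (I (C.Γ S η * C.lap B))) := by
    have := hD.I_mul_Γ_tendsto hBt.2 VW hS.1 UW hη.1 hV1 hU1
    simpa only [mul_comm (C.lap B)] using this
  have t3 : Tendsto (fun n => I (C.lap (U n) * C.Γ B (V n))) atTop (𝓝 (I (h * C.Γ B S))) :=
    I_mul_tendsto (fun n => hC.lap2 (hU n).1) hη.2.1 (fun n => hD.Γ_mem2 BA.1 hBT (VW n))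
      (hD.Γ_mem2 BA.1 hBT hS.1) hU2 g2
  have E1 : Tendsto (fun n => I (C.Γ (U n) (U n))) atTop (𝓝 (I (C.Γ η η))) := by
    have := hD.I_mul_Γ_tendsto (mem_top_one (m := m)) UW hη.1 UW hη.1 hU1 hU1
    simpa only [one_mul] using this
  have E2 : Tendsto (fun n => I (C.Γ (V n) (V n))) atTop (𝓝 (I (C.Γ S S))) := by
    have := hD.I_mul_Γ_tendsto (mem_top_one (m := m)) VW hS.1 VW hS.1 hV1 hV1
    simpa only [one_mul] using this
  have E3 : Tendsto (fun n => I (C.lap (U n) ^ 2)) atTop (𝓝 (I (h ^ 2))) :=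
    I_sq_tendsto (fun n => hC.lap2 (hU n).1) hη.2.1 hU2
  have lhs := (((t1.add t2).sub t3).abs)
  have rhs := ((((E3.sub (E1.const_mul κ)).sqrt).const_mul 2).mul ((E2.sqrt).const_mul L))
  exact le_of_tendsto_of_tendsto lhs rhs (Eventually.of_forall key)

/-- **U1 (i)** the uniform bound of the commutator -/
theorem Cm_le [SigmaFinite m] (ha : 0 < a) (ha4 : 4 * |κ| * a ≤ 1) (hη : C.IsLap η h) {K : ℝ}
    (hηK : ∀ᵐ x ∂m, C.Γ η η x ≤ K) (hhK : ∀ᵐ x ∂m, |h x| ≤ K) (hK0 : 0 ≤ K)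
    (hs : MemLp s 2 m) (hsT : MemLp s ∞ m) (hs' : MemLp s' 2 m) {R : ℝ} (hR : ∀ᵐ x ∂m, |s' x| ≤ R)
    (hR0 : 0 ≤ R) :
    |C.Cm η a s s'| ≤ √(I (s ^ 2)) * (4 * √(I (h ^ 2) - κ * I (C.Γ η η)) * R
      + 3 * K * √(I (s' ^ 2))) := by
  have hD := hC.toIsDir
  have hη' := hD.Γ_top_of_le hη.1 hηK
  have hhT : MemLp h ∞ m := mem_top_iff.2 ⟨K, hhK⟩
  have hsT' : MemLp s' ∞ m := mem_top_iff.2 ⟨R, hR⟩
  rw [hD.Cm_eq ha hη hη' hs hsT hs' hsT' hhT]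
  set S := C.J a s with hS
  set b := C.J a s' with hb
  set B := C.J a b with hBB
  have SA : S ∈ C.A := hD.U_J_A ha hs hsT
  have bA : b ∈ C.A := hD.U_J_A ha hs' hsT'
  have BA : B ∈ C.A := hD.U_J_A ha (hC.memLp _ bA.1) bA.2
  have lS : C.lap S = a⁻¹ • (S - s) := hD.lap_eq (hD.J_isLap ha hs)
  have lB : C.lap B = a⁻¹ • (B - b) := hD.lap_eq (hD.J_isLap ha (hC.memLp _ bA.1))
  have SL : C.IsLap S (C.lap S) := by rw [lS]; exact hD.J_isLap ha hs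
  have hBL : ∀ᵐ x ∂m, C.Γ B B x ≤ (√(2 * a⁻¹) * R) ^ 2 := by
    have := hC.J2_Γ_bdd hB ha ha4 hs' hR
    filter_upwards [this] with x hx
    rw [mul_pow, Real.sq_sqrt (by positivity)]
    exact hx
  have hBT : B ∈ C.TestI := by
    have h1 : B ∈ C.B := (hC.lip_iff B BA.1).2 ⟨BA.2, hD.Γ_top_of_le BA.1 hBL⟩
    have h2 : C.IsLap B (C.lap B) := by rw [lB]; exact hD.J_isLap ha (hC.memLp _ bA.1)
    have h3 : C.lap B ∈ C.A := by rw [lB]; exact hD.A_smul _ (hD.A_sub BA bA)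
    exact ⟨⟨h1, C.lap B, h2, h3.1⟩, h3.2⟩
  set H := √(I (h ^ 2) - κ * I (C.Γ η η)) with hH
  have hH0 : 0 ≤ H := Real.sqrt_nonneg _
  have hx := hC.U_hess hB hη hBT SL (L := √(2 * a⁻¹) * R) (by positivity) hBL
  set X := I (C.Γ B η * C.lap S) + I (C.Γ S η * C.lap B) - I (h * C.Γ B S) with hX
  -- energies
  have n1 : 0 ≤ √(I (s ^ 2)) := Real.sqrt_nonneg _
  have n2 : 0 ≤ √(I (s' ^ 2)) := Real.sqrt_nonneg _
  have eS := hD.J_contr ha hs
  have eb := hD.J_contr ha hs'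
  have eB := hD.J_contr ha (hC.memLp _ bA.1)
  rw [← hS] at eS
  rw [← hb] at eb
  rw [← hBB] at eB
  have pS := hD.E_nonneg SA.1
  have pb := hD.E_nonneg bA.1
  have pB := hD.E_nonneg BA.1
  have qS := I_sq_nonneg S
  have qb := I_sq_nonneg b
  have qB := I_sq_nonneg B
  have gS : √(I (C.Γ S S)) ≤ √(a⁻¹) * √(I (s ^ 2)) := by
    rw [← Real.sqrt_mul (by positivity)]
    refine Real.sqrt_le_sqrt ?_
    rw [inv_mul_eq_div, le_div_iff₀ ha]; linarith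
  have gB : √(I (C.Γ B B)) ≤ √(a⁻¹) * √(I (s' ^ 2)) := by
    rw [← Real.sqrt_mul (by positivity)]
    refine Real.sqrt_le_sqrt ?_
    rw [inv_mul_eq_div, le_div_iff₀ ha]
    have : 0 ≤ a * I (C.Γ b b) := by positivity
    linarith
  have gS2 : √(I (S ^ 2)) ≤ √(I (s ^ 2)) := by
    refine Real.sqrt_le_sqrt ?_
    have : 0 ≤ a * I (C.Γ S S) := by positivity
    linarith
  have gBb : √(I ((B - b) ^ 2)) ≤ 2 * √(I (s' ^ 2)) := by
    have h4 : (2 : ℝ) * √(I (s' ^ 2)) = √(4 * I (s' ^ 2)) := by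
      rw [Real.sqrt_mul (by norm_num), show (4 : ℝ) = 2 ^ 2 by norm_num, Real.sqrt_sq (by norm_num)]
    rw [h4]
    refine Real.sqrt_le_sqrt ?_
    have h5 := I_sq_add_le (hC.memLp _ BA.1) (mem_neg (hC.memLp _ bA.1))
    have e1 : B + -b = B - b := by abel
    have e2 : (-b) ^ 2 = b ^ 2 := by ring
    rw [e1, e2] at h5
    have : 0 ≤ a * I (C.Γ B B) := by positivity
    have : 0 ≤ a * I (C.Γ b b) := by positivity
    linarith
  have ha' : √(a⁻¹) * √(a⁻¹) = a⁻¹ := Real.mul_self_sqrt (by positivity)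
  -- first term
  have T1 : |-(a * X)| ≤ √(I (s ^ 2)) * (4 * H * R) := by
    rw [abs_neg, abs_mul, abs_of_pos ha]
    have h1 : a * |X| ≤ a * (2 * H * (√(2 * a⁻¹) * R * (√(a⁻¹) * √(I (s ^ 2))))) := by
      refine mul_le_mul_of_nonneg_left (hx.trans ?_) ha.le
      refine mul_le_mul_of_nonneg_left ?_ (by positivity)
      exact mul_le_mul_of_nonneg_left gS (by positivity)
    refine h1.trans ?_
    have h2 : √(2 * a⁻¹) ≤ 2 * √(a⁻¹) := by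
      rw [Real.sqrt_mul (by norm_num)]
      refine mul_le_mul_of_nonneg_right ?_ (Real.sqrt_nonneg _)
      rw [show (2 : ℝ) = √4 by rw [show (4 : ℝ) = 2 ^ 2 by norm_num, Real.sqrt_sq (by norm_num)]]
      exact Real.sqrt_le_sqrt (by
        have : √(4 : ℝ) = 2 := by rw [show (4 : ℝ) = 2 ^ 2 by norm_num, Real.sqrt_sq (by norm_num)]
        rw [this]; norm_num)
    have h3 : a * (2 * H * (√(2 * a⁻¹) * R * (√(a⁻¹) * √(I (s ^ 2)))))
        ≤ a * (2 * H * (2 * √(a⁻¹) * R * (√(a⁻¹) * √(I (s ^ 2))))) := by gcongr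
    refine h3.trans (le_of_eq ?_)
    calc a * (2 * H * (2 * √(a⁻¹) * R * (√(a⁻¹) * √(I (s ^ 2)))))
        = a * (√(a⁻¹) * √(a⁻¹)) * (√(I (s ^ 2)) * (4 * H * R)) := by ring
      _ = _ := by rw [ha', mul_inv_cancel₀ ha.ne', one_mul]
  -- second term
  have T2 : |a * I (h * C.Γ B S)| ≤ √(I (s ^ 2)) * (K * √(I (s' ^ 2))) := by
    rw [abs_mul, abs_of_pos ha]
    have mBS := hC.Γ_mem1 BA.1 SA.1
    have m1 : MemLp (h * C.Γ B S : M →ₘ[m] ℝ) 1 m := mem_mul_top hhT mBS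
    have h1 : |I (h * C.Γ B S)| ≤ K * (√(I (C.Γ B B)) * √(I (C.Γ S S))) := by
      calc |I (h * C.Γ B S)| ≤ ∫ x, |(h * C.Γ B S : M →ₘ[m] ℝ) x| ∂m := by
            have := norm_integral_le_integral_norm (μ := m) (f := ⇑(h * C.Γ B S : M →ₘ[m] ℝ))
            simpa [I, Real.norm_eq_abs] using this
      _ ≤ ∫ x, K * |C.Γ B S x| ∂m := by
            refine integral_mono_ae (int_of_mem m1).abs ((int_of_mem mBS).abs.const_mul _) ?_
            filter_upwards [mul_ae h (C.Γ B S), hhK] with x b1 b2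
            rw [b1, abs_mul]
            exact mul_le_mul_of_nonneg_right b2 (abs_nonneg _)
      _ = K * ∫ x, |C.Γ B S x| ∂m := integral_const_mul _ _
      _ ≤ _ := mul_le_mul_of_nonneg_left (hD.int_abs_Γ_le BA.1 SA.1) hK0
    calc a * |I (h * C.Γ B S)| ≤ a * (K * ((√(a⁻¹) * √(I (s' ^ 2))) * (√(a⁻¹) * √(I (s ^ 2))))) := by
          refine mul_le_mul_of_nonneg_left (h1.trans ?_) ha.le
          refine mul_le_mul_of_nonneg_left ?_ hK0
          exact mul_le_mul gB gS (Real.sqrt_nonneg _) (by positivity)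
      _ = a * (√(a⁻¹) * √(a⁻¹)) * (√(I (s ^ 2)) * (K * √(I (s' ^ 2)))) := by ring
      _ = _ := by rw [ha', mul_inv_cancel₀ ha.ne', one_mul]
  -- third term
  have T3 : |I ((B - b) * S * h)| ≤ √(I (s ^ 2)) * (2 * K * √(I (s' ^ 2))) := by
    have hSh : MemLp (S * h : M →ₘ[m] ℝ) 2 m := mem_top_mul (hC.memLp _ SA.1) hhT
    have e : (B - b) * S * h = (B - b) * (S * h) := by ring
    rw [e]
    refine (I_abs_le (mem_sub (hC.memLp _ BA.1) (hC.memLp _ bA.1)) hSh).trans ?_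
    have h1 : √(I ((S * h) ^ 2)) ≤ K * √(I (s ^ 2)) := by
      have h2 : √(I ((S * h) ^ 2)) ≤ √(K ^ 2 * I (S ^ 2)) := by
        refine Real.sqrt_le_sqrt ?_
        rw [← I_smul]
        refine I_mono (mem_sq hSh) (mem_smul _ (mem_sq (hC.memLp _ SA.1))) ?_
        rw [le_iff_ae]
        filter_upwards [sq_ae (S * h), mul_ae S h, smul_ae (S ^ 2) (K ^ 2), sq_ae S, hhK]
          with x c1 c2 c3 c4 c5
        rw [c1, c2, c3, c4, mul_pow, mul_comm]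
        refine mul_le_mul_of_nonneg_right ?_ (sq_nonneg _)
        rw [← sq_abs]
        exact pow_le_pow_left₀ (abs_nonneg _) c5 2
      refine h2.trans ?_
      rw [Real.sqrt_mul (sq_nonneg K), Real.sqrt_sq hK0]
      exact mul_le_mul_of_nonneg_left gS2 hK0
    calc √(I ((B - b) ^ 2)) * √(I ((S * h) ^ 2)) ≤ (2 * √(I (s' ^ 2))) * (K * √(I (s ^ 2))) :=
          mul_le_mul gBb h1 (Real.sqrt_nonneg _) (by positivity)
      _ = _ := by ring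
  have hfin : |-(a * X) - a * I (h * C.Γ B S) - I ((B - b) * S * h)|
      ≤ |-(a * X)| + |a * I (h * C.Γ B S)| + |I ((B - b) * S * h)| := by
    have q1 := abs_sub (-(a * X) - a * I (h * C.Γ B S)) (I ((B - b) * S * h))
    have q2 := abs_sub (-(a * X)) (a * I (h * C.Γ B S))
    linarith
  refine hfin.trans ?_
  calc _ ≤ √(I (s ^ 2)) * (4 * H * R) + √(I (s ^ 2)) * (K * √(I (s' ^ 2)))
        + √(I (s ^ 2)) * (2 * K * √(I (s' ^ 2))) := add_le_add (add_le_add T1 T2) T3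
    _ = _ := by ring

end IsGamma

namespace IsDir

variable (hC : IsDir C)
variable {f g h k s s' u v w b η S B : M →ₘ[m] ℝ} {a : ℝ}

include hC

/-- the commutator is additive in its first argument -/
theorem Cm_sub_left (ha : 0 < a) (hη : η ∈ C.W) (hη' : MemLp (C.Γ η η) ∞ m)
    (hs : MemLp s 2 m) (hu : MemLp u 2 m) (hs' : MemLp s' 2 m) :
    C.Cm η a s s' = C.Cm η a (s - u) s' + C.Cm η a u s' := by
  have bW := hC.J_mem ha hs'
  have BW := hC.J_mem ha (hC.memLp _ bW)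
  have gb : MemLp (C.Γ (C.J a s') η) 2 m := by
    rw [hC.symm _ bW _ hη]; exact hC.Γ_mem2 hη hη' bW
  have gB : MemLp (C.Γ (C.J a (C.J a s')) η) 2 m := by
    rw [hC.symm _ BW _ hη]; exact hC.Γ_mem2 hη hη' BW
  unfold Calc.Cm
  rw [hC.J_sub ha hs hu, mul_sub, mul_sub, I_sub (mem_mul_22 gB hs) (mem_mul_22 gB hu),
    I_sub (mem_mul_22 gb (hC.J_mem2 ha hs)) (mem_mul_22 gb (hC.J_mem2 ha hu))]
  ring

theorem mul_bdd_sq_le {l : M →ₘ[m] ℝ} (hf : MemLp f 2 m) {K : ℝ} (hl : ∀ᵐ x ∂m, |l x| ≤ K) :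
    I ((f * l) ^ 2) ≤ K ^ 2 * I (f ^ 2) := by
  have hlT : MemLp l ∞ m := mem_top_iff.2 ⟨K, hl⟩
  rw [← I_smul]
  refine I_mono (mem_sq (mem_top_mul hf hlT)) (mem_smul _ (mem_sq hf)) ?_
  rw [le_iff_ae]
  filter_upwards [sq_ae (f * l), mul_ae f l, smul_ae (f ^ 2) (K ^ 2), sq_ae f, hl]
    with x c1 c2 c3 c4 c5
  rw [c1, c2, c3, c4, mul_pow, mul_comm]
  refine mul_le_mul_of_nonneg_right ?_ (sq_nonneg _)
  rw [← sq_abs]
  exact pow_le_pow_left₀ (abs_nonneg _) c5 2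

theorem J2_tendsto_L2 (hf : MemLp f 2 m) :
    Tendsto (fun n : ℕ => I ((C.J ((n : ℝ) + 1)⁻¹ (C.J ((n : ℝ) + 1)⁻¹ f) - f) ^ 2))
      atTop (𝓝 0) := by
  have h1 := (hC.J_tendsto_L2 hf).const_mul 4
  rw [mul_zero] at h1
  refine squeeze_zero (fun n => I_sq_nonneg _) (fun n => ?_) h1
  have hl : (0 : ℝ) < ((n : ℝ) + 1)⁻¹ := by positivity
  have hJ := hC.J_mem2 hl hf
  have e : C.J ((n : ℝ) + 1)⁻¹ (C.J ((n : ℝ) + 1)⁻¹ f) - f
      = C.J ((n : ℝ) + 1)⁻¹ (C.J ((n : ℝ) + 1)⁻¹ f - f) + (C.J ((n : ℝ) + 1)⁻¹ f - f) := by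
    rw [hC.J_sub hl hJ hf]; abel
  rw [e]
  have h2 := I_sq_add_le (hC.J_mem2 hl (mem_sub hJ hf)) (mem_sub hJ hf)
  have h3 := hC.J_sq_le hl (mem_sub hJ hf)
  linarith

/-- the commutator with a bounded Sobolev function in the first slot tends to `0` -/
theorem Cm_tendsto_of_A (hη : C.IsLap η h) {K : ℝ} (hK0 : 0 ≤ K)
    (hηK : ∀ᵐ x ∂m, C.Γ η η x ≤ K) (hhK : ∀ᵐ x ∂m, |h x| ≤ K) (hu : u ∈ C.A)
    (hs : MemLp s 2 m) (hsT : MemLp s ∞ m) :
    Tendsto (fun n : ℕ => C.Cm η ((n : ℝ) + 1)⁻¹ u s) atTop (𝓝 0) := by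
  have hη' := hC.Γ_top_of_le hη.1 hηK
  have hhT : MemLp h ∞ m := mem_top_iff.2 ⟨K, hhK⟩
  have hηL : ∀ᵐ x ∂m, C.Γ η η x ≤ (√K) ^ 2 := by rw [Real.sq_sqrt hK0]; exact hηK
  have u2 := hC.memLp _ hu.1
  have hl : ∀ n : ℕ, (0 : ℝ) < ((n : ℝ) + 1)⁻¹ := fun n => by positivity
  have e : ∀ n : ℕ, C.Cm η ((n : ℝ) + 1)⁻¹ u s
      = (-I (C.J ((n : ℝ) + 1)⁻¹ (C.J ((n : ℝ) + 1)⁻¹ s) * C.Γ η u)
          - I (C.J ((n : ℝ) + 1)⁻¹ (C.J ((n : ℝ) + 1)⁻¹ s) * (u * h)))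
        - (-I (C.J ((n : ℝ) + 1)⁻¹ s * C.Γ η (C.J ((n : ℝ) + 1)⁻¹ u))
          - I (C.J ((n : ℝ) + 1)⁻¹ s * (C.J ((n : ℝ) + 1)⁻¹ u * h))) := by
    intro n
    have bA : C.J ((n : ℝ) + 1)⁻¹ s ∈ C.A := hC.U_J_A (hl n) hs hsT
    have BA := hC.U_J_A (hl n) (hC.memLp _ bA.1) bA.2
    have uA := hC.U_J_A (hl n) u2 hu.2
    unfold Calc.Cm
    rw [hC.U_ibp hη BA hu, hC.U_ibp hη bA uA, hC.symm _ hu.1 _ hη.1, hC.symm _ uA.1 _ hη.1,
      mul_assoc, mul_assoc]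
  simp only [e]
  have J1 := hC.J_tendsto_L2 hs
  have J2 := hC.J2_tendsto_L2 hs
  have m1 : ∀ n : ℕ, MemLp (C.J ((n : ℝ) + 1)⁻¹ s) 2 m := fun n => hC.J_mem2 (hl n) hs
  have m2 : ∀ n : ℕ, MemLp (C.J ((n : ℝ) + 1)⁻¹ (C.J ((n : ℝ) + 1)⁻¹ s)) 2 m :=
    fun n => hC.J_mem2 (hl n) (m1 n)
  have c0 : ∀ {g : M →ₘ[m] ℝ}, Tendsto (fun _ : ℕ => I ((g - g) ^ 2)) atTop (𝓝 0) := by
    intro g
    have : (g - g) ^ 2 = 0 := by ring
    rw [this, I_zero]; exact tendsto_const_nhds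
  have gu : MemLp (C.Γ η u) 2 m := hC.Γ_mem2 hη.1 hη' hu.1
  have uh : MemLp (u * h : M →ₘ[m] ℝ) 2 m := mem_top_mul u2 hhT
  have t1 := I_mul_tendsto m2 hs (fun _ => gu) gu J2 c0
  have t2 := I_mul_tendsto m2 hs (fun _ => uh) uh J2 c0
  have uW : ∀ n : ℕ, C.J ((n : ℝ) + 1)⁻¹ u ∈ C.W := fun n => hC.J_mem (hl n) u2
  have g3 := hC.Γ_tendsto_L2 hη.1 hηL uW hu.1 (hC.J_tendsto_W hu.1)
  have t3 := I_mul_tendsto m1 hs (fun n => hC.Γ_mem2 hη.1 hη' (uW n)) gu J1 g3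
  have g4 : Tendsto (fun n : ℕ => I ((C.J ((n : ℝ) + 1)⁻¹ u * h - u * h) ^ 2)) atTop (𝓝 0) := by
    have h1 := (hC.J_tendsto_L2 u2).const_mul (K ^ 2)
    rw [mul_zero] at h1
    refine squeeze_zero (fun n => I_sq_nonneg _) (fun n => ?_) h1
    rw [← sub_mul]
    exact hC.mul_bdd_sq_le (mem_sub (hC.memLp _ (uW n)) u2) hhK
  have t4 := I_mul_tendsto m1 hs (fun n => mem_top_mul (hC.memLp _ (uW n)) hhT) uh J1 g4
  have := ((t1.neg).sub t2).sub ((t3.neg).sub t4)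
  rwa [sub_self] at this

/-- the good term: `I(Γ(f, η) f) = -½ I(h f²)` -/
theorem I_Γ_self (hη : C.IsLap η h) (hf : f ∈ C.A) :
    I (C.Γ f η * f) = -(2⁻¹ * I (h * f ^ 2)) := by
  have h1 := hC.U_ibp hη hf hf
  have e1 : f * C.Γ f η = C.Γ f η * f := by ring
  have e2 : f * f * h = h * f ^ 2 := by ring
  rw [e1, e2] at h1
  linarith

end IsDir

namespace IsGamma

variable (hC : IsGamma C) {κ : ℝ} (hB : C.BEi κ)
variable {f g h k s s' u v w b η S B : M →ₘ[m] ℝ} {a : ℝ}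

include hC hB

/-- **U1 (ii)** the commutator tends to `0` -/
theorem Cm_tendsto [SigmaFinite m] (hη : C.IsLap η h) {K : ℝ} (hK0 : 0 ≤ K)
    (hηK : ∀ᵐ x ∂m, C.Γ η η x ≤ K) (hhK : ∀ᵐ x ∂m, |h x| ≤ K)
    (hs : MemLp s 2 m) (hsT : MemLp s ∞ m) :
    Tendsto (fun n : ℕ => C.Cm η ((n : ℝ) + 1)⁻¹ s s) atTop (𝓝 0) := by
  have hD := hC.toIsDir
  have hη' := hD.Γ_top_of_le hη.1 hηK
  obtain ⟨R0, hR0⟩ := mem_top_iff.1 hsT
  have hR : ∀ᵐ x ∂m, |s x| ≤ |R0| := hR0.mono fun x hx => hx.trans (le_abs_self _)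
  obtain ⟨U, hU, hU1, -, hU2⟩ := hC.test_dense_bdd hB hs hR
  set c : ℝ := 4 * √(I (h ^ 2) - κ * I (C.Γ η η)) * |R0| + 3 * K * √(I (s ^ 2)) with hc
  have hc0 : 0 ≤ c := by positivity
  rw [Metric.tendsto_atTop]
  intro ε hε
  have h1 : Tendsto (fun j => √(I ((U j - s) ^ 2)) * c) atTop (𝓝 0) := by
    simpa using (hU2.sqrt).mul_const c
  obtain ⟨j, hj⟩ := (h1.eventually (gt_mem_nhds (show (0 : ℝ) < ε / 2 by positivity))).exists
  have UA := hC.test_A (hU j)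
  have U2 := hC.memLp _ UA.1
  have h2 := hD.Cm_tendsto_of_A hη hK0 hηK hhK UA hs hsT
  obtain ⟨N1, hN1⟩ := (Metric.tendsto_atTop.1 h2) (ε / 2) (by positivity)
  have h3 : Tendsto (fun n : ℕ => 4 * |κ| * ((n : ℝ) + 1)⁻¹) atTop (𝓝 0) := by
    simpa using tendsto_inv_succ.const_mul (4 * |κ|)
  obtain ⟨N2, hN2⟩ := eventually_atTop.1 (h3.eventually (gt_mem_nhds (show (0 : ℝ) < 1 by norm_num)))
  refine ⟨max N1 N2, fun n hn => ?_⟩
  have hl : (0 : ℝ) < ((n : ℝ) + 1)⁻¹ := by positivity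
  have q1 := hN1 n ((le_max_left _ _).trans hn)
  have q2 := (hN2 n ((le_max_right _ _).trans hn)).le
  rw [Real.dist_eq, sub_zero] at q1 ⊢
  rw [hD.Cm_sub_left hl hη.1 hη' hs U2 hs]
  have q3 := hC.Cm_le hB hl q2 hη hηK hhK hK0 (mem_sub hs U2) (mem_sub hsT UA.2) hs hR (abs_nonneg _)
  have e : (s - U j) ^ 2 = (U j - s) ^ 2 := by ring
  rw [e] at q3
  have q4 := abs_add_le (C.Cm η ((n : ℝ) + 1)⁻¹ (s - U j) s) (C.Cm η ((n : ℝ) + 1)⁻¹ (U j) s)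
  linarith

/-- **Static part of LEMMA U**: the almost-dissipation identity of the regularised energy. -/
theorem U_static [SigmaFinite m] (hη : C.IsLap η h) {K R : ℝ} (hK0 : 0 ≤ K)
    (hηK : ∀ᵐ x ∂m, C.Γ η η x ≤ K) (hhK : ∀ᵐ x ∂m, |h x| ≤ K)
    (hs : MemLp s 2 m) (hR : ∀ᵐ x ∂m, |s x| ≤ R) (hR0 : 0 ≤ R) :
    (∀ a : ℝ, 0 < a → 4 * |κ| * a ≤ 1 →
      |I (C.Γ (C.J a (C.J a s)) η * s) + 2⁻¹ * I (h * C.J a s ^ 2)| ≤
        √(I (s ^ 2)) * (4 * √(I (h ^ 2) - κ * I (C.Γ η η)) * R + 3 * K * √(I (s ^ 2)))) ∧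
    Tendsto (fun n : ℕ => I (C.Γ (C.J ((n : ℝ) + 1)⁻¹ (C.J ((n : ℝ) + 1)⁻¹ s)) η * s)
      + 2⁻¹ * I (h * C.J ((n : ℝ) + 1)⁻¹ s ^ 2)) atTop (𝓝 0) := by
  have hD := hC.toIsDir
  have hsT : MemLp s ∞ m := mem_top_iff.2 ⟨R, hR⟩
  have e : ∀ a : ℝ, 0 < a → I (C.Γ (C.J a (C.J a s)) η * s) + 2⁻¹ * I (h * C.J a s ^ 2)
      = C.Cm η a s s := by
    intro a ha
    have := hD.I_Γ_self hη (hD.U_J_A ha hs hsT)
    unfold Calc.Cm
    rw [this]; ring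
  refine ⟨fun a ha ha4 => ?_, ?_⟩
  · rw [e a ha]
    exact hC.Cm_le hB ha ha4 hη hηK hhK hK0 hs hsT hs hR hR0
  · have h1 := hC.Cm_tendsto hB hη hK0 hηK hhK hs hsT
    refine h1.congr fun n => (e _ (by positivity)).symm

end IsGamma

end Vale.Agent.P233
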