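import Vale.Agent.P233.U.Det
import Vale.Agent.P233.U.Static

set_option linter.all false

open MeasureTheory Filter Topology Set
open scoped ENNReal NNReal

namespace Vale.Agent.P233

variable {M : Type*} [MeasurableSpace M] {m : Measure M} {C : Calc m}

theorem Calc.Comm_eq_Cm (C : Calc m) (a : ℝ) (η s : M →ₘ[m] ℝ) : C.Comm a η s = C.Cm η a s s := rfl

/-- boundedness and smallness of the commutators from the static estimates -/
theorem IsGamma.commOK (hC : IsGamma C) {κ : ℝ} (hB : C.BEi κ) [SigmaFinite m] {a b K : ℝ}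
    (hK0 : 0 ≤ K) {η h : ℝ → M →ₘ[m] ℝ} (hη : ∀ t ∈ Icc a b, C.IsLap (η t) (h t))
    (hηK : ∀ t ∈ Icc a b, ∀ᵐ x ∂m, C.Γ (η t) (η t) x ≤ K)
    (hhK : ∀ t ∈ Icc a b, ∀ᵐ x ∂m, |h t x| ≤ K)
    (hh2 : ∀ t ∈ Icc a b, I (h t ^ 2) ≤ K) (hE : ∀ t ∈ Icc a b, I (C.Γ (η t) (η t)) ≤ K) :
    C.CommOK a b η := by
  intro B
  refine ⟨|B| * (4 * √(K + |κ| * K) * |B| + 3 * K * |B|), ⌈4 * |κ|⌉₊, fun t ht f hf hfB hf2 => ?_⟩
  have hfT : MemLp f ∞ m := mem_top_iff.2 ⟨B, hfB⟩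
  have hfB' : ∀ᵐ x ∂m, |f x| ≤ |B| := hfB.mono fun x hx => hx.trans (le_abs_self _)
  have hf2' : √(I (f ^ 2)) ≤ |B| := by
    rw [← Real.sqrt_sq_eq_abs]; exact Real.sqrt_le_sqrt hf2
  refine ⟨fun n hn => ?_, hC.Cm_tendsto hB (hη t ht) hK0 (hηK t ht) (hhK t ht) hf hfT⟩
  have hl : (0 : ℝ) < ((n : ℝ) + 1)⁻¹ := by positivity
  have h4 : 4 * |κ| * ((n : ℝ) + 1)⁻¹ ≤ 1 := by
    rw [← div_eq_mul_inv, div_le_one (by positivity)]
    have h5 : 4 * |κ| ≤ n := (Nat.le_ceil _).trans (by exact_mod_cast hn)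
    linarith
  have h1 := hC.Cm_le hB hl h4 (hη t ht) (hηK t ht) (hhK t ht) hK0 hf hfT hf hfB' (abs_nonneg _)
  refine h1.trans ?_
  have h2 : √(I (h t ^ 2) - κ * I (C.Γ (η t) (η t))) ≤ √(K + |κ| * K) := by
    refine Real.sqrt_le_sqrt ?_
    have h3 := hE t ht
    have h5 := hh2 t ht
    have h6 := hC.toIsDir.E_nonneg (hη t ht).1
    have h7 : -(κ * I (C.Γ (η t) (η t))) ≤ |κ| * I (C.Γ (η t) (η t)) := by
      have := neg_abs_le κ
      nlinarith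
    have h8 : |κ| * I (C.Γ (η t) (η t)) ≤ |κ| * K := mul_le_mul_of_nonneg_left h3 (abs_nonneg _)
    linarith
  gcongr

end Vale.Agent.P233
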