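import Vale.Agent.P233.Bd3.B1

/-!
# The Hessian bound of the commutator lemma (Lemma U)

`hess_three`: the three-term identity for the Hessian of a test function.
`dense_graph`: test functions are dense in `D(Δ)` for the graph norm.
`hess_bound`: for `e, S ∈ D(Δ)` and `B ∈ TestI` with `|∇B| ≤ L`,
`|∫ ⟨∇e,∇S⟩ ΔB + ∫ ⟨∇e,∇B⟩ ΔS - ∫ Δe ⟨∇B,∇S⟩|² ≤ 4 L² (∫ (Δe)² - κ ∫ |∇e|²) ∫ |∇S|²`.
-/

set_option linter.all false

section

open MeasureTheory Filter Topology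
open scoped ENNReal NNReal

namespace Vale.Agent.P233

variable {M : Type*} [MeasurableSpace M] {m : Measure M} {C : Calc m}

/-- the three-term form `∫ ⟨∇e,∇s⟩ Δb + ∫ ⟨∇e,∇b⟩ Δs - ∫ Δe ⟨∇b,∇s⟩`,
with `h = Δe`, `T = Δs`. -/
noncomputable def Calc.TT (C : Calc m) (b e h s T : M →ₘ[m] ℝ) : ℝ :=
  I (C.lap b * C.Γ e s) + I (T * C.Γ e b) - I (h * C.Γ b s)

/-- convergence of squares -/
theorem I_sq_tendsto {u : ℕ → M →ₘ[m] ℝ} {f : M →ₘ[m] ℝ} (hu : ∀ n, MemLp (u n) 2 m)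
    (hf : MemLp f 2 m) (h : Tendsto (fun n => I ((u n - f) ^ 2)) atTop (𝓝 0)) :
    Tendsto (fun n => I (u n ^ 2)) atTop (𝓝 (I (f ^ 2))) := by
  have h1 : ∀ n, I (u n ^ 2) = I ((u n - f) ^ 2) + 2 * I ((u n - f) * f) + I (f ^ 2) := by
    intro n
    have hs := mem_sub (hu n) hf
    have e1 : u n ^ 2 = (u n - f) ^ 2 + (2 : ℝ) • ((u n - f) * f) + f ^ 2 := by algebra
    rw [e1, I_add (mem_add (mem_sq hs) (mem_smul _ (mem_mul_22 hs hf))) (mem_sq hf),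
      I_add (mem_sq hs) (mem_smul _ (mem_mul_22 hs hf)), I_smul]
  have h2 : Tendsto (fun n => I ((u n - f) * f)) atTop (𝓝 0) := by
    have h3 : Tendsto (fun n => Real.sqrt (I ((u n - f) ^ 2)) * Real.sqrt (I (f ^ 2)))
        atTop (𝓝 0) := by
      have := (h.sqrt).mul_const (Real.sqrt (I (f ^ 2)))
      simpa using this
    exact squeeze_zero_norm (fun n => by
      rw [Real.norm_eq_abs]; exact I_abs_le (mem_sub (hu n) hf) hf) h3
  simp only [h1]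
  have := (h.add (h2.const_mul 2)).add_const (I (f ^ 2))
  simpa using this

/-- pairing with a fixed function of `L²` -/
theorem I_mul_tendsto {u : ℕ → M →ₘ[m] ℝ} {f g : M →ₘ[m] ℝ} (hu : ∀ n, MemLp (u n) 2 m)
    (hf : MemLp f 2 m) (hg : MemLp g 2 m)
    (h : Tendsto (fun n => I ((u n - f) ^ 2)) atTop (𝓝 0)) :
    Tendsto (fun n => I (u n * g)) atTop (𝓝 (I (f * g))) := by
  have h1 : ∀ n, I (u n * g) = I ((u n - f) * g) + I (f * g) := by
    intro n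
    have hs := mem_sub (hu n) hf
    rw [← I_add (mem_mul_22 hs hg) (mem_mul_22 hf hg)]
    congr 1; ring
  have h2 : Tendsto (fun n => I ((u n - f) * g)) atTop (𝓝 0) := by
    have h3 : Tendsto (fun n => Real.sqrt (I ((u n - f) ^ 2)) * Real.sqrt (I (g ^ 2)))
        atTop (𝓝 0) := by
      have := (h.sqrt).mul_const (Real.sqrt (I (g ^ 2)))
      simpa using this
    exact squeeze_zero_norm (fun n => by
      rw [Real.norm_eq_abs]; exact I_abs_le (mem_sub (hu n) hf) hg) h3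
  simp only [h1]
  simpa using h2.add_const (I (f * g))

namespace IsDir

variable (hC : IsDir C)
include hC

/-- `∫ Γ(u n) → ∫ Γ(f)` when `u n → f` in `W` -/
theorem E_tendsto {u : ℕ → M →ₘ[m] ℝ} {f : M →ₘ[m] ℝ} (hu : ∀ n, u n ∈ C.W) (hf : f ∈ C.W)
    (h : Tendsto (fun n => C.nrm2 (u n - f)) atTop (𝓝 0)) :
    Tendsto (fun n => I (C.Γ (u n) (u n))) atTop (𝓝 (I (C.Γ f f))) := by
  have h0 := hC.tendsto_E_of_nrm2 hu hf h
  have h1 : ∀ n, I (C.Γ (u n) (u n)) = I (C.Γ (u n - f) (u n - f))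
      + 2 * I (C.Γ (u n - f) f) + I (C.Γ f f) := by
    intro n
    have := hC.E_add (hC.sub_mem (hu n) hf) hf
    rwa [sub_add_cancel] at this
  have h2 : Tendsto (fun n => I (C.Γ (u n - f) f)) atTop (𝓝 0) := by
    have h3 : Tendsto (fun n => Real.sqrt (I (C.Γ (u n - f) (u n - f))) * Real.sqrt (I (C.Γ f f)))
        atTop (𝓝 0) := by
      have := (h0.sqrt).mul_const (Real.sqrt (I (C.Γ f f)))
      simpa using this
    exact squeeze_zero_norm (fun n => by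
      rw [Real.norm_eq_abs]; exact hC.E_abs_le (hC.sub_mem (hu n) hf) hf) h3
  simp only [h1]
  have := (h0.add (h2.const_mul 2)).add_const (I (C.Γ f f))
  simpa using this

/-- `|∫ a Γ f g| ≤ K √E(f) √E(g)` if `|a| ≤ K` -/
theorem I_top_Γ_le {a f g : M →ₘ[m] ℝ} {K : ℝ} (hK0 : 0 ≤ K) (ha : ∀ᵐ x ∂m, |a x| ≤ K)
    (hf : f ∈ C.W) (hg : g ∈ C.W) :
    |I (a * C.Γ f g)| ≤ K * (Real.sqrt (I (C.Γ f f)) * Real.sqrt (I (C.Γ g g))) := by
  have hat : MemLp a ∞ m := mem_top_iff.2 ⟨K, ha⟩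
  have h1 : |I (a * C.Γ f g)| ≤ K * ∫ x, |C.Γ f g x| ∂m := by
    rw [← integral_const_mul]
    unfold I
    refine abs_integral_le_integral_abs.trans ?_
    refine integral_mono_ae (int_of_mem (mem_mul_top hat (hC.Γ_mem1 hf hg))).abs
      ((int_of_mem (hC.Γ_mem1 hf hg)).abs.const_mul K) ?_
    filter_upwards [mul_ae a (C.Γ f g), ha] with x b1 b2
    rw [b1, abs_mul]
    exact mul_le_mul_of_nonneg_right b2 (abs_nonneg _)
  exact h1.trans (mul_le_mul_of_nonneg_left (hC.int_abs_Γ_le hf hg) hK0)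

/-- `∫ (Γ f b)² ≤ L² E(f)` if `Γ b b ≤ L²` -/
theorem I_sq_Γ_le {f b : M →ₘ[m] ℝ} {L : ℝ} (hL0 : 0 ≤ L) (hf : f ∈ C.W) (hb : b ∈ C.W)
    (hL : ∀ᵐ x ∂m, C.Γ b b x ≤ L ^ 2) :
    MemLp (C.Γ f b) 2 m ∧ I (C.Γ f b ^ 2) ≤ L ^ 2 * I (C.Γ f f) := by
  have hbt : MemLp (C.Γ b b) ∞ m := mem_top_iff.2 ⟨L ^ 2, by
    filter_upwards [hL, hC.Γ_nonneg_ae hb] with x b1 b2
    rwa [abs_of_nonneg b2]⟩
  have h1 : MemLp (C.Γ f b) 2 m := by
    rw [hC.symm _ hf _ hb]; exact hC.Γ_mem2 hb hbt hf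
  refine ⟨h1, ?_⟩
  rw [← I_smul]
  refine I_mono (mem_sq h1) (mem_smul _ (hC.mem1 _ hf)) ?_
  rw [le_iff_ae]
  filter_upwards [sq_ae (C.Γ f b), smul_ae (C.Γ f f) (L ^ 2), hC.Γ_cs_ae hf hb, hL,
    hC.Γ_nonneg_ae hf] with x b1 b2 b3 b4 b5
  rw [b1, b2]
  calc C.Γ f b x ^ 2 ≤ C.Γ f f x * C.Γ b b x := b3
    _ ≤ C.Γ f f x * L ^ 2 := mul_le_mul_of_nonneg_left b4 b5
    _ = L ^ 2 * C.Γ f f x := by ring

/-- the bound of the three-term form by the graph norms -/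
theorem TT_le {b e h s T : M →ₘ[m] ℝ} {K L : ℝ} (hK0 : 0 ≤ K) (hL0 : 0 ≤ L)
    (hb : b ∈ C.W) (hK : ∀ᵐ x ∂m, |C.lap b x| ≤ K) (hL : ∀ᵐ x ∂m, C.Γ b b x ≤ L ^ 2)
    (he : e ∈ C.W) (hh : MemLp h 2 m) (hs : s ∈ C.W) (hT : MemLp T 2 m) :
    |C.TT b e h s T| ≤ K * (√(I (C.Γ e e)) * √(I (C.Γ s s)))
      + √(I (T ^ 2)) * (L * √(I (C.Γ e e))) + √(I (h ^ 2)) * (L * √(I (C.Γ s s))) := by
  obtain ⟨m1, n1⟩ := hC.I_sq_Γ_le hL0 he hb hL
  obtain ⟨m2, n2⟩ := hC.I_sq_Γ_le hL0 hs hb hL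
  have a1 := hC.I_top_Γ_le hK0 hK he hs
  have a2 := I_abs_le hT m1
  have a3 := I_abs_le hh m2
  have r1 : √(I (C.Γ e b ^ 2)) ≤ L * √(I (C.Γ e e)) := by
    have := Real.sqrt_le_sqrt n1
    rwa [Real.sqrt_mul (sq_nonneg L), Real.sqrt_sq hL0] at this
  have r2 : √(I (C.Γ s b ^ 2)) ≤ L * √(I (C.Γ s s)) := by
    have := Real.sqrt_le_sqrt n2
    rwa [Real.sqrt_mul (sq_nonneg L), Real.sqrt_sq hL0] at this
  have a2' := a2.trans (mul_le_mul_of_nonneg_left r1 (Real.sqrt_nonneg _))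
  have a3' := a3.trans (mul_le_mul_of_nonneg_left r2 (Real.sqrt_nonneg _))
  unfold Calc.TT
  rw [hC.symm _ hb _ hs]
  rw [abs_le] at a1 a2' a3' ⊢
  constructor <;> linarith [a1.1, a1.2, a2'.1, a2'.2, a3'.1, a3'.2]

/-- additivity in `(e,h)` -/
theorem TT_sub_left {b e h s T e' h' : M →ₘ[m] ℝ} (hb : b ∈ C.W) (hbt : MemLp (C.Γ b b) ∞ m)
    (hlb : MemLp (C.lap b) ∞ m)
    (he : e ∈ C.W) (hh : MemLp h 2 m) (he' : e' ∈ C.W) (hh' : MemLp h' 2 m)
    (hs : s ∈ C.W) (hT : MemLp T 2 m) :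
    C.TT b e h s T - C.TT b e' h' s T = C.TT b (e - e') (h - h') s T := by
  have m1 : MemLp (C.Γ e b) 2 m := by rw [hC.symm _ he _ hb]; exact hC.Γ_mem2 hb hbt he
  have m2 : MemLp (C.Γ e' b) 2 m := by rw [hC.symm _ he' _ hb]; exact hC.Γ_mem2 hb hbt he'
  have m3 : MemLp (C.Γ b s) 2 m := hC.Γ_mem2 hb hbt hs
  unfold Calc.TT
  rw [hC.Γ_sub_left he he' hs, hC.Γ_sub_left he he' hb, mul_sub, mul_sub, sub_mul,
    I_sub (mem_mul_top hlb (hC.Γ_mem1 he hs)) (mem_mul_top hlb (hC.Γ_mem1 he' hs)),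
    I_sub (mem_mul_22 hT m1) (mem_mul_22 hT m2), I_sub (mem_mul_22 hh m3) (mem_mul_22 hh' m3)]
  ring

/-- additivity in `(s,T)` -/
theorem TT_sub_right {b e h s T s' T' : M →ₘ[m] ℝ} (hb : b ∈ C.W) (hbt : MemLp (C.Γ b b) ∞ m)
    (hlb : MemLp (C.lap b) ∞ m)
    (he : e ∈ C.W) (hh : MemLp h 2 m) (hs' : s' ∈ C.W) (hT' : MemLp T' 2 m)
    (hs : s ∈ C.W) (hT : MemLp T 2 m) :
    C.TT b e h s T - C.TT b e h s' T' = C.TT b e h (s - s') (T - T') := by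
  have m1 : MemLp (C.Γ e b) 2 m := by rw [hC.symm _ he _ hb]; exact hC.Γ_mem2 hb hbt he
  have m2 : MemLp (C.Γ b s') 2 m := hC.Γ_mem2 hb hbt hs'
  have m3 : MemLp (C.Γ b s) 2 m := hC.Γ_mem2 hb hbt hs
  unfold Calc.TT
  rw [hC.Γ_sub_right he hs hs', hC.Γ_sub_right hb hs hs', mul_sub, sub_mul, mul_sub,
    I_sub (mem_mul_top hlb (hC.Γ_mem1 he hs)) (mem_mul_top hlb (hC.Γ_mem1 he hs')),
    I_sub (mem_mul_22 hT m1) (mem_mul_22 hT' m1), I_sub (mem_mul_22 hh m3) (mem_mul_22 hh m2)]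
  ring

end IsDir

namespace IsGamma

variable (hC : IsGamma C) {κ : ℝ} (hB : C.BEi κ)
variable {e b s h T : M →ₘ[m] ℝ}

include hC hB

/-- the three-term identity -/
theorem hess_three (he : e ∈ C.Test) (hb : b ∈ C.Test) (hs : s ∈ C.Test) :
    I (C.KK e b s) = -C.TT b e (C.lap e) s (C.lap s) := by
  have hD := hC.toIsDir
  have eW := (hC.test_A he).1
  have bW := (hC.test_A hb).1
  have sW := (hC.test_A hs).1
  have g1 := (hC.Γ_mem hB he hs).1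
  have g2 := (hC.Γ_mem hB he hb).1
  have g3 := (hC.Γ_mem hB hb hs).1
  have i1 : I (C.Γ b (C.Γ e s)) = -I (C.lap b * C.Γ e s) := (hC.test_isLap hb).2.2 _ g1
  have i2 : I (C.Γ s (C.Γ e b)) = -I (C.lap s * C.Γ e b) := (hC.test_isLap hs).2.2 _ g2
  have i3 : I (C.Γ e (C.Γ b s)) = -I (C.lap e * C.Γ b s) := (hC.test_isLap he).2.2 _ g3
  have e1 : C.KK e b s = C.Γ b (C.Γ e s) + C.Γ s (C.Γ e b) - C.Γ e (C.Γ b s) := by
    unfold Calc.KK Calc.hess
    rw [smul_smul, mul_inv_cancel₀ (two_ne_zero), one_smul]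
  rw [e1, I_sub (mem_add (hD.Γ_mem1 bW g1) (hD.Γ_mem1 sW g2)) (hD.Γ_mem1 eW g3),
    I_add (hD.Γ_mem1 bW g1) (hD.Γ_mem1 sW g2), i1, i2, i3]
  unfold Calc.TT
  ring

/-- the quadratic bound for test functions -/
theorem KK_sq_le [SigmaFinite m] (he : e ∈ C.Test) (hb : b ∈ C.Test) (hs : s ∈ C.Test) :
    I (C.KK e b s) ^ 2 ≤
      (I (C.lap e ^ 2) - κ * I (C.Γ e e)) * (2 * I (C.MM b s b s)) := by
  have hD := hC.toIsDir
  have eA := hC.test_A he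
  have bA := hC.test_A hb
  have sA := hC.test_A hs
  obtain ⟨χ, Λ, hT, h0, hb1, hconv, -⟩ := hC.exists_cut hB
  have hconv' : ∀ᵐ x ∂m, Tendsto (fun k => χ k x) atTop (𝓝 ((1 : M →ₘ[m] ℝ) x)) := by
    filter_upwards [hconv, one_ae (M := M) (m := m)] with x b1 b2
    rw [b2]; exact b1
  have nKK : MemLp (C.KK e b s) 1 m := by
    unfold Calc.KK Calc.hess
    exact mem_smul _ (mem_smul _ (mem_sub (mem_add (hC.Γ_mem1 bA.1 (hC.Γ_mem hB he hs).1)
      (hC.Γ_mem1 sA.1 (hC.Γ_mem hB he hb).1)) (hC.Γ_mem1 eA.1 (hC.Γ_mem hB hb hs).1)))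
  have nMM := hC.MM_mem1 hB hb hs hb hs
  have key : ∀ (t : ℝ) (k : ℕ), 0 ≤ (I (C.lap e ^ 2) - κ * I (C.Γ e e))
      + 2 * (t * I (χ k * C.KK e b s)) + 2 * (t ^ 2 * I (χ k * (χ k * C.MM b s b s))) := by
    intro t k
    have kA := hC.test_A (hT k)
    have h1 := hC.tensor_ineq_one hB (n := 1) he (F := fun _ => b) (H := fun _ => s)
      (s := fun _ => t • χ k) (fun _ => hb) (fun _ => hs) (fun _ => mem_smul _ kA.2)
      (fun _ => mem_smul _ (hC.memLp _ kA.1))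
    simp only [Fin.sum_univ_one] at h1
    have e1 : t • χ k * C.KK e b s = t • (χ k * C.KK e b s) := by algebra
    have e2 : t • χ k * t • χ k * C.MM b s b s = t ^ 2 • (χ k * (χ k * C.MM b s b s)) := by
      algebra
    rw [e1, e2, I_smul, I_smul] at h1
    linarith
  have key2 : ∀ t : ℝ, 0 ≤ (I (C.lap e ^ 2) - κ * I (C.Γ e e))
      + 2 * t * (I (C.KK e b s)) + t ^ 2 * (2 * I (C.MM b s b s)) := by
    intro t
    have t1 : Tendsto (fun k => I (χ k * C.KK e b s)) atTop (𝓝 (I (C.KK e b s))) := by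
      have := I_tendsto_of_bdd hb1 hconv' nKK
      rwa [one_mul] at this
    have t3 : Tendsto (fun k => I (χ k * (χ k * C.MM b s b s))) atTop
        (𝓝 (I (C.MM b s b s))) := by
      have h1 : ∀ k, ∀ᵐ x ∂m, |(χ k * χ k) x| ≤ 1 := by
        intro k
        filter_upwards [mul_ae (χ k) (χ k), hb1 k] with x b1 b2
        rw [b1, abs_mul]
        exact mul_le_one₀ b2 (abs_nonneg _) b2
      have h2 : ∀ᵐ x ∂m, Tendsto (fun k => (χ k * χ k) x) atTop (𝓝 ((1 : M →ₘ[m] ℝ) x)) := by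
        have h3 : ∀ᵐ x ∂m, ∀ k, (χ k * χ k) x = χ k x * χ k x := by
          rw [ae_all_iff]; exact fun k => mul_ae _ _
        filter_upwards [h3, hconv, one_ae (M := M) (m := m)] with x b1 b2 b3
        rw [b3]
        simp only [b1]
        simpa using b2.mul b2
      have := I_tendsto_of_bdd h1 h2 nMM
      rw [one_mul] at this
      refine this.congr fun k => ?_
      rw [mul_assoc]
    have hlim := ((tendsto_const_nhds (x := I (C.lap e ^ 2) - κ * I (C.Γ e e))).add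
      ((t1.const_mul t).const_mul 2)).add ((t3.const_mul (t ^ 2)).const_mul 2)
    have h1 := ge_of_tendsto hlim (Eventually.of_forall (key t))
    linarith
  exact disc_of_forall key2

/-- the Hessian bound for test functions -/
theorem TT_sq_le_test [SigmaFinite m] (he : e ∈ C.Test) (hb : b ∈ C.Test) (hs : s ∈ C.Test)
    {L : ℝ} (hL : ∀ᵐ x ∂m, C.Γ b b x ≤ L ^ 2) :
    C.TT b e (C.lap e) s (C.lap s) ^ 2 ≤
      4 * L ^ 2 * (I (C.lap e ^ 2) - κ * I (C.Γ e e)) * I (C.Γ s s) := by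
  have hD := hC.toIsDir
  have eA := hC.test_A he
  have bA := hC.test_A hb
  have sA := hC.test_A hs
  have h1 := hC.KK_sq_le hB he hb hs
  have h2 := hC.hess_three hB he hb hs
  have hQ : 0 ≤ I (C.lap e ^ 2) - κ * I (C.Γ e e) := by
    have := hC.tensor_ineq_one hB (n := 0) he (F := Fin.elim0) (H := Fin.elim0) (s := Fin.elim0)
      (fun i => i.elim0) (fun i => i.elim0) (fun i => i.elim0) (fun i => i.elim0)
    simpa using this
  have h3 : I (C.MM b s b s) ≤ 2 * L ^ 2 * I (C.Γ s s) := by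
    rw [← I_smul]
    refine I_mono (hC.MM_mem1 hB hb hs hb hs) (mem_smul _ (hD.mem1 _ sA.1)) ?_
    rw [le_iff_ae]
    have eM : C.MM b s b s = C.Γ b b * C.Γ s s + C.Γ b s * C.Γ s b := rfl
    rw [eM, hD.symm _ sA.1 _ bA.1]
    filter_upwards [add_ae (C.Γ b b * C.Γ s s) (C.Γ b s * C.Γ b s), mul_ae (C.Γ b b) (C.Γ s s),
      mul_ae (C.Γ b s) (C.Γ b s), smul_ae (C.Γ s s) (2 * L ^ 2), hL, hD.Γ_nonneg_ae sA.1,
      hD.Γ_cs_ae bA.1 sA.1] with x c1 c2 c3 c4 c5 c6 c7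
    rw [c1, c2, c3, c4]
    have := mul_le_mul_of_nonneg_right c5 c6
    nlinarith
  rw [h2, neg_sq] at h1
  refine h1.trans ?_
  calc (I (C.lap e ^ 2) - κ * I (C.Γ e e)) * (2 * I (C.MM b s b s))
      ≤ (I (C.lap e ^ 2) - κ * I (C.Γ e e)) * (2 * (2 * L ^ 2 * I (C.Γ s s))) :=
        mul_le_mul_of_nonneg_left (by linarith) hQ
    _ = _ := by ring

/-- test functions are dense in `D(Δ)` for the graph norm -/
theorem dense_graph [SigmaFinite m] (hf : C.IsLap e h) :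
    ∃ u : ℕ → M →ₘ[m] ℝ, (∀ n, u n ∈ C.TestI) ∧
      Tendsto (fun n => C.nrm2 (u n - e)) atTop (𝓝 0) ∧
      Tendsto (fun n => I ((C.lap (u n) - h) ^ 2)) atTop (𝓝 0) := by
  have hD := hC.toIsDir
  obtain ⟨N, hN⟩ := exists_small κ
  obtain ⟨lam, hl, hl2⟩ : ∃ lam : ℝ, 0 < lam ∧ 0 < 1 + 2 * lam * κ :=
    ⟨((N : ℝ) + 1)⁻¹, by positivity, hN N le_rfl⟩
  have he2 := hD.memLp _ hf.1
  set G : M →ₘ[m] ℝ := e - lam • h with hG
  have hG2 : MemLp G 2 m := mem_sub he2 (mem_smul _ hf.2.1)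
  have hJG : C.J lam G = e := by
    refine hD.J_eq hl ⟨hf.1, fun k hk => ?_⟩
    have hk2 := hD.memLp _ hk
    have e1 : I (C.Γ e k) = -I (h * k) := hf.2.2 _ hk
    have e2 : G * k = e * k - lam • (h * k) := by rw [hG]; algebra
    rw [e2, I_sub (mem_mul_22 he2 hk2) (mem_smul _ (mem_mul_22 hf.2.1 hk2)), I_smul, e1]
    ring
  have happ : ∀ n : ℕ, ∃ g ∈ C.Test, I ((g - G) ^ 2) < ((n : ℝ) + 1)⁻¹ := by
    intro n
    have hε : (0 : ℝ) < ((n : ℝ) + 1)⁻¹ / 4 := by positivity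
    obtain ⟨g, hg, hg1⟩ := hD.dense_L2 G hG2 _ hε
    obtain ⟨g', hg', hg1'⟩ := hC.test_dense hB hg hε
    have g'W := (hC.test_A hg').1
    refine ⟨g', hg', ?_⟩
    have h1 := I_sq_add_le (hD.memLp _ (hD.sub_mem g'W hg)) (mem_sub (hD.memLp _ hg) hG2)
    have e1 : g' - g + (g - G) = g' - G := by abel
    have e2 : (g - G) ^ 2 = (G - g) ^ 2 := by ring
    rw [e1, e2] at h1
    have h2 := hD.I_sq_le_nrm2 (hD.sub_mem g'W hg)
    linarith
  choose g hgT hgG using happ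
  have hg2 : ∀ n, MemLp (g n) 2 m := fun n => hD.memLp _ (hC.test_A (hgT n)).1
  have hgl : Tendsto (fun n => I ((g n - G) ^ 2)) atTop (𝓝 0) :=
    squeeze_zero (fun n => I_sq_nonneg _) (fun n => (hgG n).le) tendsto_inv_succ
  have hu : ∀ n, C.J lam (g n) ∈ C.TestI := fun n =>
    hC.testI_J hB hl hl2 (hC.test_A (hgT n)) (hC.test_Γ_top (hgT n))
  have hsub : ∀ n, C.J lam (g n) - e = C.J lam (g n - G) := by
    intro n
    rw [hD.J_sub hl (hg2 n) hG2, hJG]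
  refine ⟨fun n => C.J lam (g n), hu, ?_, ?_⟩
  · refine squeeze_zero (fun n => ?_) (fun n => ?_)
      (g := fun n => (1 + lam⁻¹) * I ((g n - G) ^ 2)) ?_
    · rw [hsub]; exact hD.nrm2_nonneg (hD.J_mem hl (mem_sub (hg2 n) hG2))
    · rw [hsub]
      have h1 := hD.J_contr hl (mem_sub (hg2 n) hG2)
      have h2 := hD.J_sq_le hl (mem_sub (hg2 n) hG2)
      have h3 := I_sq_nonneg (C.J lam (g n - G))
      unfold Calc.nrm2
      have h4 : I (C.Γ (C.J lam (g n - G)) (C.J lam (g n - G))) ≤ lam⁻¹ * I ((g n - G) ^ 2) := by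
        rw [inv_mul_eq_div, le_div_iff₀ hl]
        linarith
      linarith
    · simpa using hgl.const_mul (1 + lam⁻¹)
  · refine squeeze_zero (fun n => I_sq_nonneg _) (fun n => ?_)
      (g := fun n => (lam⁻¹) ^ 2 * (4 * I ((g n - G) ^ 2))) ?_
    · have e1 : C.lap (C.J lam (g n)) = lam⁻¹ • (C.J lam (g n) - g n) :=
        hD.lap_eq (hD.J_isLap hl (hg2 n))
      have e2 : h = lam⁻¹ • (e - G) := by
        rw [hG, sub_sub_cancel, smul_smul, inv_mul_cancel₀ hl.ne', one_smul]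
      have e3 : C.lap (C.J lam (g n)) - h
          = lam⁻¹ • (C.J lam (g n - G) + (-1 : ℝ) • (g n - G)) := by
        rw [e1, ← hsub]
        conv_lhs => rw [e2]
        module
      have hJ2 := hD.J_mem2 hl (mem_sub (hg2 n) hG2)
      have e4 : (C.lap (C.J lam (g n)) - h) ^ 2
          = (lam⁻¹) ^ 2 • (C.J lam (g n - G) + (-1 : ℝ) • (g n - G)) ^ 2 := by
        rw [e3]; algebra
      rw [e4, I_smul]
      refine mul_le_mul_of_nonneg_left ?_ (sq_nonneg _)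
      refine (I_sq_add_le hJ2 (mem_smul _ (mem_sub (hg2 n) hG2))).trans ?_
      have e5 : ((-1 : ℝ) • (g n - G)) ^ 2 = (g n - G) ^ 2 := by algebra
      rw [e5]
      have h2 := hD.J_sq_le hl (mem_sub (hg2 n) hG2)
      linarith
    · have := (hgl.const_mul 4).const_mul ((lam⁻¹) ^ 2)
      rwa [mul_zero, mul_zero] at this

/-- **the Hessian bound**: for `e, s ∈ D(Δ)`, `b ∈ TestI` with `|∇b| ≤ L`. -/
theorem TT_sq_le [SigmaFinite m] (he : C.IsLap e h) (hb : b ∈ C.TestI) (hs : C.IsLap s T)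
    {L : ℝ} (hL0 : 0 ≤ L) (hL : ∀ᵐ x ∂m, C.Γ b b x ≤ L ^ 2) :
    C.TT b e h s T ^ 2 ≤ 4 * L ^ 2 * (I (h ^ 2) - κ * I (C.Γ e e)) * I (C.Γ s s) := by
  have hD := hC.toIsDir
  have bA := hC.test_A hb.1
  have hbt := hC.test_Γ_top hb.1
  obtain ⟨K', hK'⟩ := mem_top_iff.1 hb.2
  have hK : ∀ᵐ x ∂m, |C.lap b x| ≤ |K'| := by
    filter_upwards [hK'] with x hx using hx.trans (le_abs_self _)
  -- first `s` a test function
  have step : ∀ s ∈ C.Test, C.TT b e h s (C.lap s) ^ 2 ≤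
      4 * L ^ 2 * (I (h ^ 2) - κ * I (C.Γ e e)) * I (C.Γ s s) := by
    intro s hs
    have sA := hC.test_A hs
    have sL := hC.test_isLap hs
    obtain ⟨u, hu, hu1, hu2⟩ := hC.dense_graph hB he
    have uW : ∀ n, u n ∈ C.W := fun n => (hC.test_A (hu n).1).1
    have uL : ∀ n, MemLp (C.lap (u n)) 2 m := fun n => (hC.test_isLap (hu n).1).2.1
    have t0 := (hD.tendsto_E_of_nrm2 uW he.1 hu1).sqrt
    rw [Real.sqrt_zero] at t0
    have t1 := hu2.sqrt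
    rw [Real.sqrt_zero] at t1
    have lim1 : Tendsto (fun n => C.TT b (u n) (C.lap (u n)) s (C.lap s)) atTop
        (𝓝 (C.TT b e h s (C.lap s))) := by
      rw [tendsto_iff_norm_sub_tendsto_zero]
      refine squeeze_zero (fun n => norm_nonneg _) (fun n => ?_)
        (g := fun n => |K'| * (√(I (C.Γ (u n - e) (u n - e))) * √(I (C.Γ s s)))
          + √(I (C.lap s ^ 2)) * (L * √(I (C.Γ (u n - e) (u n - e))))
          + √(I ((C.lap (u n) - h) ^ 2)) * (L * √(I (C.Γ s s)))) ?_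
      · rw [Real.norm_eq_abs, hD.TT_sub_left bA.1 hbt hb.2 (uW n) (uL n) he.1 he.2.1 sA.1 sL.2.1]
        exact hD.TT_le (abs_nonneg _) hL0 bA.1 hK hL (hD.sub_mem (uW n) he.1)
          (mem_sub (uL n) he.2.1) sA.1 sL.2.1
      · have := (((t0.mul_const (√(I (C.Γ s s)))).const_mul |K'|).add
          ((t0.const_mul L).const_mul (√(I (C.lap s ^ 2))))).add
          (t1.mul_const (L * √(I (C.Γ s s))))
        simpa using this
    have lim2 := (((I_sq_tendsto uL he.2.1 hu2).sub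
      ((hD.E_tendsto uW he.1 hu1).const_mul κ)).const_mul (4 * L ^ 2)).mul_const (I (C.Γ s s))
    exact le_of_tendsto_of_tendsto' (lim1.pow 2) lim2
      fun n => hC.TT_sq_le_test hB (hu n).1 hb.1 hs hL
  obtain ⟨u, hu, hu1, hu2⟩ := hC.dense_graph hB hs
  have uW : ∀ n, u n ∈ C.W := fun n => (hC.test_A (hu n).1).1
  have uL : ∀ n, MemLp (C.lap (u n)) 2 m := fun n => (hC.test_isLap (hu n).1).2.1
  have t0 := (hD.tendsto_E_of_nrm2 uW hs.1 hu1).sqrt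
  rw [Real.sqrt_zero] at t0
  have t1 := hu2.sqrt
  rw [Real.sqrt_zero] at t1
  have lim1 : Tendsto (fun n => C.TT b e h (u n) (C.lap (u n))) atTop
      (𝓝 (C.TT b e h s T)) := by
    rw [tendsto_iff_norm_sub_tendsto_zero]
    refine squeeze_zero (fun n => norm_nonneg _) (fun n => ?_)
      (g := fun n => |K'| * (√(I (C.Γ e e)) * √(I (C.Γ (u n - s) (u n - s))))
        + √(I ((C.lap (u n) - T) ^ 2)) * (L * √(I (C.Γ e e)))
        + √(I (h ^ 2)) * (L * √(I (C.Γ (u n - s) (u n - s))))) ?_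
    · rw [Real.norm_eq_abs, hD.TT_sub_right bA.1 hbt hb.2 he.1 he.2.1 hs.1 hs.2.1 (uW n) (uL n)]
      exact hD.TT_le (abs_nonneg _) hL0 bA.1 hK hL he.1 he.2.1 (hD.sub_mem (uW n) hs.1)
        (mem_sub (uL n) hs.2.1)
    · have := (((t0.const_mul (√(I (C.Γ e e)))).const_mul |K'|).add
        (t1.mul_const (L * √(I (C.Γ e e))))).add
        ((t0.const_mul L).const_mul (√(I (h ^ 2))))
      simpa using this
  have lim2 := (hD.E_tendsto uW hs.1 hu1).const_mul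
    (4 * L ^ 2 * (I (h ^ 2) - κ * I (C.Γ e e)))
  exact le_of_tendsto_of_tendsto' (lim1.pow 2) lim2 fun n => step _ (hu n).1

/-- `0 ≤ ∫ (Δe)² - κ ∫ |∇e|²` for `e ∈ D(Δ)` -/
theorem Q_nonneg [SigmaFinite m] (he : C.IsLap e h) : 0 ≤ I (h ^ 2) - κ * I (C.Γ e e) := by
  have hD := hC.toIsDir
  obtain ⟨u, hu, hu1, hu2⟩ := hC.dense_graph hB he
  have uW : ∀ n, u n ∈ C.W := fun n => (hC.test_A (hu n).1).1
  have uL : ∀ n, MemLp (C.lap (u n)) 2 m := fun n => (hC.test_isLap (hu n).1).2.1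
  refine ge_of_tendsto' ((I_sq_tendsto uL he.2.1 hu2).sub
    ((hD.E_tendsto uW he.1 hu1).const_mul κ)) fun n => ?_
  have := hC.tensor_ineq_one hB (n := 0) (hu n).1 (F := Fin.elim0) (H := Fin.elim0)
    (s := Fin.elim0) (fun i => i.elim0) (fun i => i.elim0) (fun i => i.elim0) (fun i => i.elim0)
  simpa using this

/-- **the Hessian bound**, square root form -/
theorem hess_bound [SigmaFinite m] (he : C.IsLap e h) (hb : b ∈ C.TestI) (hs : C.IsLap s T)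
    {L : ℝ} (hL0 : 0 ≤ L) (hL : ∀ᵐ x ∂m, C.Γ b b x ≤ L ^ 2) :
    |I (C.Γ b e * T) + I (C.Γ s e * C.lap b) - I (h * C.Γ b s)| ≤
      2 * L * √(I (h ^ 2) - κ * I (C.Γ e e)) * √(I (C.Γ s s)) := by
  have hD := hC.toIsDir
  have bA := hC.test_A hb.1
  have e1 : I (C.Γ b e * T) + I (C.Γ s e * C.lap b) - I (h * C.Γ b s) = C.TT b e h s T := by
    unfold Calc.TT
    rw [hD.symm _ bA.1 _ he.1, hD.symm _ hs.1 _ he.1, mul_comm (C.Γ e b), mul_comm (C.Γ e s)]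
    ring
  rw [e1]
  have hQ := hC.Q_nonneg hB he
  have hE := hD.E_nonneg hs.1
  refine abs_le_of_sq_le_sq ?_ (by positivity)
  refine (hC.TT_sq_le hB he hb hs hL0 hL).trans (le_of_eq ?_)
  rw [mul_pow, mul_pow, mul_pow, Real.sq_sqrt hQ, Real.sq_sqrt hE]
  ring

end IsGamma

end Vale.Agent.P233
end
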