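import Vale.Agent.P233.U.Main

/-!
# P233, block C2: multiplicativity for `t < 1`
-/

set_option linter.all false

open MeasureTheory Filter Topology Set
open scoped ENNReal NNReal InnerProductSpace

universe u

namespace Vale.Agent.P233

/-- restriction to a smaller interval -/
theorem Calc.CE.sub_interval {M : Type*} [MeasurableSpace M] {m : Measure M} {C : Calc m}
    {a b a' b' R : ℝ} {η s : ℝ → M →ₘ[m] ℝ} (h : C.CE a b R η s) (ha : a ≤ a') (hb : b' ≤ b) :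
    C.CE a' b' R η s := by
  have hs : Icc a' b' ⊆ Icc a b := Icc_subset_Icc ha hb
  refine ⟨fun t ht => h.mem t (hs ht), fun t ht => h.l2 t (hs ht), fun t ht => h.bdd t (hs ht),
    fun g hg t ht r hr => h.lip g hg t (hs ht) r (hs hr), ?_⟩
  filter_upwards [h.der] with t h1 h2
  exact h1 ⟨ha.trans_lt h2.1, h2.2.trans_le hb⟩

namespace H638

open Vale.Agent.P233.PC

variable {M : Type u} [MetricSpace M] [SecondCountableTopology M] [MeasurableSpace M]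
  [BorelSpace M] {m : Measure M}
variable {K N : ℝ} {p : M} {s₀ C₀ : ℝ} {φ ρ : ℝ → M →ₘ[m] ℝ}
  {R : ℝ → ℝ → (M →ₘ[m] ℝ) → (M →ₘ[m] ℝ)}

/-- **determinism at interior times** (isometry) -/
theorem isom (hC : IsGamma (sob m)) {κ : ℝ} (hBE : (sob m).BEi κ)
    (hfin : ∀ (x : M) (r : ℝ), m (Metric.ball x r) < ∞)
    (hN : 0 < N) (hs : 0 < s₀) (hC0 : 0 < C₀) (hL : Lim m K N p s₀ C₀ φ ρ R) {s r : ℝ}
    (hs1 : s ∈ Ioo (0 : ℝ) 1) (hr1 : r ∈ Ioo (0 : ℝ) 1) {k : M →ₘ[m] ℝ} (hk : L2i m k) :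
    Integrable (fun x => R s r k x ^ 2 / ρ s x) m ∧
      ∫ x, R s r k x ^ 2 / ρ s x ∂m = I (k * (k * ρ r)) := by
  haveI : SigmaFinite m := sigmaFinite_of_balls hfin p
  have hD := hC.toIsDir
  set a := min s r with ha
  set b := max s r with hb
  have ha0 : 0 < a := lt_min hs1.1 hr1.1
  have hb1 : b < 1 := max_lt hs1.2 hr1.2
  have hab : a ≤ b := (min_le_left _ _).trans (le_max_left _ _)
  have hsI : s ∈ Icc a b := ⟨min_le_left _ _, le_max_left _ _⟩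
  have hrI : r ∈ Icc a b := ⟨min_le_right _ _, le_max_right _ _⟩
  have hs' : s ∈ Ioc (0 : ℝ) 1 := ⟨hs1.1, hs1.2.le⟩
  have hr' : r ∈ Ioc (0 : ℝ) 1 := ⟨hr1.1, hr1.2.le⟩
  obtain ⟨K', η, h, hK'0, hη⟩ := exists_eta hD hfin hN hs hC0 hL ha0 hb1
  have hcomm : (sob m).CommOK a b η := hC.commOK2 hBE hK'0 (fun t ht => (hη t ht).1)
    (fun t ht => (hη t ht).2.2.1) (fun t ht => (hη t ht).2.2.2.1)
  -- the curves
  have hcurve : ∀ q ∈ Ioc (0 : ℝ) 1, ∀ w, L2i m w → ∃ B : ℝ, 0 ≤ B ∧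
      (sob m).CE a b B η (fun t => R t q w) := by
    intro q hq w hw
    obtain ⟨B, hB0, hB⟩ := ce_R hD hfin hN hs hC0 hL ha0 (hab.trans hb1.le) hq hw
    refine ⟨B, hB0, hD.ce_congr (hB.sub_interval le_rfl hb1.le) fun t ht g hg => ?_⟩
    have ht' : t ∈ Ioo (0 : ℝ) 1 := ⟨ha0.trans_le ht.1, ht.2.trans_lt hb1⟩
    have hηW := (hη t ht).1.1
    have hzW := (hL.z_mem t ⟨ht'.1.le, ht'.2.le⟩).1
    congr 1
    rw [eq_iff_ae]
    filter_upwards [mul_ae ((sob m).Γ g (η t)) (R t q w),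
      mul_ae ((sob m).Γ g (zc m p s₀ C₀ t)) (R t q w), R_supp hL ht' hq hw,
      (hη t ht).2.2.2.2 g hg, eq_iff_ae.1 (hD.symm _ hg _ hηW),
      eq_iff_ae.1 (hD.symm _ hg _ hzW)] with x a1 a2 a3 a4 a5 a6
    rw [a1, a2, a5, a6]
    rcases a3 with a3 | a3
    · rw [a3, mul_zero, mul_zero]
    · rw [a4 a3]
  obtain ⟨B, hB0, hF⟩ := hcurve r hr' k hk
  obtain ⟨c, hc0, hc⟩ := l2i_bd hk
  refine hD.det hK'0 (fun t ht => ⟨h t, (hη t ht).1, (hη t ht).2.1⟩) hcomm hsI hrI hB0 hF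
    (hL.R_diag r hr' k hk) hk.1 (hL.ρ_nonneg s hs') (hL.R_le s hs' r hr' k hk c hc)
    fun w hw1 hw2 => ?_
  obtain ⟨B', hB'0, hG⟩ := hcurve s hs' w ⟨hw1, hw2⟩
  exact ⟨B', fun t => R t s w, hB'0, hG, hL.R_diag s hs' w ⟨hw1, hw2⟩,
    hL.R_symm s hs' r hr' k w hk ⟨hw1, hw2⟩⟩

/-- isometry implies multiplicativity (squares) -/
theorem sq_of_isom (hL : Lim m K N p s₀ C₀ φ ρ R) {s r : ℝ}
    (hs : s ∈ Ioc (0 : ℝ) 1) (hr : r ∈ Ioc (0 : ℝ) 1) {k : M →ₘ[m] ℝ} (hk : L2i m k)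
    (h1 : Integrable (fun x => R s r k x ^ 2 / ρ s x) m)
    (h2 : ∫ x, R s r k x ^ 2 / ρ s x ∂m = I (k * (k * ρ r))) :
    R s r (k ^ 2) * ρ s = R s r k ^ 2 := by
  have hk2 := l2i_sq hk
  have hk1 : MemLp (k ^ 2 : M →ₘ[m] ℝ) 1 m := mem_sq hk.1
  obtain ⟨m1, e1⟩ := hL.R_mass s hs r hr (k ^ 2) hk2 hk1
  have e2 : I (k * (k * ρ r)) = I (R s r (k ^ 2)) := by
    rw [e1]; congr 1; ring
  have h3 := hL.R_sq s hs r hr k hk
  have h4 := hL.R_nonneg s hs r hr (k ^ 2) hk2 (sq_nonneg' k)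
  obtain ⟨B, hB0, hB⟩ := l2i_bd hk
  obtain ⟨B2, hB20, hB2⟩ := l2i_bd hk2
  have hle : ∀ᵐ x ∂m, R s r k x ^ 2 / ρ s x ≤ R s r (k ^ 2) x := by
    filter_upwards [le_iff_ae.1 h3, sq_ae (R s r k), mul_ae (ρ s) (R s r (k ^ 2)),
      nonneg_iff_ae.1 h4, nonneg_iff_ae.1 (hL.ρ_nonneg s hs)] with x a1 a2 a3 a4 a5
    rw [a2, a3] at a1
    rcases eq_or_lt_of_le a5 with h | h
    · rw [← h, div_zero]; exact a4
    · rw [div_le_iff₀ h]; linarith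
  have hint : Integrable (fun x => R s r (k ^ 2) x - R s r k x ^ 2 / ρ s x) m :=
    (int_of_mem m1).sub h1
  have h0 : ∫ x, (R s r (k ^ 2) x - R s r k x ^ 2 / ρ s x) ∂m = 0 := by
    rw [integral_sub (int_of_mem m1) h1, h2, e2]
    exact sub_self _
  have h5 : (fun x => R s r (k ^ 2) x - R s r k x ^ 2 / ρ s x) =ᵐ[m] 0 :=
    (integral_eq_zero_iff_of_nonneg_ae (by
      filter_upwards [hle] with x hx
      simp only [Pi.zero_apply]
      linarith) hint).1 h0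
  rw [eq_iff_ae]
  filter_upwards [h5, mul_ae (R s r (k ^ 2)) (ρ s), sq_ae (R s r k),
    nonneg_iff_ae.1 (hL.ρ_nonneg s hs), hL.R_le s hs r hr k hk B hB,
    hL.R_le s hs r hr (k ^ 2) hk2 B2 hB2] with x a1 a2 a3 a4 a5 a6
  rw [a2, a3]
  simp only [Pi.zero_apply] at a1
  rcases eq_or_lt_of_le a4 with h | h
  · rw [← h, mul_zero] at a5
    have := abs_eq_zero.1 (le_antisymm a5 (abs_nonneg _))
    rw [← h, this]; ring
  · have h6 : R s r (k ^ 2) x = R s r k x ^ 2 / ρ s x := by linarith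
    rw [h6, div_mul_cancel₀ _ h.ne']

/-- polarization -/
theorem mul_of_sq (hL : Lim m K N p s₀ C₀ φ ρ R) {s r : ℝ}
    (hs : s ∈ Ioc (0 : ℝ) 1) (hr : r ∈ Ioc (0 : ℝ) 1)
    (h : ∀ k, L2i m k → R s r (k ^ 2) * ρ s = R s r k ^ 2) {k k' : M →ₘ[m] ℝ} (hk : L2i m k)
    (hk' : L2i m k') : R s r (k * k') * ρ s = R s r k * R s r k' := by
  have hkk := l2i_mul hk hk'
  have h1 := h _ (l2i_add hk hk')
  have h2 := h k hk
  have h3 := h k' hk'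
  have e : (k + k') ^ 2 = k ^ 2 + ((2 : ℝ) • (k * k') + k' ^ 2) := by algebra
  rw [e, hL.R_add s hs r hr _ _ (l2i_sq hk) (l2i_add (l2i_smul 2 hkk) (l2i_sq hk')),
    hL.R_add s hs r hr _ _ (l2i_smul 2 hkk) (l2i_sq hk'), hL.R_smul s hs r hr 2 _ hkk,
    hL.R_add s hs r hr _ _ hk hk'] at h1
  have h4 : (2 : ℝ) • (R s r (k * k') * ρ s) = (2 : ℝ) • (R s r k * R s r k') := by
    have e1 : (R s r (k ^ 2) + ((2 : ℝ) • R s r (k * k') + R s r (k' ^ 2))) * ρ s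
        = R s r (k ^ 2) * ρ s + ((2 : ℝ) • (R s r (k * k') * ρ s) + R s r (k' ^ 2) * ρ s) := by
      algebra
    have e2 : (R s r k + R s r k') ^ 2
        = R s r k ^ 2 + ((2 : ℝ) • (R s r k * R s r k') + R s r k' ^ 2) := by algebra
    rw [e1, e2, h2, h3] at h1
    have h5 := add_left_cancel h1
    exact add_right_cancel h5
  have h5 := congrArg (fun f => (2 : ℝ)⁻¹ • f) h4
  simpa [smul_smul] using h5

/-- weak continuity of the densities at the end point -/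
theorem rho_weak (hC : IsDir (sob m)) (hfin : ∀ (x : M) (r : ℝ), m (Metric.ball x r) < ∞)
    (hN : 0 < N) (hs : 0 < s₀) (hC0 : 0 < C₀) (hL : Lim m K N p s₀ C₀ φ ρ R)
    {b : M →ₘ[m] ℝ} (hb : MemLp b 2 m) :
    Tendsto (fun t => I (b * (ρ t - 1))) (𝓝[Icc (1 / 2) 1] 1) (𝓝 0) := by
  obtain ⟨B, hB⟩ := hL.ρ_L2 (1 / 2) ⟨by norm_num, by norm_num⟩
  obtain ⟨c, hc0, hc⟩ := rho_bd hN hL (a := 1 / 2) (by norm_num)
  obtain ⟨E, hE⟩ := H372.zc_energy (m := m) (p := p) hC hfin hs hC0.le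
  have h1 : (1 : ℝ) ∈ Icc (1 / 2 : ℝ) 1 := ⟨by norm_num, le_rfl⟩
  have h01 : ∀ t ∈ Icc (1 / 2 : ℝ) 1, t ∈ Ioc (0 : ℝ) 1 := fun t ht => ⟨by linarith [ht.1], ht.2⟩
  have h2 : Tendsto (fun τ => I (b * (ρ τ - 1))) (𝓝[Icc (1 / 2 : ℝ) 1] 1)
      (𝓝 (I (b * (ρ 1 - 1)))) := by
    refine hC.weak_cont_of_W (s := fun t => ρ t - 1) (B := B) h1 (fun t ht => (hB t ht).1)
      (fun t ht => (hB t ht).2) (fun g hg => ?_) hb
    rw [tendsto_iff_norm_sub_tendsto_zero]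
    have h5 : Tendsto (fun τ => √(I ((sob m).Γ g g)) * √|E| * c * |τ - 1|)
        (𝓝[Icc (1 / 2 : ℝ) 1] 1) (𝓝 0) := by
      have : Tendsto (fun τ : ℝ => √(I ((sob m).Γ g g)) * √|E| * c * |τ - 1|) (𝓝 1)
          (𝓝 (√(I ((sob m).Γ g g)) * √|E| * c * |(1 : ℝ) - 1|)) :=
        (continuous_const.mul ((continuous_id.sub continuous_const).abs)).tendsto 1
      rw [sub_self, abs_zero, mul_zero] at this
      exact this.mono_left nhdsWithin_le_nhds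
    refine squeeze_zero' (Eventually.of_forall fun _ => norm_nonneg _) ?_ h5
    filter_upwards [self_mem_nhdsWithin] with τ hτ
    have hg2 := hC.memLp g hg
    have e : I (g * (ρ τ - 1)) - I (g * (ρ 1 - 1)) = I (g * (ρ τ - ρ 1)) := by
      rw [← I_sub (mem_mul_22 hg2 (hB τ hτ).1) (mem_mul_22 hg2 (hB 1 h1).1)]
      congr 1; ring
    rw [e, (hL.CEρ g hg 1 (h01 1 h1) τ (h01 τ hτ)).2]
    refine intervalIntegral.norm_integral_le_of_norm_le_const fun q hq => ?_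
    have hq' : q ∈ Icc (1 / 2 : ℝ) 1 := by
      rw [uIoc_of_ge hτ.2] at hq
      exact ⟨hτ.1.trans hq.1.le, hq.2⟩
    have hzq := (hL.z_mem q ⟨(h01 q hq').1.le, hq'.2⟩).1
    have h7 : |I ((sob m).Γ g (zc m p s₀ C₀ q) * ρ q)|
        ≤ (∫ x, |(sob m).Γ g (zc m p s₀ C₀ q) x| ∂m) * c := by
      unfold I
      rw [← integral_mul_const]
      refine (abs_integral_le_integral_abs).trans (integral_mono_ae
        (int_of_mem (mem_top_mul (hC.Γ_mem1 hg hzq) (mem_top_iff.2 ⟨c, hc q hq'⟩))).abs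
        ((int_of_mem (hC.Γ_mem1 hg hzq)).abs.mul_const _) ?_)
      filter_upwards [mul_ae ((sob m).Γ g (zc m p s₀ C₀ q)) (ρ q), hc q hq'] with x a1 a2
      rw [a1, abs_mul]
      gcongr
    rw [Real.norm_eq_abs]
    refine h7.trans ?_
    gcongr
    refine (hC.int_abs_Γ_le hg hzq).trans ?_
    gcongr
    exact (hE q ⟨(h01 q hq').1.le, hq'.2⟩).trans (le_abs_self _)
  rw [hL.ρ_one, sub_self, mul_zero, I_zero] at h2
  exact h2

/-- strong continuity of `R s t k` in the second time at the end point -/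
theorem R_strong (hC : IsDir (sob m)) (hfin : ∀ (x : M) (r : ℝ), m (Metric.ball x r) < ∞)
    (hN : 0 < N) (hs : 0 < s₀) (hC0 : 0 < C₀) (hL : Lim m K N p s₀ C₀ φ ρ R) {s : ℝ}
    (hs1 : s ∈ Ioc (0 : ℝ) 1) {k : M →ₘ[m] ℝ} (hk : L2i m k) :
    Tendsto (fun t => I ((R s t k - R s 1 k) ^ 2)) (𝓝[Icc (1 / 2) 1] 1) (𝓝 0) := by
  have h1 : (1 : ℝ) ∈ Icc (1 / 2 : ℝ) 1 := ⟨by norm_num, le_rfl⟩
  have h1' : (1 : ℝ) ∈ Ioc (0 : ℝ) 1 := ⟨by norm_num, le_rfl⟩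
  have h01 : ∀ t ∈ Icc (1 / 2 : ℝ) 1, t ∈ Ioc (0 : ℝ) 1 := fun t ht => ⟨by linarith [ht.1], ht.2⟩
  obtain ⟨c, hc0, hc⟩ := rho_bd hN hL hs1.1
  obtain ⟨B, hB0, hCE⟩ := ce_R hC hfin hN hs hC0 hL (a := 1 / 2) (by norm_num) (by norm_num) h1' hk
  -- the increments
  set E : ℝ → ℝ := fun t => I (k ^ 2 * ρ t) + I (k ^ 2 * ρ 1) - 2 * I (k * R t 1 k) with hE
  have hk2 := l2i_sq hk
  have hk1 : MemLp (k ^ 2 : M →ₘ[m] ℝ) 1 m := mem_sq hk.1
  obtain ⟨B2, hB2⟩ := hL.ρ_L2 (1 / 2) ⟨by norm_num, by norm_num⟩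
  have hElim : Tendsto E (𝓝[Icc (1 / 2) 1] 1) (𝓝 0) := by
    have l1 := rho_weak hC hfin hN hs hC0 hL hk2.1
    have l2 : Tendsto (fun t => I (k * R t 1 k)) (𝓝[Icc (1 / 2 : ℝ) 1] 1)
        (𝓝 (I (k * R 1 1 k))) := by
      refine hC.weak_cont_of_W (s := fun t => R t 1 k) (B := B ^ 2) h1 hCE.mem hCE.l2
        (fun g hg => ?_) hk.1
      rw [tendsto_iff_norm_sub_tendsto_zero]
      have h5 : Tendsto (fun τ => B * √(I ((sob m).Γ g g)) * |τ - 1|)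
          (𝓝[Icc (1 / 2 : ℝ) 1] 1) (𝓝 0) := by
        have : Tendsto (fun τ : ℝ => B * √(I ((sob m).Γ g g)) * |τ - 1|) (𝓝 1)
            (𝓝 (B * √(I ((sob m).Γ g g)) * |(1 : ℝ) - 1|)) :=
          (continuous_const.mul ((continuous_id.sub continuous_const).abs)).tendsto 1
        rw [sub_self, abs_zero, mul_zero] at this
        exact this.mono_left nhdsWithin_le_nhds
      refine squeeze_zero' (Eventually.of_forall fun _ => norm_nonneg _) ?_ h5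
      filter_upwards [self_mem_nhdsWithin] with τ hτ
      rw [Real.norm_eq_abs, ← I_sub (mem_mul_22 (hC.memLp g hg) (hCE.mem τ hτ))
        (mem_mul_22 (hC.memLp g hg) (hCE.mem 1 h1)), ← mul_sub]
      exact hCE.lip g hg τ hτ 1 h1
    rw [hL.R_diag 1 h1' k hk] at l2
    have e2 : I (k * (k * ρ 1)) = I (k ^ 2 * ρ 1) := by congr 1; ring
    rw [e2, hL.ρ_one, mul_one] at l2
    have l3 := (l1.add_const (I (k ^ 2) + I (k ^ 2))).sub (l2.const_mul 2)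
    have e3 : 0 + (I (k ^ 2) + I (k ^ 2)) - 2 * I (k ^ 2) = 0 := by ring
    rw [e3] at l3
    refine l3.congr' ?_
    filter_upwards [self_mem_nhdsWithin] with t ht
    have e4 : I (k ^ 2 * ρ t) = I (k ^ 2 * (ρ t - 1)) + I (k ^ 2) := by
      rw [← I_add (mem_mul_22 hk2.1 (hB2 t ht).1) hk1]
      congr 1; ring
    simp only [hE]
    rw [e4, hL.ρ_one, mul_one]
    ring
  -- the estimate
  have key : ∀ t ∈ Icc (1 / 2 : ℝ) 1, I ((R s t k - R s 1 k) ^ 2) ≤ (c + 1) * E t := by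
    intro t ht
    set d := R s t k - R s 1 k with hd
    have hRt := hL.R_mem s hs1 t (h01 t ht) k hk
    have hR1 := hL.R_mem s hs1 1 h1' k hk
    have hd2 : L2i m d := ⟨mem_sub hRt.1 hR1.1, mem_sub hRt.2 hR1.2⟩
    set a := (c + 1)⁻¹ • d with ha
    have haL : L2i m a := l2i_smul _ hd2
    have hnk : L2i m (-k) := ⟨mem_neg hk.1, mem_neg hk.2⟩
    have hg := hL.R_gram s hs1 t (h01 t ht) 1 h1' a (-k) k haL hnk hk
    have e1 : R s t (-k) = -R s t k := by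
      have := hL.R_smul s hs1 t (h01 t ht) (-1) k hk
      simpa using this
    have e2 : I (a * R s t (-k)) = -I (a * R s t k) := by rw [e1, mul_neg, I_neg]
    have e3 : I (-k * R t 1 k) = -I (k * R t 1 k) := by rw [neg_mul, I_neg]
    have e4 : I ((-k) ^ 2 * ρ t) = I (k ^ 2 * ρ t) := by congr 1; ring
    have e5 : I (a * R s t k) - I (a * R s 1 k) = (c + 1)⁻¹ * I (d ^ 2) := by
      rw [← I_sub (mem_mul_22 haL.1 hRt.1) (mem_mul_22 haL.1 hR1.1), ← mul_sub, ← hd, ← I_smul]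
      congr 1; rw [ha]; algebra
    have e6 : I (a ^ 2 * ρ s) ≤ (c + 1)⁻¹ * I (d ^ 2) := by
      rw [← I_smul]
      refine I_mono ?_ (mem_smul _ (mem_sq hd2.1)) ?_
      · exact mem_top_mul (mem_sq haL.1) (mem_top_iff.2 ⟨c, hc s ⟨le_rfl, hs1.2⟩⟩)
      · rw [le_iff_ae]
        filter_upwards [mul_ae (a ^ 2) (ρ s), sq_ae a, smul_ae d (c + 1)⁻¹,
          smul_ae (d ^ 2) (c + 1)⁻¹, sq_ae d, hc s ⟨le_rfl, hs1.2⟩] with x a1 a2 a3 a4 a5 a6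
        rw [a1, a2, a4, a5]
        have a7 : a x = (c + 1)⁻¹ * d x := a3
        rw [a7]
        have hc1 : 0 < c + 1 := by linarith
        have a8 : ρ s x ≤ c + 1 := (le_abs_self _).trans (a6.trans (by linarith))
        calc ((c + 1)⁻¹ * d x) ^ 2 * ρ s x ≤ ((c + 1)⁻¹ * d x) ^ 2 * (c + 1) := by gcongr
          _ = (c + 1)⁻¹ * d x ^ 2 := by field_simp
    rw [e2, e3, e4] at hg
    have h6 : (c + 1)⁻¹ * I (d ^ 2) ≤ E t := by
      simp only [hE]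
      linarith
    have hc1 : 0 < c + 1 := by linarith
    calc I (d ^ 2) = (c + 1) * ((c + 1)⁻¹ * I (d ^ 2)) := by field_simp
      _ ≤ (c + 1) * E t := by gcongr
  have hlim : Tendsto (fun t => (c + 1) * E t) (𝓝[Icc (1 / 2) 1] 1) (𝓝 0) := by
    simpa using hElim.const_mul (c + 1)
  refine squeeze_zero' (Eventually.of_forall fun _ => I_sq_nonneg _) ?_ hlim
  filter_upwards [self_mem_nhdsWithin] with t ht
  exact key t ht

/-- multiplicativity for the weights at time `1` -/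
theorem sq_one (hC : IsGamma (sob m)) {κ : ℝ} (hBE : (sob m).BEi κ)
    (hfin : ∀ (x : M) (r : ℝ), m (Metric.ball x r) < ∞)
    (hN : 0 < N) (hs : 0 < s₀) (hC0 : 0 < C₀) (hL : Lim m K N p s₀ C₀ φ ρ R) {s : ℝ}
    (hs1 : s ∈ Ioo (0 : ℝ) 1) {k : M →ₘ[m] ℝ} (hk : L2i m k) :
    R s 1 (k ^ 2) * ρ s = R s 1 k ^ 2 := by
  have hD := hC.toIsDir
  have h1' : (1 : ℝ) ∈ Ioc (0 : ℝ) 1 := ⟨by norm_num, le_rfl⟩
  have hs' : s ∈ Ioc (0 : ℝ) 1 := ⟨hs1.1, hs1.2.le⟩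
  have hk2 := l2i_sq hk
  obtain ⟨c, hc0, hc⟩ := rho_bd hN hL hs1.1
  have hρ : MemLp (ρ s) ∞ m := mem_top_iff.2 ⟨c, hc s ⟨le_rfl, hs1.2.le⟩⟩
  -- a sequence of times
  set t : ℕ → ℝ := fun n => 1 - ((n : ℝ) + 2)⁻¹ with ht
  have ht1 : ∀ n, t n ∈ Icc (1 / 2 : ℝ) 1 ∧ t n ∈ Ioo (0 : ℝ) 1 := by
    intro n
    have h2 : (0 : ℝ) < (n : ℝ) + 2 := by positivity
    have h3 : ((n : ℝ) + 2)⁻¹ ≤ 1 / 2 := by
      rw [one_div]
      gcongr
      linarith [(Nat.cast_nonneg n : (0 : ℝ) ≤ n)]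
    have h4 : 0 < ((n : ℝ) + 2)⁻¹ := by positivity
    simp only [ht]
    exact ⟨⟨by linarith, by linarith⟩, ⟨by linarith, by linarith⟩⟩
  have htlim : Tendsto t atTop (𝓝[Icc (1 / 2) 1] 1) := by
    refine tendsto_nhdsWithin_iff.2 ⟨?_, Eventually.of_forall fun n => (ht1 n).1⟩
    have h2 : Tendsto (fun n : ℕ => (n : ℝ) + 2) atTop atTop :=
      tendsto_atTop_add_const_right _ _ tendsto_natCast_atTop_atTop
    have h3 := (tendsto_inv_atTop_zero.comp h2).const_sub 1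
    simpa [Function.comp_def] using h3
  have hT : ∀ w, L2i m w → T2 (fun n => R s (t n) w) (R s 1 w) := fun w hw =>
    ⟨fun n => (hL.R_mem s hs' (t n) ⟨(ht1 n).2.1, (ht1 n).2.2.le⟩ w hw).1,
      (hL.R_mem s hs' 1 h1' w hw).1, (R_strong hD hfin hN hs hC0 hL hs' hw).comp htlim⟩
  have hn : ∀ n, R s (t n) (k ^ 2) * ρ s = R s (t n) k ^ 2 := fun n => by
    obtain ⟨i1, i2⟩ := isom hC hBE hfin hN hs hC0 hL hs1 (ht1 n).2 hk
    exact sq_of_isom hL hs' ⟨(ht1 n).2.1, (ht1 n).2.2.le⟩ hk i1 i2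
  set X := R s 1 (k ^ 2) * ρ s - R s 1 k ^ 2 with hX
  have hA := hL.R_mem s hs' 1 h1' (k ^ 2) hk2
  have hB := hL.R_mem s hs' 1 h1' k hk
  have hAρ : L2i m (R s 1 (k ^ 2) * ρ s) := ⟨mem_top_mul hA.1 hρ, mem_top_mul hA.2 hρ⟩
  have hB2 : L2i m (R s 1 k ^ 2) := l2i_sq hB
  have hXL : L2i m X := ⟨mem_sub hAρ.1 hB2.1, mem_sub hAρ.2 hB2.2⟩
  have l1 : Tendsto (fun n => I ((X * ρ s) * R s (t n) (k ^ 2))) atTop
      (𝓝 (I ((X * ρ s) * R s 1 (k ^ 2)))) :=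
    (T2.const (mem_top_mul hXL.1 hρ)).mul_lim (hT _ hk2)
  have l2 : Tendsto (fun n => I ((X * R s (t n) k) * R s (t n) k)) atTop
      (𝓝 (I ((X * R s 1 k) * R s 1 k))) :=
    ((Tb.const hXL.2).mul (hT k hk)).mul_lim (hT k hk)
  have e : ∀ n, I ((X * ρ s) * R s (t n) (k ^ 2)) = I ((X * R s (t n) k) * R s (t n) k) := by
    intro n
    have e1 : (X * ρ s) * R s (t n) (k ^ 2) = X * (R s (t n) (k ^ 2) * ρ s) := by ring
    rw [e1, hn n]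
    congr 1; ring
  have l3 := tendsto_nhds_unique (l1.congr e) l2
  have h0 : I (X ^ 2) = 0 := by
    have e1 : X ^ 2 = (X * ρ s) * R s 1 (k ^ 2) - (X * R s 1 k) * R s 1 k := by
      rw [hX]; ring
    rw [e1, I_sub (mem_mul_22 (mem_top_mul hXL.1 hρ) hA.1)
      (mem_mul_22 (mem_top_mul hXL.1 hB.2) hB.1), l3, sub_self]
  have h5 := I_sq_eq_zero hXL.1 h0
  exact sub_eq_zero.1 h5

/-- **Block C2 for `t < 1`** -/
theorem mult_lt (hC : IsGamma (sob m)) {κ : ℝ} (hBE : (sob m).BEi κ)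
    (hfin : ∀ (x : M) (r : ℝ), m (Metric.ball x r) < ∞)
    (hN : 0 < N) (hs : 0 < s₀) (hC0 : 0 < C₀) (hL : Lim m K N p s₀ C₀ φ ρ R) {t r : ℝ}
    (ht : t ∈ Ioo (0 : ℝ) 1) (hr : r ∈ Ioc (0 : ℝ) 1) {k k' : M →ₘ[m] ℝ} (hk : L2i m k)
    (hk' : L2i m k') : R t r (k * k') * ρ t = R t r k * R t r k' := by
  have ht' : t ∈ Ioc (0 : ℝ) 1 := ⟨ht.1, ht.2.le⟩
  refine mul_of_sq hL ht' hr (fun w hw => ?_) hk hk'
  rcases eq_or_lt_of_le hr.2 with h | h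
  · rw [h]
    exact sq_one hC hBE hfin hN hs hC0 hL ht hw
  · obtain ⟨i1, i2⟩ := isom hC hBE hfin hN hs hC0 hL ht ⟨hr.1, h⟩ hw
    exact sq_of_isom hL ht' hr hw i1 i2

end H638

end Vale.Agent.P233
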