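import Vale.Agent.P233.Bd3.B4

/-!
# P233, Lemma U: uniqueness for the continuity equation (time part)

`s t` are bounded functions in `L²` with `d/dt ∫ g s_t = ∫ ⟨∇g,∇η_t⟩ s_t` for all `g ∈ W`, where
`|Δ η_t| ≤ K`. If the commutators `Comm` of the continuity equation with the resolvents are
bounded and tend to zero, then `∫ s_t² ≤ exp (K |t - r|) ∫ s_r²`.
-/

set_option linter.all false

open MeasureTheory Filter Topology Set
open scoped ENNReal NNReal

namespace Vale.Agent.P233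

variable {M : Type*} [MeasurableSpace M] {m : Measure M}

/-- the commutator of the continuity equation with the resolvent -/
noncomputable def Calc.Comm (C : Calc m) (a : ℝ) (η s : M →ₘ[m] ℝ) : ℝ :=
  I (C.Γ (C.J a (C.J a s)) η * s) - I (C.Γ (C.J a s) η * C.J a s)

/-- `s` is a bounded solution of the continuity equation with the velocities `∇η_t` -/
structure Calc.CE (C : Calc m) (a b R : ℝ) (η s : ℝ → M →ₘ[m] ℝ) : Prop where
  mem : ∀ t ∈ Icc a b, MemLp (s t) 2 m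
  l2 : ∀ t ∈ Icc a b, I (s t ^ 2) ≤ R ^ 2
  bdd : ∀ t ∈ Icc a b, ∀ᵐ x ∂m, |s t x| ≤ R
  lip : ∀ g ∈ C.W, ∀ t ∈ Icc a b, ∀ r ∈ Icc a b,
    |I (g * (s t - s r))| ≤ R * √(I (C.Γ g g)) * |t - r|
  der : ∀ᵐ t, t ∈ Ioo a b → ∀ g ∈ C.W,
    HasDerivAt (fun τ => I (g * s τ)) (I (C.Γ g (η t) * s t)) t

variable {C : Calc m}

namespace IsDir

variable (hC : IsDir C)
include hC
variable {a b R K d : ℝ} {η s : ℝ → M →ₘ[m] ℝ}

/-- `∫ (J f)(J g) = ∫ (J J f) g` -/
theorem I_JJ (hd : 0 < d) {f g : M →ₘ[m] ℝ} (hf : MemLp f 2 m) (hg : MemLp g 2 m) :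
    I (C.J d f * C.J d g) = I (C.J d (C.J d f) * g) :=
  (hC.J_symm hd (hC.J_mem2 hd hf) hg).symm

theorem I_J_sq (hd : 0 < d) {f : M →ₘ[m] ℝ} (hf : MemLp f 2 m) :
    I (C.J d f ^ 2) = I (C.J d (C.J d f) * f) := by
  rw [sq, hC.I_JJ hd hf hf]

theorem E_JJ_le (hd : 0 < d) {f : M →ₘ[m] ℝ} (hf : MemLp f 2 m) :
    I (C.Γ (C.J d (C.J d f)) (C.J d (C.J d f))) ≤ d⁻¹ * I (C.J d f ^ 2) := by
  have h1 := hC.J_contr hd (hC.J_mem2 hd hf)
  have h2 := I_sq_nonneg (C.J d (C.J d f))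
  have h3 : d * I (C.Γ (C.J d (C.J d f)) (C.J d (C.J d f))) ≤ I (C.J d f ^ 2) := by linarith
  rw [inv_mul_eq_div, le_div_iff₀ hd]
  linarith

/-- the increments are small after the application of `J` -/
theorem ce_J_sq (hd : 0 < d) (hR : 0 ≤ R) (h : C.CE a b R η s) {t r : ℝ} (ht : t ∈ Icc a b)
    (hr : r ∈ Icc a b) : I (C.J d (s t - s r) ^ 2) ≤ d⁻¹ * (R * |t - r|) ^ 2 := by
  have hf := mem_sub (h.mem t ht) (h.mem r hr)
  set f := s t - s r with hfd
  set A := I (C.J d f ^ 2) with hA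
  have hA0 : 0 ≤ A := I_sq_nonneg _
  have h1 := h.lip _ (hC.J_mem hd (hC.J_mem2 hd hf)) t ht r hr
  rw [← hC.I_J_sq hd hf, abs_of_nonneg hA0] at h1
  have h2 := hC.E_JJ_le hd hf
  have h3 : √(I (C.Γ (C.J d (C.J d f)) (C.J d (C.J d f)))) ≤ √(d⁻¹ * A) := Real.sqrt_le_sqrt h2
  have h4 : A ≤ R * |t - r| * √(d⁻¹ * A) := by
    refine h1.trans ?_
    calc R * √(I (C.Γ (C.J d (C.J d f)) (C.J d (C.J d f)))) * |t - r|
        ≤ R * √(d⁻¹ * A) * |t - r| := by gcongr
      _ = _ := by ring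
  have h5 : A ^ 2 ≤ (R * |t - r|) ^ 2 * (d⁻¹ * A) := by
    have h6 : A ^ 2 ≤ (R * |t - r| * √(d⁻¹ * A)) ^ 2 := pow_le_pow_left₀ hA0 h4 2
    rwa [mul_pow, Real.sq_sqrt (by positivity)] at h6
  rcases eq_or_lt_of_le hA0 with h7 | h7
  · rw [← h7]; positivity
  · have h8 : A * A ≤ (d⁻¹ * (R * |t - r|) ^ 2) * A := by nlinarith only [h5]
    exact le_of_mul_le_mul_right h8 h7

theorem ce_F_sub (hd : 0 < d) (h : C.CE a b R η s) {t r : ℝ} (ht : t ∈ Icc a b)
    (hr : r ∈ Icc a b) : I (C.J d (s t) ^ 2) - I (C.J d (s r) ^ 2)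
      = I (C.J d (C.J d (s t + s r)) * (s t - s r)) := by
  have h1 := h.mem t ht
  have h2 := h.mem r hr
  have m1 := hC.J_mem2 hd h1
  have m2 := hC.J_mem2 hd h2
  rw [← hC.I_JJ hd (mem_add h1 h2) (mem_sub h1 h2), hC.J_add hd h1 h2, hC.J_sub hd h1 h2,
    ← I_sub (by rw [sq]; exact mem_mul_22 m1 m1) (by rw [sq]; exact mem_mul_22 m2 m2)]
  congr 1
  ring

theorem ce_F_lip (hd : 0 < d) (hR : 0 ≤ R) (h : C.CE a b R η s) {t r : ℝ} (ht : t ∈ Icc a b)
    (hr : r ∈ Icc a b) : |I (C.J d (s t) ^ 2) - I (C.J d (s r) ^ 2)|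
      ≤ R * √(d⁻¹ * (4 * R ^ 2)) * |t - r| := by
  have h1 := h.mem t ht
  have h2 := h.mem r hr
  have h12 := mem_add h1 h2
  rw [hC.ce_F_sub hd h ht hr]
  refine (h.lip _ (hC.J_mem hd (hC.J_mem2 hd h12)) t ht r hr).trans ?_
  have h3 : I ((s t + s r) ^ 2) ≤ 4 * R ^ 2 := by
    have := I_sq_add_le h1 h2
    linarith [h.l2 t ht, h.l2 r hr]
  have h4 : √(I (C.Γ (C.J d (C.J d (s t + s r))) (C.J d (C.J d (s t + s r)))))
      ≤ √(d⁻¹ * (4 * R ^ 2)) := by
    refine Real.sqrt_le_sqrt ((hC.E_JJ_le hd h12).trans ?_)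
    have := hC.J_sq_le hd h12
    gcongr
    linarith
  gcongr

/-- the derivative of `∫ (J s_t)²` -/
theorem ce_F_deriv (hd : 0 < d) (hR : 0 ≤ R) (h : C.CE a b R η s) {t : ℝ} (ht : t ∈ Ioo a b)
    (hder : ∀ g ∈ C.W, HasDerivAt (fun τ => I (g * s τ)) (I (C.Γ g (η t) * s t)) t) :
    HasDerivAt (fun τ => I (C.J d (s τ) ^ 2)) (2 * I (C.Γ (C.J d (C.J d (s t))) (η t) * s t)) t := by
  have ht' : t ∈ Icc a b := Ioo_subset_Icc_self ht
  have hst := h.mem t ht'
  set g := C.J d (C.J d (s t)) with hg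
  have hgW : g ∈ C.W := hC.J_mem hd (hC.J_mem2 hd hst)
  have hg2 := hC.memLp _ hgW
  have h1 := (hder g hgW).const_mul 2
  have h2 : HasDerivAt (fun τ => I (C.J d (s τ) ^ 2) - 2 * I (g * s τ)) 0 t := by
    rw [hasDerivAt_iff_isLittleO]
    have h3 : (fun τ => (I (C.J d (s τ) ^ 2) - 2 * I (g * s τ))
        - (I (C.J d (s t) ^ 2) - 2 * I (g * s t)) - (τ - t) • (0 : ℝ)) =O[𝓝 t]
        fun τ => ‖τ - t‖ ^ 2 := by
      refine Asymptotics.IsBigO.of_bound (d⁻¹ * R ^ 2) ?_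
      filter_upwards [isOpen_Ioo.mem_nhds ht] with τ hτ
      have hτ' : τ ∈ Icc a b := Ioo_subset_Icc_self hτ
      have hsτ := h.mem τ hτ'
      have hf := mem_sub hsτ hst
      have e1 : C.J d (s τ) = C.J d (s τ - s t) + C.J d (s t) := by
        rw [hC.J_sub hd hsτ hst]; ring
      have m1 := hC.J_mem2 hd hf
      have m2 := hC.J_mem2 hd hst
      have e2 : I (C.J d (s τ) ^ 2) = I (C.J d (s τ - s t) ^ 2)
          + 2 * I (C.J d (s τ - s t) * C.J d (s t)) + I (C.J d (s t) ^ 2) := by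
        rw [e1]
        have e3 : (C.J d (s τ - s t) + C.J d (s t)) ^ 2 = C.J d (s τ - s t) ^ 2
            + (2 : ℝ) • (C.J d (s τ - s t) * C.J d (s t)) + C.J d (s t) ^ 2 := by
          algebra
        rw [e3, I_add (mem_add (by rw [sq]; exact mem_mul_22 m1 m1)
          (mem_smul _ (mem_mul_22 m1 m2))) (by rw [sq]; exact mem_mul_22 m2 m2),
          I_add (by rw [sq]; exact mem_mul_22 m1 m1) (mem_smul _ (mem_mul_22 m1 m2)), I_smul]
      have e4 : I (C.J d (s τ - s t) * C.J d (s t)) = I (g * s τ) - I (g * s t) := by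
        rw [mul_comm, hC.I_JJ hd hst hf, ← hg, mul_sub, I_sub (mem_mul_22 hg2 hsτ)
          (mem_mul_22 hg2 hst)]
      have e5 := hC.ce_J_sq hd hR h hτ' ht'
      rw [e2, e4]
      have e6 : I (C.J d (s τ - s t) ^ 2) + 2 * (I (g * s τ) - I (g * s t))
          + I (C.J d (s t) ^ 2) - 2 * I (g * s τ) - (I (C.J d (s t) ^ 2) - 2 * I (g * s t))
          - (τ - t) • (0 : ℝ) = I (C.J d (s τ - s t) ^ 2) := by
        simp only [smul_zero]; ring
      rw [e6, Real.norm_eq_abs, abs_of_nonneg (I_sq_nonneg _), norm_pow, norm_norm, Real.norm_eq_abs]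
      refine e5.trans (le_of_eq ?_)
      ring
    exact h3.trans_isLittleO (by simpa using Asymptotics.isLittleO_pow_sub_sub t (m := 2) (by norm_num))
  have h4 := h2.add h1
  rw [zero_add] at h4
  refine h4.congr_of_eventuallyEq ?_
  filter_upwards with τ
  simp

/-- the derivative is controlled by the commutator -/
theorem ce_F_deriv_le (hd : 0 < d) (hR : 0 ≤ R) (h : C.CE a b R η s) {t : ℝ} (ht : t ∈ Icc a b)
    {k : M →ₘ[m] ℝ} (hk : C.IsLap (η t) k) (hK : ∀ᵐ x ∂m, |k x| ≤ K) :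
    |2 * I (C.Γ (C.J d (C.J d (s t))) (η t) * s t)| ≤
      2 * |C.Comm d (η t) (s t)| + K * I (C.J d (s t) ^ 2) := by
  have hst := h.mem t ht
  have hS : C.J d (s t) ∈ C.A := ⟨hC.J_mem hd hst, mem_top_iff.2 ⟨R, hC.J_bdd hd hst (h.bdd t ht)⟩⟩
  have h1 := hC.sq_mem hS
  have m2 := hC.J_mem2 hd hst
  have e1 : 2 * I (C.Γ (C.J d (s t)) (η t) * C.J d (s t)) = -I (k * C.J d (s t) ^ 2) := by
    have e2 := hk.2.2 _ h1.1
    change I (C.Γ (η t) (C.J d (s t) ^ 2)) = -I (k * C.J d (s t) ^ 2) at e2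
    rw [← e2, hC.symm _ hk.1 _ h1.1, h1.2 _ hk.1, ← I_smul]
    congr 1
    algebra
  have e3 : |I (k * C.J d (s t) ^ 2)| ≤ K * I (C.J d (s t) ^ 2) := by
    have m3 : MemLp (C.J d (s t) ^ 2 : M →ₘ[m] ℝ) 1 m := by rw [sq]; exact mem_mul_22 m2 m2
    have m4 : MemLp (k * C.J d (s t) ^ 2 : M →ₘ[m] ℝ) 1 m :=
      mem_mul_top (mem_top_iff.2 ⟨K, hK⟩) m3
    rw [← I_smul]
    unfold I
    refine (abs_integral_le_integral_abs).trans (integral_mono_ae (int_of_mem m4).abs
      (int_of_mem (mem_smul _ m3)) ?_)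
    filter_upwards [hK, mul_ae k (C.J d (s t) ^ 2), smul_ae (C.J d (s t) ^ 2) K,
      sq_ae (C.J d (s t))] with x a1 a2 a3 a4
    rw [a2, a3, abs_mul, a4, abs_of_nonneg (sq_nonneg (C.J d (s t) x))]
    exact mul_le_mul_of_nonneg_right a1 (sq_nonneg _)
  have e4 : 2 * I (C.Γ (C.J d (C.J d (s t))) (η t) * s t) = 2 * C.Comm d (η t) (s t)
      - I (k * C.J d (s t) ^ 2) := by
    unfold Calc.Comm; linarith
  rw [e4]
  refine (abs_sub _ _).trans ?_
  rw [abs_mul, abs_two]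
  linarith

/-- **Lemma U, time part** -/
theorem ce_estimate (hR : 0 ≤ R) (hK0 : 0 ≤ K) (h : C.CE a b R η s)
    (hη : ∀ t ∈ Icc a b, ∃ k, C.IsLap (η t) k ∧ ∀ᵐ x ∂m, |k x| ≤ K) {C0 : ℝ} {n0 : ℕ}
    (c1 : ∀ n ≥ n0, ∀ t ∈ Icc a b, |C.Comm ((n : ℝ) + 1)⁻¹ (η t) (s t)| ≤ C0)
    (c2 : ∀ t ∈ Icc a b, Tendsto (fun n : ℕ => C.Comm ((n : ℝ) + 1)⁻¹ (η t) (s t)) atTop (𝓝 0))
    {t r : ℝ} (ht : t ∈ Icc a b) (hr : r ∈ Icc a b) :
    I (s t ^ 2) ≤ Real.exp (K * |t - r|) * I (s r ^ 2) := by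
  -- the function `F_n`
  have hn : ∀ n : ℕ, (0 : ℝ) < ((n : ℝ) + 1)⁻¹ := fun n => by positivity
  set F : ℕ → ℝ → ℝ := fun n τ => I (C.J ((n : ℝ) + 1)⁻¹ (s τ) ^ 2) with hF
  have hFlim : ∀ τ ∈ Icc a b, Tendsto (fun n => F n τ) atTop (𝓝 (I (s τ ^ 2))) := by
    intro τ hτ
    have h1 := h.mem τ hτ
    have h2 : T2 (fun n : ℕ => C.J ((n : ℝ) + 1)⁻¹ (s τ)) (s τ) :=
      ⟨fun n => hC.J_mem2 (hn n) h1, h1, hC.J_tendsto_L2 h1⟩
    have h3 := h2.mul_lim h2
    simpa [sq, hF] using h3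
  -- general Gronwall step
  have key : ∀ c : ℝ, (c = K ∨ c = -K) → ∀ p q : ℝ, p ∈ Icc a b → q ∈ Icc a b → p ≤ q →
      (c = K → Real.exp (-(c * q)) * I (s q ^ 2) ≤ Real.exp (-(c * p)) * I (s p ^ 2)) ∧
      (c = -K → Real.exp (-(c * p)) * I (s p ^ 2) ≤ Real.exp (-(c * q)) * I (s q ^ 2)) := by
    intro c hc p q hp hq hpq
    have hsub : Icc p q ⊆ Icc a b := Icc_subset_Icc hp.1 hq.2
    set G : ℕ → ℝ → ℝ := fun n τ => Real.exp (-(c * τ)) * F n τ with hG
    have hGlim : ∀ τ ∈ Icc a b, Tendsto (fun n => G n τ) atTop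
        (𝓝 (Real.exp (-(c * τ)) * I (s τ ^ 2))) := fun τ hτ => (hFlim τ hτ).const_mul _
    have hFac : ∀ n, AbsolutelyContinuousOnInterval (F n) p q := by
      intro n
      refine LipschitzOnWith.absolutelyContinuousOnInterval
        (K := Real.toNNReal (R * √((((n : ℝ) + 1)⁻¹)⁻¹ * (4 * R ^ 2)))) ?_
      rw [uIcc_of_le hpq]
      refine LipschitzOnWith.of_dist_le_mul fun x hx y hy => ?_
      rw [Real.coe_toNNReal _ (by positivity), Real.dist_eq, Real.dist_eq]
      exact hC.ce_F_lip (hn n) hR h (hsub hx) (hsub hy)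
    have hEac : AbsolutelyContinuousOnInterval (fun τ => Real.exp (-(c * τ))) p q := by
      have hcd : ContDiff ℝ 1 fun τ : ℝ => Real.exp (-(c * τ)) := by fun_prop
      obtain ⟨L, hL⟩ := (hcd.contDiffOn (s := Icc p q)).exists_lipschitzOnWith (by norm_num)
        (convex_Icc p q) isCompact_Icc
      refine LipschitzOnWith.absolutelyContinuousOnInterval (K := L) ?_
      rw [uIcc_of_le hpq]
      exact hL
    have hGac : ∀ n, AbsolutelyContinuousOnInterval (G n) p q := fun n => hEac.mul (hFac n)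
    -- the derivative
    obtain ⟨B, hB0, hB⟩ : ∃ B : ℝ, 0 ≤ B ∧ ∀ τ ∈ Icc p q, Real.exp (-(c * τ)) ≤ B := by
      refine ⟨Real.exp (|c| * (|p| + |q|)), (Real.exp_pos _).le, fun τ hτ => ?_⟩
      rw [Real.exp_le_exp]
      have h1 : |τ| ≤ |p| + |q| := by
        rw [abs_le]
        constructor
        · linarith [neg_abs_le p, abs_nonneg q, hτ.1]
        · linarith [le_abs_self q, abs_nonneg p, hτ.2]
      calc -(c * τ) ≤ |c * τ| := neg_le_abs _
        _ = |c| * |τ| := abs_mul _ _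
        _ ≤ _ := by gcongr
    have hGd : ∀ᵐ τ, τ ∈ Ioo p q → ∀ n, (c = K → deriv (G n) τ ≤
          2 * B * |C.Comm ((n : ℝ) + 1)⁻¹ (η τ) (s τ)|) ∧
        (c = -K → -(2 * B * |C.Comm ((n : ℝ) + 1)⁻¹ (η τ) (s τ)|) ≤ deriv (G n) τ) := by
      filter_upwards [h.der] with τ hτ hτ1 n
      have hτ2 : τ ∈ Ioo a b := ⟨lt_of_le_of_lt hp.1 hτ1.1, lt_of_lt_of_le hτ1.2 hq.2⟩
      have hτ3 : τ ∈ Icc a b := Ioo_subset_Icc_self hτ2
      have d1 := hC.ce_F_deriv (hn n) hR h hτ2 (hτ hτ2)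
      obtain ⟨k, hk1, hk2⟩ := hη τ hτ3
      have d2 := hC.ce_F_deriv_le (hn n) hR h hτ3 hk1 hk2
      set D := 2 * I (C.Γ (C.J ((n : ℝ) + 1)⁻¹ (C.J ((n : ℝ) + 1)⁻¹ (s τ))) (η τ) * s τ) with hD
      have d3 : HasDerivAt (fun τ : ℝ => Real.exp (-(c * τ))) (Real.exp (-(c * τ)) * (-c)) τ := by
        have := ((hasDerivAt_id τ).const_mul c).neg.exp
        simpa using this
      have d4 : HasDerivAt (G n) (Real.exp (-(c * τ)) * (-c) * F n τ
          + Real.exp (-(c * τ)) * D) τ := d3.mul d1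
      rw [d4.deriv]
      have hF0 : 0 ≤ F n τ := I_sq_nonneg _
      have hE0 := Real.exp_pos (-(c * τ))
      have hB1 := hB τ ⟨hτ1.1.le, hτ1.2.le⟩
      have hc0 := abs_nonneg (C.Comm ((n : ℝ) + 1)⁻¹ (η τ) (s τ))
      have d5 := abs_le.1 d2
      have d6 : I (C.J ((n : ℝ) + 1)⁻¹ (s τ) ^ 2) = F n τ := rfl
      rw [d6] at d5
      have e0 : Real.exp (-(c * τ)) * (-c) * F n τ + Real.exp (-(c * τ)) * D
          = Real.exp (-(c * τ)) * (D - c * F n τ) := by ring
      rw [e0]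
      constructor
      · intro hcK
        subst hcK
        calc Real.exp (-(c * τ)) * (D - c * F n τ)
            ≤ Real.exp (-(c * τ)) * (2 * |C.Comm ((n : ℝ) + 1)⁻¹ (η τ) (s τ)|) :=
              mul_le_mul_of_nonneg_left (by linarith [d5.2]) hE0.le
          _ ≤ B * (2 * |C.Comm ((n : ℝ) + 1)⁻¹ (η τ) (s τ)|) := by gcongr
          _ = _ := by ring
      · intro hcK
        have : D - c * F n τ ≥ -(2 * |C.Comm ((n : ℝ) + 1)⁻¹ (η τ) (s τ)|) := by
          rw [hcK]; linarith [d5.1]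
        calc -(2 * B * |C.Comm ((n : ℝ) + 1)⁻¹ (η τ) (s τ)|)
            = B * (-(2 * |C.Comm ((n : ℝ) + 1)⁻¹ (η τ) (s τ)|)) := by ring
          _ ≤ Real.exp (-(c * τ)) * (-(2 * |C.Comm ((n : ℝ) + 1)⁻¹ (η τ) (s τ)|)) :=
              mul_le_mul_of_nonpos_right hB1 (by linarith)
          _ ≤ _ := mul_le_mul_of_nonneg_left this hE0.le
    -- the limit of the integrals
    have hae : ∀ᵐ τ, τ ∈ uIoc p q → τ ∈ Ioo p q := by
      have : ∀ᵐ τ : ℝ, τ ≠ q := by
        simp [ae_iff, measure_singleton]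
      filter_upwards [this] with τ h1 h2
      rw [uIoc_of_le hpq] at h2
      exact ⟨h2.1, lt_of_le_of_ne h2.2 h1⟩
    have hC0 : 0 ≤ C0 := (abs_nonneg _).trans (c1 n0 le_rfl p hp)
    constructor
    · intro hcK
      have hlim1 : Tendsto (fun n => ∫ τ in p..q, max (deriv (G n) τ) 0) atTop
          (𝓝 (∫ τ in p..q, (0 : ℝ))) := by
        refine intervalIntegral.tendsto_integral_filter_of_dominated_convergence
          (fun _ => 2 * B * C0) ?_ ?_ ?_ ?_
        · exact Eventually.of_forall fun n =>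
            ((measurable_deriv (G n)).max measurable_const).aestronglyMeasurable
        · filter_upwards [eventually_ge_atTop n0] with n hn0
          filter_upwards [hGd, hae] with τ h1 h2 h3
          have h4 := (h1 (h2 h3) n).1 hcK
          have h5 := c1 n hn0 τ (hsub (Ioo_subset_Icc_self (h2 h3)))
          rw [Real.norm_eq_abs, abs_of_nonneg (le_max_right _ _)]
          refine max_le (h4.trans (by gcongr)) (by positivity)
        · exact intervalIntegrable_const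
        · filter_upwards [hGd, hae] with τ h1 h2 h3
          have h6 := (c2 τ (hsub (Ioo_subset_Icc_self (h2 h3)))).abs.const_mul (2 * B)
          rw [abs_zero, mul_zero] at h6
          refine squeeze_zero (fun n => le_max_right _ _) (fun n => ?_) h6
          exact max_le ((h1 (h2 h3) n).1 hcK) (by positivity)
      have hlim0 : Tendsto (fun n => ∫ τ in p..q, max (deriv (G n) τ) 0) atTop (𝓝 0) := by
        simpa using hlim1
      have hle : ∀ n, G n q - G n p ≤ ∫ τ in p..q, max (deriv (G n) τ) 0 := by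
        intro n
        rw [← (hGac n).integral_deriv_eq_sub]
        refine intervalIntegral.integral_mono_on hpq (hGac n).intervalIntegrable_deriv ?_
          fun τ _ => le_max_left _ _
        exact ⟨(hGac n).intervalIntegrable_deriv.1.sup (intervalIntegrable_const (c := (0 : ℝ))).1,
          (hGac n).intervalIntegrable_deriv.2.sup (intervalIntegrable_const (c := (0 : ℝ))).2⟩
      have h7 := le_of_tendsto_of_tendsto' ((hGlim q hq).sub (hGlim p hp)) hlim0 hle
      linarith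
    · intro hcK
      have hlim1 : Tendsto (fun n => ∫ τ in p..q, min (deriv (G n) τ) 0) atTop
          (𝓝 (∫ τ in p..q, (0 : ℝ))) := by
        refine intervalIntegral.tendsto_integral_filter_of_dominated_convergence
          (fun _ => 2 * B * C0) ?_ ?_ ?_ ?_
        · exact Eventually.of_forall fun n =>
            ((measurable_deriv (G n)).min measurable_const).aestronglyMeasurable
        · filter_upwards [eventually_ge_atTop n0] with n hn0
          filter_upwards [hGd, hae] with τ h1 h2 h3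
          have h4 := (h1 (h2 h3) n).2 hcK
          have h5 := c1 n hn0 τ (hsub (Ioo_subset_Icc_self (h2 h3)))
          rw [Real.norm_eq_abs, abs_of_nonpos (min_le_right _ _)]
          have h6 : -(2 * B * C0) ≤ min (deriv (G n) τ) 0 := by
            refine le_min (le_trans ?_ h4) (by linarith [mul_nonneg (mul_nonneg zero_le_two hB0) hC0])
            have : 2 * B * |C.Comm ((n : ℝ) + 1)⁻¹ (η τ) (s τ)| ≤ 2 * B * C0 := by gcongr
            linarith
          linarith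
        · exact intervalIntegrable_const
        · filter_upwards [hGd, hae] with τ h1 h2 h3
          have h6 := (c2 τ (hsub (Ioo_subset_Icc_self (h2 h3)))).abs.const_mul (2 * B)
          rw [abs_zero, mul_zero] at h6
          have h7 := h6.neg
          rw [neg_zero] at h7
          refine tendsto_of_tendsto_of_tendsto_of_le_of_le h7 tendsto_const_nhds (fun n => ?_)
            (fun n => min_le_right _ _)
          exact le_min ((h1 (h2 h3) n).2 hcK) (by
            have : 0 ≤ 2 * B * |C.Comm ((n : ℝ) + 1)⁻¹ (η τ) (s τ)| := by positivity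
            linarith)
      have hlim0 : Tendsto (fun n => ∫ τ in p..q, min (deriv (G n) τ) 0) atTop (𝓝 0) := by
        simpa using hlim1
      have hle : ∀ n, (∫ τ in p..q, min (deriv (G n) τ) 0) ≤ G n q - G n p := by
        intro n
        rw [← (hGac n).integral_deriv_eq_sub]
        refine intervalIntegral.integral_mono_on hpq ?_ (hGac n).intervalIntegrable_deriv
          fun τ _ => min_le_left _ _
        exact ⟨(hGac n).intervalIntegrable_deriv.1.inf (intervalIntegrable_const (c := (0 : ℝ))).1,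
          (hGac n).intervalIntegrable_deriv.2.inf (intervalIntegrable_const (c := (0 : ℝ))).2⟩
      have h7 := le_of_tendsto_of_tendsto' hlim0 ((hGlim q hq).sub (hGlim p hp)) hle
      linarith
  rcases le_total r t with hrt | hrt
  · have h1 := (key K (Or.inl rfl) r t hr ht hrt).1 rfl
    rw [abs_of_nonneg (sub_nonneg.2 hrt)]
    have e1 : Real.exp (K * (t - r)) = Real.exp (K * t) * Real.exp (-(K * r)) := by
      rw [← Real.exp_add]; congr 1; ring
    have h2 := mul_le_mul_of_nonneg_left h1 (Real.exp_pos (K * t)).le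
    rw [← mul_assoc, ← Real.exp_add, add_neg_cancel, Real.exp_zero, one_mul] at h2
    rw [e1, mul_assoc]
    exact h2
  · have h1 := (key (-K) (Or.inr rfl) t r ht hr hrt).2 rfl
    rw [abs_of_nonpos (sub_nonpos.2 hrt)]
    have h2 := mul_le_mul_of_nonneg_left h1 (Real.exp_pos (-(K * t))).le
    have e1 : Real.exp (-(K * t)) * (Real.exp (-(-K * t)) * I (s t ^ 2)) = I (s t ^ 2) := by
      rw [← mul_assoc, ← Real.exp_add]
      have : -(K * t) + -(-K * t) = 0 := by ring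
      rw [this, Real.exp_zero, one_mul]
    have e2 : Real.exp (-(K * t)) * (Real.exp (-(-K * r)) * I (s r ^ 2))
        = Real.exp (K * -(t - r)) * I (s r ^ 2) := by
      rw [← mul_assoc, ← Real.exp_add]
      congr 2; ring
    rwa [e1, e2] at h2

end IsDir

end Vale.Agent.P233
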